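import Vale.Agent.Lib.P235.SysBuild

namespace Vale.Agent.Lib.P235

noncomputable section

open Function

variable {V : Type} [DecidableEq V]

section dist

variable {G : SimpleGraph V} {l : Sym2 V → ℝ}

omit [DecidableEq V] in
lemma walk_sum_nonneg (hl : ∀ e ∈ G.edgeSet, 0 < l e) {x y : V} (p : G.Walk x y) :
    0 ≤ (p.edges.map l).sum := by
  apply List.sum_nonneg
  intro a ha
  obtain ⟨e, he, rfl⟩ := List.mem_map.1 ha
  exact (hl e (p.edges_subset_edgeSet he)).le

omit [DecidableEq V] in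
lemma pathDist_le (hl : ∀ e ∈ G.edgeSet, 0 < l e) {x y : V} (p : G.Walk x y) :
    pathDist G l x y ≤ (p.edges.map l).sum := by
  have hb : BddBelow (Set.range fun p : G.Walk x y => (p.edges.map l).sum) :=
    ⟨0, by rintro _ ⟨q, rfl⟩; exact walk_sum_nonneg hl q⟩
  exact ciInf_le hb p

omit [DecidableEq V] in
lemma le_pathDist (hG : G.Connected) {x y : V} {c : ℝ} (h : ∀ p : G.Walk x y, c ≤ (p.edges.map l).sum) :
    c ≤ pathDist G l x y := by
  have : Nonempty (G.Walk x y) := hG.preconnected x y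
  exact le_ciInf h

omit [DecidableEq V] in
lemma pathDist_nonneg (hG : G.Connected) (hl : ∀ e ∈ G.edgeSet, 0 < l e) (x y : V) :
    0 ≤ pathDist G l x y :=
  le_pathDist hG (walk_sum_nonneg hl)

omit [DecidableEq V] in
lemma pathDist_self (hG : G.Connected) (hl : ∀ e ∈ G.edgeSet, 0 < l e) (x : V) :
    pathDist G l x x = 0 := by
  apply le_antisymm _ (pathDist_nonneg hG hl x x)
  have := pathDist_le hl (SimpleGraph.Walk.nil : G.Walk x x)
  simpa using this

omit [DecidableEq V] in
lemma pathDist_le_comm (hG : G.Connected) (hl : ∀ e ∈ G.edgeSet, 0 < l e) (x y : V) :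
    pathDist G l x y ≤ pathDist G l y x := by
  apply le_pathDist hG
  intro q
  have h := pathDist_le hl q.reverse
  rw [SimpleGraph.Walk.edges_reverse, List.map_reverse, List.sum_reverse] at h
  exact h

omit [DecidableEq V] in
lemma pathDist_comm (hG : G.Connected) (hl : ∀ e ∈ G.edgeSet, 0 < l e) (x y : V) :
    pathDist G l x y = pathDist G l y x :=
  le_antisymm (pathDist_le_comm hG hl x y) (pathDist_le_comm hG hl y x)

omit [DecidableEq V] in
lemma pathDist_tri (hG : G.Connected) (hl : ∀ e ∈ G.edgeSet, 0 < l e) (x y z : V) :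
    pathDist G l x z ≤ pathDist G l x y + pathDist G l y z := by
  have h1 : ∀ (p : G.Walk x y) (q : G.Walk y z),
      pathDist G l x z ≤ (p.edges.map l).sum + (q.edges.map l).sum := by
    intro p q
    have h := pathDist_le hl (p.append q)
    rw [SimpleGraph.Walk.edges_append, List.map_append, List.sum_append] at h
    exact h
  have h2 : ∀ q : G.Walk y z, pathDist G l x z - (q.edges.map l).sum ≤ pathDist G l x y := by
    intro q
    apply le_pathDist hG
    intro p
    have := h1 p q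
    linarith
  have h3 : pathDist G l x z - pathDist G l x y ≤ pathDist G l y z := by
    apply le_pathDist hG
    intro q
    have := h2 q
    linarith
  linarith

omit [DecidableEq V] in
lemma pathDist_edge (hl : ∀ e ∈ G.edgeSet, 0 < l e) {u v : V} (h : G.Adj u v) :
    pathDist G l u v ≤ l s(u, v) := by
  have := pathDist_le hl (SimpleGraph.Walk.cons h SimpleGraph.Walk.nil)
  simpa using this

end dist

/-- The metric extended by three far away points. -/
def dmx (d : V → V → ℝ) (M : ℝ) : V ⊕ Fin 3 → V ⊕ Fin 3 → ℝ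
  | Sum.inl a, Sum.inl b => d a b
  | Sum.inl _, Sum.inr _ => M
  | Sum.inr _, Sum.inl _ => M
  | Sum.inr i, Sum.inr j => if i = j then 0 else 2 * M

omit [DecidableEq V] in
lemma dmx_met {d : V → V → ℝ} {M : ℝ} (hself : ∀ a, d a a = 0) (hcomm : ∀ a b, d a b = d b a)
    (htri : ∀ a b c, d a b ≤ d a c + d c b) (h0 : ∀ a b, 0 ≤ d a b) (hM : ∀ a b, d a b ≤ M)
    (hM0 : 0 ≤ M) : Met (dmx d M) := by
  have hif : ∀ i j : Fin 3, (0:ℝ) ≤ if i = j then 0 else 2 * M := by
    intro i j
    split_ifs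
    · exact le_refl _
    · linarith
  have hif2 : ∀ i j : Fin 3, (if i = j then (0:ℝ) else 2 * M) ≤ 2 * M := by
    intro i j
    split_ifs
    · linarith
    · exact le_refl _
  refine ⟨?_, ?_, ?_⟩
  · rintro (a | i)
    · exact hself a
    · simp [dmx]
  · rintro (a | i) (b | j)
    · exact hcomm a b
    · rfl
    · rfl
    · simp only [dmx]
      by_cases h : i = j
      · simp [h]
      · rw [if_neg h, if_neg (Ne.symm h)]
  · rintro (a | i) (b | j) (c | k)
    · exact htri a b c
    · simp only [dmx]; linarith [hM a b]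
    · simp only [dmx]; linarith [h0 a c]
    · simp only [dmx]; linarith [hif k j]
    · simp only [dmx]; linarith [h0 c b]
    · simp only [dmx]; linarith [hif i k]
    · simp only [dmx]; linarith [hif2 i j]
    · simp only [dmx]
      by_cases h1 : i = j
      · rw [if_pos h1]; linarith [hif i k, hif k j]
      · rw [if_neg h1]
        by_cases h2 : i = k
        · have h3 : k ≠ j := fun e => h1 (h2.trans e)
          rw [if_pos h2, if_neg h3]; linarith
        · rw [if_neg h2]; linarith [hif k j]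

lemma new_upper {N : Type} [DecidableEq N] {dm : N → N → ℝ} {S : Sys N} {L : List N} (H : S.OK L)
    (hNodes : ∀ z ∈ L, NodeOK dm S z) {z : N} (hz : z ∈ L) (i : Fin 3) :
    S.d L z (S.T z i) ≤ dm z (S.T z i) := by
  obtain ⟨a0, a1, a2⟩ := new_all H (fun v hv => hv) H.hWF hz
  have K := (hNodes z hz).K
  rcases fin3_cases i with rfl | rfl | rfl
  · rw [a0]; exact K.hE0
  · rw [a1]; exact K.hE1
  · rw [a2]; exact K.hE2

lemma d_walk_le {G : SimpleGraph V} {l : Sym2 V → ℝ} {S : Sys (V ⊕ Fin 3)} {L : List (V ⊕ Fin 3)}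
    (H : S.OK L) (hedge : ∀ u v, G.Adj u v → S.d L (Sum.inl u) (Sum.inl v) ≤ l s(u, v))
    {x y : V} (p : G.Walk x y) : S.d L (Sum.inl x) (Sum.inl y) ≤ (p.edges.map l).sum := by
  induction p with
  | nil => rw [d_self']; simp
  | @cons u v w h p ih =>
    rw [SimpleGraph.Walk.edges_cons, List.map_cons, List.sum_cons]
    have h1 := d_tri' H (Sum.inl u) (Sum.inl v) (Sum.inl w)
    have h2 := hedge u v h
    linarith

/-- The system attached to a graph with a tree decomposition of width at most three. -/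
theorem core_system [Fintype V] {G : SimpleGraph V} (hG : G.Connected) {l : Sym2 V → ℝ}
    (hl : ∀ e ∈ G.edgeSet, 0 < l e) {I : Type} [Fintype I] {T : SimpleGraph I} {B : I → Finset V}
    (hD : IsTreeDecomp G T B) (hw : ∀ t, (B t).card ≤ 4) :
    ∃ (S : Sys (V ⊕ Fin 3)) (L : List (V ⊕ Fin 3)), S.OK L ∧ ∀ x y : V,
      S.d L (Sum.inl x) (Sum.inl y) ≤ pathDist G l x y ∧
      pathDist G l x y ≤ CC * S.d L (Sum.inl x) (Sum.inl y) := by
  obtain ⟨L0, A, hE, hcov, hadj⟩ := elim_of_decomp hD hw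
  obtain ⟨par, Tb, h0, h1, _, hW, _, hR⟩ := sys_exists hE
  set d := pathDist G l with hd
  have hd0 : ∀ a b, 0 ≤ d a b := pathDist_nonneg hG hl
  set M : ℝ := ∑ x, ∑ y, d x y with hMdef
  have hM0 : 0 ≤ M := Finset.sum_nonneg fun x _ => Finset.sum_nonneg fun y _ => hd0 x y
  have hM : ∀ a b, d a b ≤ M := by
    intro a b
    calc d a b ≤ ∑ y, d a y :=
          Finset.single_le_sum (f := fun y => d a y) (fun y _ => hd0 a y) (Finset.mem_univ b)
      _ ≤ M := Finset.single_le_sum (f := fun x => ∑ y, d x y)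
          (fun x _ => Finset.sum_nonneg fun y _ => hd0 x y) (Finset.mem_univ a)
  have hMet : Met (dmx d M) := dmx_met (pathDist_self hG hl) (pathDist_comm hG hl)
    (fun a b c => pathDist_tri hG hl a c b) hd0 hM hM0
  -- the initial data
  set S0 : Sys (V ⊕ Fin 3) := ⟨Sum.inr, Tb, par, fun _ => M / 8, 0, 0, 0⟩ with hS0
  have hroot : GoodSt (S0.l0 0) (S0.l0 1) (S0.l0 2) (dmx d M (S0.R 0) (S0.R 1))
      (dmx d M (S0.R 0) (S0.R 2)) (dmx d M (S0.R 1) (S0.R 2)) := by
    have e01 : dmx d M (Sum.inr 0) (Sum.inr 1) = 2 * M := by simp [dmx]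
    have e02 : dmx d M (Sum.inr 0) (Sum.inr 2) = 2 * M := by simp [dmx]
    have e12 : dmx d M (Sum.inr 1) (Sum.inr 2) = 2 * M := by simp [dmx]
    show GoodSt (M / 8) (M / 8) (M / 8) (dmx d M (Sum.inr 0) (Sum.inr 1))
      (dmx d M (Sum.inr 0) (Sum.inr 2)) (dmx d M (Sum.inr 1) (Sum.inr 2))
    rw [e01, e02, e12]
    refine ⟨by positivity, by positivity, by positivity, by linarith, by linarith, by linarith,
      by linarith, by linarith, by linarith, Or.inl ?_⟩
    have h3 : 0 ≤ M ^ 3 := by positivity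
    nlinarith
  obtain ⟨S, e1, e2, e3, _, hOK, hNodes⟩ := build_data hMet S0 hroot Sum.inr_injective h0 h1
    (WF_transfer (S := mk0 par Tb) (S' := S0) rfl rfl hW)
  set L := L0.map (Sum.inl : V → V ⊕ Fin 3) with hL
  have hmem : ∀ a : V, (Sum.inl a : V ⊕ Fin 3) ∈ L := fun a => List.mem_map_of_mem (hcov a)
  have heT : S.T = Tb := e2
  have hedge1 : ∀ u v : V, u ∈ A v → S.d L (Sum.inl v) (Sum.inl u) ≤ l s(u, v) ∨ ¬ G.Adj u v := by
    intro u v huv
    by_cases hadjuv : G.Adj u v
    · left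
      obtain ⟨i, hi⟩ := hR v (hcov v) u huv
      have h3 := new_upper hOK hNodes (hmem v) i
      rw [heT, hi] at h3
      have h4 : dmx d M (Sum.inl v) (Sum.inl u) = d v u := rfl
      rw [h4] at h3
      have h5 : d v u ≤ l s(v, u) := pathDist_edge hl hadjuv.symm
      rw [Sym2.eq_swap] at h5
      linarith
    · right; exact hadjuv
  have hedge : ∀ u v, G.Adj u v → S.d L (Sum.inl u) (Sum.inl v) ≤ l s(u, v) := by
    intro u v huv
    rcases hadj u v huv with h | h
    · rcases hedge1 u v h with h2 | h2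
      · rw [d_comm]; exact h2
      · exact absurd huv h2
    · rcases hedge1 v u h with h2 | h2
      · rw [Sym2.eq_swap]; exact h2
      · exact absurd huv.symm h2
  have hupper : ∀ x y : V, S.d L (Sum.inl x) (Sum.inl y) ≤ d x y := by
    intro x y
    apply le_pathDist hG
    intro p
    exact d_walk_le hOK hedge p
  refine ⟨S, L, hOK, ?_⟩
  intro x y
  refine ⟨hupper x y, ?_⟩
  have := final_bound hMet hOK hNodes (fun u => ∃ a : V, u = Sum.inl a)
    (by
      rintro _ _ ⟨a, rfl⟩ ⟨b, rfl⟩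
      exact hupper a b)
    (by
      rintro (c | i) hu _ _ ⟨a, rfl⟩ ⟨b, rfl⟩
      · exact absurd ⟨c, rfl⟩ hu
      · exact hM a b)
    (a := Sum.inl x) (y := Sum.inl y) ⟨x, rfl⟩ ⟨y, rfl⟩ (hmem x) (hmem y)
  exact this

/-- Finite sums under the functional. -/
lemma EE_finset_sum {N : Type} [DecidableEq N] {R : Fin 3 → N} {l0 : Fin 3 → ℝ} {T : N → Fin 3 → N}
    {x : N → Fin 3 → ℝ} {w : N → ℝ} (l : List N) {ι : Type} (s : Finset ι)
    (g : ι → (N → Bool) → ℝ) :
    EE R l0 T x w l (fun τ => ∑ i ∈ s, g i τ) = ∑ i ∈ s, EE R l0 T x w l (g i) := by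
  classical
  induction s using Finset.induction_on with
  | empty =>
    have h := EE_smul (R := R) (l0 := l0) (T := T) (x := x) (w := w) l 0 (fun _ => 0)
    simp only [zero_mul, Finset.sum_empty] at h ⊢
    exact h
  | insert a s ha ih =>
    simp only [Finset.sum_insert ha]
    rw [EE_add, ih]

lemma FF_bit_abs (a b : Bool) : FF (bit a) (bit b) = |bit a - bit b| := by
  cases a <;> cases b <;> simp [FF]

/-- The semimetric of a system is a cut semimetric. -/
theorem d_as_sum {N : Type} [DecidableEq N] [Fintype N] {S : Sys N} {L : List N} (H : S.OK L) :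
    ∃ a : (N → Bool) → ℝ, (∀ σ, 0 ≤ a σ) ∧
      ∀ u v, S.d L u v = ∑ σ, a σ * |bit (σ u) - bit (σ v)| := by
  classical
  refine ⟨fun σ => S.E L (fun τ => if τ = σ then 1 else 0), ?_, ?_⟩
  · intro σ
    apply EE_nonneg H.hl0 H.hPos
    intro τ
    split_ifs <;> norm_num
  · intro u v
    have e : (fun τ : N → Bool => FF (bit (τ u)) (bit (τ v)))
        = fun τ => ∑ σ, |bit (σ u) - bit (σ v)| * (if τ = σ then 1 else 0) := by
      funext τ
      simp only [mul_ite, mul_one, mul_zero, Finset.sum_ite_eq, Finset.mem_univ, if_true]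
      exact FF_bit_abs _ _
    unfold Sys.d dF
    rw [e, EE_finset_sum]
    apply Finset.sum_congr rfl
    intro σ _
    rw [EE_smul]
    unfold Sys.E
    ring

/-- The main theorem with the constant of the construction. -/
theorem main_tw3 [Fintype V] {G : SimpleGraph V} (hG : G.Connected) {l : Sym2 V → ℝ}
    (hl : ∀ e ∈ G.edgeSet, 0 < l e) {I : Type} [Fintype I] {T : SimpleGraph I} {B : I → Finset V}
    (hD : IsTreeDecomp G T B) (hw : ∀ t, (B t).card ≤ 4) :
    ∃ (Ω : Type) (_ : Fintype Ω) (μ : Ω → ℝ) (f : V → Ω → ℝ), (∀ ω, 0 ≤ μ ω) ∧ ∀ x y,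
      pathDist G l x y ≤ ∑ ω, μ ω * |f x ω - f y ω| ∧
      ∑ ω, μ ω * |f x ω - f y ω| ≤ 2000000000000000000 * pathDist G l x y := by
  obtain ⟨S, L, hOK, hb⟩ := core_system hG hl hD hw
  obtain ⟨a, ha0, ha⟩ := d_as_sum hOK
  refine ⟨(V ⊕ Fin 3) → Bool, inferInstance, fun σ => CC * a σ, fun x σ => bit (σ (Sum.inl x)),
    fun σ => mul_nonneg CC_pos.le (ha0 σ), ?_⟩
  intro x y
  have e : ∑ ω : (V ⊕ Fin 3) → Bool, CC * a ω * |bit (ω (Sum.inl x)) - bit (ω (Sum.inl y))|
      = CC * S.d L (Sum.inl x) (Sum.inl y) := by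
    rw [ha, Finset.mul_sum]
    apply Finset.sum_congr rfl
    intro σ _
    ring
  obtain ⟨h1, h2⟩ := hb x y
  refine ⟨?_, ?_⟩
  · rw [e]; exact h2
  · rw [e]
    have h3 : 0 ≤ pathDist G l x y := pathDist_nonneg hG hl x y
    have h4 : CC * S.d L (Sum.inl x) (Sum.inl y) ≤ CC * pathDist G l x y :=
      mul_le_mul_of_nonneg_left h1 CC_pos.le
    have h5 : CC ≤ 2000000000000000000 := by unfold CC CC0; norm_num
    have h6 := mul_le_mul_of_nonneg_right h5 h3
    linarith

end

end Vale.Agent.Lib.P235
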