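import Vale.Agent.Lib.P235.Cert

namespace Vale.Agent.Lib.P235

noncomputable section

open Function

variable {N : Type} [DecidableEq N]

/-- The facts at a node, for explicit functions. -/
structure NodeF (dm : N → N → ℝ) (T : N → Fin 3 → N) (leg x : N → Fin 3 → ℝ) (w : N → ℝ) (z : N) : Prop where
  G : GoodSt (leg z 0) (leg z 1) (leg z 2) (dm (T z 0) (T z 1)) (dm (T z 0) (T z 2)) (dm (T z 1) (T z 2))
  K : KOK (leg z 0) (leg z 1) (leg z 2) (dm z (T z 0)) (dm z (T z 1)) (dm z (T z 2))
    (dm (T z 0) (T z 1)) (dm (T z 0) (T z 2)) (dm (T z 1) (T z 2)) (x z 0) (x z 1) (x z 2) (w z)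

lemma triR_of {dm : N → N → ℝ} (M : Met dm) (z : N) (B : Fin 3 → N) :
    TriR (dm z (B 0)) (dm z (B 1)) (dm z (B 2)) (dm (B 0) (B 1)) (dm (B 0) (B 2)) (dm (B 1) (B 2)) := by
  have key : ∀ a b : N, (dm z a ≤ dm z b + dm a b) ∧ (dm z b ≤ dm z a + dm a b) ∧
      (dm a b ≤ dm z a + dm z b) := by
    intro a b
    refine ⟨?_, ?_, ?_⟩
    · have := M.tri z a b
      rw [M.comm b a] at this
      exact this
    · exact M.tri z b a
    · have := M.tri a b z
      rw [M.comm a z] at this
      exact this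
  obtain ⟨a1, a2, a3⟩ := key (B 0) (B 1)
  obtain ⟨b1, b2, b3⟩ := key (B 0) (B 2)
  obtain ⟨c1, c2, c3⟩ := key (B 1) (B 2)
  exact ⟨M.nonneg _ _, M.nonneg _ _, M.nonneg _ _, a1, a2, a3, b1, b2, b3, c1, c2, c3⟩

/-- The state of a child bag. -/
lemma child_good {dm : N → N → ℝ} (M : Met dm) {T : N → Fin 3 → N} {leg x : N → Fin 3 → ℝ} {w : N → ℝ}
    {u : N} (hN : NodeF dm T leg x w u) (c : Fin 3) :
    GoodSt (childL (leg u) (x u) (w u) c 0) (childL (leg u) (x u) (w u) c 1)
      (childL (leg u) (x u) (w u) c 2)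
      (dm (childT (T u) c u 0) (childT (T u) c u 1))
      (dm (childT (T u) c u 0) (childT (T u) c u 2))
      (dm (childT (T u) c u 1) (childT (T u) c u 2)) := by
  rcases fin3_cases c with rfl | rfl | rfl
  · have h := hN.K.hG0
    show GoodSt _ _ _ (dm (T u 1) (T u 2)) (dm (T u 1) u) (dm (T u 2) u)
    rw [M.comm (T u 1) u, M.comm (T u 2) u]
    exact h
  · have h := hN.K.hG1
    show GoodSt _ _ _ (dm (T u 2) (T u 0)) (dm (T u 2) u) (dm (T u 0) u)
    rw [M.comm (T u 2) (T u 0), M.comm (T u 2) u, M.comm (T u 0) u]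
    exact h
  · have h := hN.K.hG2
    show GoodSt _ _ _ (dm (T u 0) (T u 1)) (dm (T u 0) u) (dm (T u 1) u)
    rw [M.comm (T u 0) u, M.comm (T u 1) u]
    exact h

/-- Numerical data along a list. -/
theorem build_aux {dm : N → N → ℝ} (M : Met dm) (S0 : Sys N)
    (hroot : GoodSt (S0.l0 0) (S0.l0 1) (S0.l0 2) (dm (S0.R 0) (S0.R 1)) (dm (S0.R 0) (S0.R 2))
      (dm (S0.R 1) (S0.R 2)))
    (hT0 : ∀ m, S0.par m = none → S0.T m = S0.R)
    (hT1 : ∀ m u c, S0.par m = some (u, c) → S0.T m = childT (S0.T u) c u)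
    {L : List N} (hW : WF S0 L) :
    ∃ (leg x : N → Fin 3 → ℝ) (w : N → ℝ), ∀ z ∈ L,
      (S0.par z = none → leg z = S0.l0) ∧
      (∀ u c, S0.par z = some (u, c) → leg z = childL (leg u) (x u) (w u) c) ∧
      NodeF dm S0.T leg x w z := by
  induction L with
  | nil => exact ⟨fun _ _ => 0, fun _ _ => 0, fun _ => 0, by simp⟩
  | cons z l ih =>
    obtain ⟨hz, _, hBz, hW'⟩ := hW
    obtain ⟨leg, x, w, hall⟩ := ih hW'
    -- the legs at z
    obtain ⟨legz, h1, h2, hG⟩ : ∃ legz : Fin 3 → ℝ, (S0.par z = none → legz = S0.l0) ∧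
        (∀ u c, S0.par z = some (u, c) → legz = childL (leg u) (x u) (w u) c) ∧
        GoodSt (legz 0) (legz 1) (legz 2) (dm (S0.T z 0) (S0.T z 1)) (dm (S0.T z 0) (S0.T z 2))
          (dm (S0.T z 1) (S0.T z 2)) := by
      rcases hBz with h | ⟨u, c, hu, hul⟩
      · refine ⟨S0.l0, fun _ => rfl, ?_, ?_⟩
        · intro u c hu; rw [h] at hu; simp at hu
        · rw [hT0 z h]; exact hroot
      · refine ⟨childL (leg u) (x u) (w u) c, ?_, ?_, ?_⟩
        · intro h; rw [hu] at h; simp at h
        · intro u' c' hu'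
          rw [hu] at hu'
          simp only [Option.some.injEq, Prod.mk.injEq] at hu'
          rw [← hu'.1, ← hu'.2]
        · rw [hT1 z u c hu]
          exact child_good M (hall u hul).2.2 c
    obtain ⟨x0, x1, x2, wz, K⟩ := kernel_exists hG (triR_of M z (S0.T z))
    refine ⟨update leg z legz, update x z ![x0, x1, x2], update w z wz, ?_⟩
    have hne : ∀ v ∈ l, v ≠ z := fun v hv e => hz (e ▸ hv)
    intro y hy
    rcases List.mem_cons.1 hy with rfl | hy'
    · refine ⟨?_, ?_, ?_⟩
      · intro h; rw [update_self]; exact h1 h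
      · intro u c hu
        rw [update_self]
        have hul : u ∈ l := by
          rcases hBz with h | ⟨u', c', h3, h4⟩
          · rw [h] at hu; simp at hu
          · rw [hu] at h3
            simp only [Option.some.injEq, Prod.mk.injEq] at h3
            rw [h3.1]; exact h4
        rw [update_of_ne (hne u hul), update_of_ne (hne u hul), update_of_ne (hne u hul)]
        exact h2 u c hu
      · constructor
        · rw [update_self]; exact hG
        · simp only [update_self]
          exact K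
    · have hyz := hne y hy'
      obtain ⟨a1, a2, a3⟩ := hall y hy'
      refine ⟨?_, ?_, ?_⟩
      · rw [update_of_ne hyz]; exact a1
      · intro u c hu
        have hul : u ∈ l := by
          rcases WF_mem_bag hW' hy' with h | ⟨u', c', h3, h4⟩
          · rw [h] at hu; simp at hu
          · rw [hu] at h3
            simp only [Option.some.injEq, Prod.mk.injEq] at h3
            rw [h3.1]; exact h4
        rw [update_of_ne hyz, update_of_ne (hne u hul), update_of_ne (hne u hul),
          update_of_ne (hne u hul)]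
        exact a2 u c hu
      · constructor
        · rw [update_of_ne hyz]; exact a3.G
        · simp only [update_of_ne hyz]
          exact a3.K

lemma WF_transfer {S S' : Sys N} (h1 : S'.R = S.R) (h2 : S'.par = S.par) {l : List N}
    (hW : WF S l) : WF S' l := by
  induction l with
  | nil => trivial
  | cons z l ih =>
    obtain ⟨a, b, c, d⟩ := hW
    refine ⟨a, by rw [h1]; exact b, ?_, ih d⟩
    rcases c with c | ⟨u, c', e, f⟩
    · left; rw [h2]; exact c
    · right; exact ⟨u, c', by rw [h2]; exact e, f⟩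

/-- The whole numerical system. -/
theorem build_data {dm : N → N → ℝ} (M : Met dm) (S0 : Sys N)
    (hroot : GoodSt (S0.l0 0) (S0.l0 1) (S0.l0 2) (dm (S0.R 0) (S0.R 1)) (dm (S0.R 0) (S0.R 2))
      (dm (S0.R 1) (S0.R 2)))
    (hR : Injective S0.R)
    (hT0 : ∀ m, S0.par m = none → S0.T m = S0.R)
    (hT1 : ∀ m u c, S0.par m = some (u, c) → S0.T m = childT (S0.T u) c u)
    {L : List N} (hW : WF S0 L) :
    ∃ S : Sys N, S.R = S0.R ∧ S.T = S0.T ∧ S.par = S0.par ∧ S.l0 = S0.l0 ∧ S.OK L ∧
      ∀ z ∈ L, NodeOK dm S z := by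
  obtain ⟨leg, x, w, hall⟩ := build_aux M S0 hroot hT0 hT1 hW
  refine ⟨⟨S0.R, S0.T, S0.par, S0.l0, x, w, leg⟩, rfl, rfl, rfl, rfl, ?_, ?_⟩
  · refine ⟨hR, ?_, hT0, hT1, WF_transfer (S := S0) (S' := ⟨S0.R, S0.T, S0.par, S0.l0, x, w, leg⟩) rfl rfl hW, ?_, ?_, ?_⟩
    · intro i
      rcases fin3_cases i with rfl | rfl | rfl
      · exact hroot.h0
      · exact hroot.h1
      · exact hroot.h2
    · intro z hz
      have K := (hall z hz).2.2.K
      refine ⟨?_, K.hw⟩
      intro i
      rcases fin3_cases i with rfl | rfl | rfl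
      · exact ⟨K.hx00, K.hx01⟩
      · exact ⟨K.hx10, K.hx11⟩
      · exact ⟨K.hx20, K.hx21⟩
    · intro m hm h
      exact (hall m hm).1 h
    · intro m hm u c h
      exact (hall m hm).2.1 u c h
  · intro z hz
    exact ⟨(hall z hz).2.2.G, (hall z hz).2.2.K⟩

end

end Vale.Agent.Lib.P235
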