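import Vale.Agent.Lib.P235.Harm

namespace Vale.Agent.Lib.P235

noncomputable section

/-- The sum of the two flip values in polynomial form. -/
lemma flip_sum_eq {lt lv a b : ℝ} (hlt : 0 < lt) (hlv : 0 < lv) :
    a / 2 / lt + b / 2 / lv = (lv * a + lt * b) / (2 * lv * lt) := by
  field_simp

lemma caps_core {lt lv lu rt rv ru ht hv hu : ℝ}
    (hlt : 0 ≤ lt) (hlv : 0 ≤ lv)
    (tri1 : rv ≤ rt + 1000000 * (lv + lt)) (tri2 : ru ≤ rt + 1000000 * (lu + lt))
    (tri3 : ru ≤ rv + 1000000 * (lu + lv))
    (o1 : ht ≤ hv) (o2 : hv ≤ hu)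
    (pre_t : rt ≤ 1000000 * (lt + ht)) (pre_v : rv ≤ 1000000 * (lv + hv))
    (pre_u : ru ≤ 1000000 * (lu + hu)) :
    ∃ cv cu : ℝ, cv ≤ hv ∧ cu ≤ hu ∧ ht ≤ cv ∧ cv ≤ cu ∧ cu - ht ≤ 2 * lt ∧ cu - cv ≤ 2 * lv ∧
      min hv (ht + 2 * lt) = cv ∧ rv ≤ 1000000 * (lv + cv) ∧ ru ≤ 1000000 * (lu + cu) ∧
      (0 < lt → 0 < lv → (cu - ht) / 2 / lt + (cu - cv) / 2 / lv < 1 → cv = hv ∧ cu = hu) ∧
      (1 < (cu - ht) / 2 / lt + (cu - cv) / 2 / lv →
        0 < lt ∧ 0 < lv ∧ cv = hv ∧ cu ≤ ru / 1000000 - lu) := by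
  set cv := min hv (ht + 2 * lt) with hcv
  set cu1 := min hu (ht + 2 * lt) with hcu1
  have hcv1 : cv ≤ hv := min_le_left _ _
  have hcv2 : cv ≤ ht + 2 * lt := min_le_right _ _
  have hcv3 : ht ≤ cv := le_min o1 (by linarith)
  have hcu11 : cu1 ≤ hu := min_le_left _ _
  have hcu12 : cu1 ≤ ht + 2 * lt := min_le_right _ _
  have hcvcu1 : cv ≤ cu1 := le_min (by linarith) hcv2
  have hBv : rv ≤ 1000000 * (lv + cv) := by
    rcases min_choice hv (ht + 2 * lt) with h | h
    · rw [hcv, h]; exact pre_v
    · rw [hcv, h]; linarith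
  have hBu1 : ru ≤ 1000000 * (lu + cu1) := by
    rcases min_choice hu (ht + 2 * lt) with h | h
    · rw [hcu1, h]; exact pre_u
    · rw [hcu1, h]; linarith
  by_cases hpos : lv + lt = 0
  · -- both legs vanish
    have hlv0 : lv = 0 := by linarith
    have hlt0 : lt = 0 := by linarith
    subst hlv0
    subst hlt0
    have e1 : cv = ht := by linarith
    have e2 : cu1 = ht := by
      have : ht ≤ cu1 := le_trans hcv3 hcvcu1
      linarith
    refine ⟨cv, cu1, hcv1, hcu11, hcv3, hcvcu1, by linarith, by linarith, rfl, hBv, hBu1, ?_, ?_⟩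
    · intro h; exact absurd h (lt_irrefl _)
    · intro h; simp at h; linarith
  · have hpos' : 0 < lv + lt := lt_of_le_of_ne (by linarith) (Ne.symm hpos)
    set P1 := (2 * lv * lt + cv * lt + ht * lv) / (lv + lt) with hP1
    have hP1e : (lv + lt) * P1 = 2 * lv * lt + cv * lt + ht * lv := by
      rw [hP1]; field_simp
    set low := ru / 1000000 - lu with hlow
    have hcvP : cv ≤ P1 := by
      have h1 : (lv + lt) * cv ≤ (lv + lt) * P1 := by
        rw [hP1e]
        have := mul_nonneg hlv (by linarith : 0 ≤ ht + 2 * lt - cv)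
        nlinarith
      exact le_of_mul_le_mul_left h1 hpos'
    have hPcv : P1 ≤ cv + 2 * lv := by
      have h1 : (lv + lt) * P1 ≤ (lv + lt) * (cv + 2 * lv) := by
        rw [hP1e]
        have := mul_nonneg hlv (by linarith : 0 ≤ cv + 2 * lv - ht)
        nlinarith
      exact le_of_mul_le_mul_left h1 hpos'
    have hlowcv : low ≤ cv + 2 * lv := by rw [hlow]; linarith
    set cu := min cu1 (max P1 low) with hcu
    have hcu_1 : cu ≤ cu1 := min_le_left _ _
    have hcu_2 : cu ≤ max P1 low := min_le_right _ _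
    have hcv_cu : cv ≤ cu := le_min hcvcu1 (le_trans hcvP (le_max_left _ _))
    have hcucv : cu ≤ cv + 2 * lv := le_trans hcu_2 (max_le hPcv hlowcv)
    have hBu : ru ≤ 1000000 * (lu + cu) := by
      rcases min_choice cu1 (max P1 low) with h | h
      · rw [hcu, h]; exact hBu1
      · rw [hcu, h]
        have : low ≤ max P1 low := le_max_right _ _
        rw [hlow] at this
        linarith
    refine ⟨cv, cu, hcv1, by linarith, hcv3, hcv_cu, by linarith, by linarith, rfl, hBv, hBu, ?_, ?_⟩
    · intro hlt' hlv' hF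
      rw [flip_sum_eq hlt' hlv', div_lt_one (by positivity)] at hF
      have hcuP : cu < P1 := by
        have h1 : (lv + lt) * cu < (lv + lt) * P1 := by
          rw [hP1e]; nlinarith
        exact lt_of_mul_lt_mul_left h1 hpos'.le
      have hcu_e : cu = cu1 := by
        rcases min_choice cu1 (max P1 low) with h | h
        · rw [hcu, h]
        · exfalso
          have h2 : cu = max P1 low := by rw [hcu, h]
          have h3 : P1 ≤ max P1 low := le_max_left _ _
          linarith
      have hft : cu - ht < 2 * lt := by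
        have h1 : 0 ≤ lt * (cu - cv) := mul_nonneg hlt (by linarith)
        have h2 : lv * (cu - ht) < lv * (2 * lt) := by nlinarith
        exact lt_of_mul_lt_mul_left h2 hlv'.le
      have hcu1e : cu1 = hu := by
        rcases min_choice hu (ht + 2 * lt) with h | h
        · rw [hcu1, h]
        · exfalso
          have h2 : cu1 = ht + 2 * lt := by rw [hcu1, h]
          linarith
      have hcve : cv = hv := by
        apply min_eq_left
        linarith
      exact ⟨hcve, by rw [hcu_e, hcu1e]⟩
    · intro hF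
      have hlt' : 0 < lt := by
        by_contra hcon
        have h0 : lt = 0 := by linarith
        have h1 : cu = ht := by
          have := hcu_1
          rw [h0] at hcu12
          linarith
        have h2 : cu - cv = 0 := by linarith
        rw [h0, h2] at hF
        simp at hF
        linarith
      have hlv' : 0 < lv := by
        by_contra hcon
        have h0 : lv = 0 := by linarith
        rw [h0] at hF
        simp at hF
        have h1 : (cu - ht) / 2 / lt ≤ 1 := by
          have h2 : (cu - ht) / 2 ≤ lt := by linarith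
          exact div_le_one_of_le₀ h2 hlt
        have h3 : (cu - ht) / 2 / lt = (cu - ht) / (2 * lt) := by field_simp
        linarith
      have hF' := hF
      rw [flip_sum_eq hlt' hlv', one_lt_div (by positivity)] at hF'
      have hcuP : P1 < cu := by
        have h1 : (lv + lt) * P1 < (lv + lt) * cu := by
          rw [hP1e]; nlinarith
        exact lt_of_mul_lt_mul_left h1 hpos'.le
      have hcul : cu ≤ low := by
        rcases le_total P1 low with h | h
        · rw [max_eq_right h] at hcu_2; exact hcu_2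
        · rw [max_eq_left h] at hcu_2; linarith
      refine ⟨hlt', hlv', ?_, hcul⟩
      by_contra hne
      have hcv_eq : cv = ht + 2 * lt := by
        rcases min_choice hv (ht + 2 * lt) with h | h
        · exact absurd (by rw [hcv, h]) hne
        · rw [hcv, h]
      have hcu_eq : cu = cv := by linarith
      rw [hcu_eq, hcv_eq] at hF'
      nlinarith

/-- Bound `P ≤ (1 + 3.1e-5) l` from the low cap. -/
lemma low_cap_bound {P l h r u : ℝ} (hl : 0 ≤ l) (hP : P ≤ u) (hu : u ≤ r / 1000000 + l)
    (hr : r ≤ 15 * (l + h)) (hh : h ≤ P) : P ≤ (1 + 31 / 1000000) * l := by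
  have h1 : r / 1000000 ≤ (15 / 1000000) * (l + P) := by linarith
  have h2 : P ≤ (15 / 1000000) * (l + P) + l := by linarith
  have h3 : (1 - 15 / 1000000) * P ≤ (1 + 15 / 1000000) * l := by linarith
  linarith

/-- Excess bound when the smallest target is nonnegative. -/
lemma excess_plain {lt lv ht hv P ft fv : ℝ} (hlt : 0 < lt) (hlv : 0 < lv)
    (hht : 0 ≤ ht) (hhv : 0 ≤ hv)
    (hPt : P ≤ (1 + 31 / 1000000) * lt) (hPv : P ≤ (1 + 31 / 1000000) * lv)
    (hft : ft * lt = (P - ht) / 2) (hfv : fv * lv = (P - hv) / 2) (hF : 1 < ft + fv) :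
    ft + fv - 1 ≤ ft / 96 ∧ ft + fv - 1 ≤ fv / 96 := by
  have h1 : ft ≤ (1 + 31 / 1000000) / 2 := by
    have h2 : ft * lt ≤ ((1 + 31 / 1000000) / 2) * lt := by rw [hft]; linarith
    exact le_of_mul_le_mul_right h2 hlt
  have h3 : fv ≤ (1 + 31 / 1000000) / 2 := by
    have h2 : fv * lv ≤ ((1 + 31 / 1000000) / 2) * lv := by rw [hfv]; linarith
    exact le_of_mul_le_mul_right h2 hlv
  constructor <;> linarith

/-- Excess bound with a special vertex (`g > 0`). -/
lemma excess_special {lt lv hv P ft fv g E : ℝ} (hlt : 0 < lt) (hlv : 0 < lv)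
    (hg : 0 < g) (hE0 : 0 ≤ E) (hEe : E = lt - g) (hgv : g ≤ hv) (hvP : hv ≤ P)
    (hPt : P ≤ E / 1000000 + lt) (hPv : P ≤ (1 + 31 / 1000000) * lv)
    (hft : ft * lt = (P + g) / 2) (hfv : fv * lv = (P - hv) / 2) (hF : 1 < ft + fv) :
    ft + fv - 1 ≤ ft / 96 ∧ ft + fv - 1 ≤ fv / 96 := by
  have hfv0 : 0 ≤ fv := by
    have h2 : 0 ≤ fv * lv := by rw [hfv]; linarith
    exact nonneg_of_mul_nonneg_left h2 hlv
  have hft0 : 0 ≤ ft := by
    have h2 : 0 ≤ ft * lt := by rw [hft]; linarith
    exact nonneg_of_mul_nonneg_left h2 hlt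
  have h1 : fv ≤ (1 + 31 / 1000000) / 2 := by
    have h2 : fv * lv ≤ ((1 + 31 / 1000000) / 2) * lv := by rw [hfv]; linarith
    exact le_of_mul_le_mul_right h2 hlv
  have hft3 : 1 / 3 ≤ ft := by linarith
  have hEle : E ≤ lt := by linarith
  -- the bound on the excess
  have he : ft + fv - 1 ≤ 31 / 1000000 := by
    rcases le_total lt lv with hc | hc
    · have h2 : fv * lt ≤ fv * lv := mul_le_mul_of_nonneg_left hc hfv0
      have h3 : (ft + fv) * lt ≤ (1 + 1 / 1000000) * lt := by
        nlinarith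
      have h4 := le_of_mul_le_mul_right h3 hlt
      linarith
    · have h2 : ft * lv ≤ ft * lt := mul_le_mul_of_nonneg_left hc hft0
      have h3 : (ft + fv) * lv ≤ (1 + 31 / 1000000) * lv := by
        nlinarith
      have h4 := le_of_mul_le_mul_right h3 hlv
      linarith
  refine ⟨by linarith, ?_⟩
  rcases le_total (1 / 200) fv with hc | hc
  · linarith
  · -- small fv
    have h2 : (ft + fv - 1) * (2 * lt) ≤ 2 * (fv * lt) - (1 - 1 / 1000000) * E := by
      nlinarith
    have h3 : 2 * (fv * lv) ≤ (1 + 1 / 1000000) * E := by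
      rw [hfv]; linarith
    have h4 : lt - 2 * (fv * lt) ≤ P := by
      have h5 : (1 - fv) * lt ≤ ft * lt := by
        apply mul_le_mul_of_nonneg_right (by linarith) hlt.le
      nlinarith
    have h5 : fv * (lt - 2 * (fv * lt)) ≤ fv * ((1 + 31 / 1000000) * lv) :=
      mul_le_mul_of_nonneg_left (by linarith) hfv0
    have h6 : fv * fv * lt ≤ (1 / 200) * fv * lt := by
      apply mul_le_mul_of_nonneg_right _ hlt.le
      exact mul_le_mul_of_nonneg_right hc hfv0
    have h7 : (ft + fv - 1) * lt ≤ (fv / 96) * lt := by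
      nlinarith
    exact le_of_mul_le_mul_right h7 hlt

end

end Vale.Agent.Lib.P235
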