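import Vale.Agent.Lib.P235.Markov5

namespace Vale.Agent.Lib.P235

noncomputable section

open Function

variable {N : Type} [DecidableEq N]

/-- Metric axioms on the extended vertex set. -/
structure Met (dm : N → N → ℝ) : Prop where
  self : ∀ u, dm u u = 0
  comm : ∀ u v, dm u v = dm v u
  tri : ∀ u v t, dm u v ≤ dm u t + dm t v

lemma Met.nonneg {dm : N → N → ℝ} (M : Met dm) (u v : N) : 0 ≤ dm u v := by
  have h := M.tri u u v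
  have h2 := M.tri u v u
  rw [M.self] at h h2
  have h3 := M.comm u v
  linarith

/-- The facts available at a node. -/
structure NodeOK (dm : N → N → ℝ) (S : Sys N) (z : N) : Prop where
  G : GoodSt (S.leg z 0) (S.leg z 1) (S.leg z 2) (dm (S.T z 0) (S.T z 1)) (dm (S.T z 0) (S.T z 2))
    (dm (S.T z 1) (S.T z 2))
  K : KOK (S.leg z 0) (S.leg z 1) (S.leg z 2) (dm z (S.T z 0)) (dm z (S.T z 1)) (dm z (S.T z 2))
    (dm (S.T z 0) (S.T z 1)) (dm (S.T z 0) (S.T z 2)) (dm (S.T z 1) (S.T z 2))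
    (S.x z 0) (S.x z 1) (S.x z 2) (S.w z)

/-- The certificate at a level. -/
def Cert (dm : N → N → ℝ) (S : Sys N) (y n : N) (p : Fin 3 → ℝ) (W : ℝ) : Prop :=
  0 ≤ W ∧ (∀ i, 0 ≤ p i ∧ p i ≤ 1) ∧ p 0 + p 1 + p 2 ≤ 1 + 1 / 48 ∧
  ∃ μ : Fin 3 → ℝ, (∀ i, 0 ≤ μ i) ∧ μ 0 + μ 1 + μ 2 = 1 ∧
    val0 (dm y (S.T n 0)) (dm y (S.T n 1)) (dm y (S.T n 2)) (S.leg n 0) (S.leg n 1) (S.leg n 2)
      (p 0) (p 1) (p 2) (μ 0) (μ 1) (μ 2)
    ≤ 3 * 4000000 * W + 1000000000000 * Vv S n p W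

lemma val0_cyc (r0 r1 r2 l0 l1 l2 p0 p1 p2 n0 n1 n2 : ℝ) :
    val0 r0 r1 r2 l0 l1 l2 p0 p1 p2 n0 n1 n2 = val0 r1 r2 r0 l1 l2 l0 p1 p2 p0 n1 n2 n0 := by
  unfold val0 F0
  ring

/-- `StepHyp` from the kernel output. -/
lemma stepHyp_of {l0 l1 l2 x0 x1 x2 w r0 r1 r2 rz s0 s1 s2 d01 d02 d12 : ℝ}
    (K : KOK l0 l1 l2 s0 s1 s2 d01 d02 d12 x0 x1 x2 w) (G : GoodSt l0 l1 l2 d01 d02 d12)
    (h0 : r0 ≤ rz + s0) (h1 : r1 ≤ rz + s1) (h2 : r2 ≤ rz + s2)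
    (t01a : r0 ≤ r1 + d01) (t01b : r1 ≤ r0 + d01) (t02a : r0 ≤ r2 + d02) (t02b : r2 ≤ r0 + d02)
    (t12a : r1 ≤ r2 + d12) (t12b : r2 ≤ r1 + d12) :
    StepHyp l0 l1 l2 x0 x1 x2 w r0 r1 r2 rz :=
  ⟨G.h0, G.h1, G.h2, K.hx00, K.hx01, K.hx10, K.hx11, K.hx20, K.hx21, K.hw,
    by linarith [K.hB0], by linarith [K.hB1], by linarith [K.hB2],
    by linarith [G.b01], by linarith [G.b01], by linarith [G.b02], by linarith [G.b02],
    by linarith [G.b12], by linarith [G.b12], K.hexc, K.hN2⟩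

lemma KOK.dist_bounds {dm : N → N → ℝ} (M : Met dm) (y z : N) (B : Fin 3 → N) :
    (dm y (B 0) ≤ dm y z + dm z (B 0)) ∧ (dm y (B 1) ≤ dm y z + dm z (B 1)) ∧
    (dm y (B 2) ≤ dm y z + dm z (B 2)) ∧
    (dm y (B 0) ≤ dm y (B 1) + dm (B 0) (B 1)) ∧ (dm y (B 1) ≤ dm y (B 0) + dm (B 0) (B 1)) ∧
    (dm y (B 0) ≤ dm y (B 2) + dm (B 0) (B 2)) ∧ (dm y (B 2) ≤ dm y (B 0) + dm (B 0) (B 2)) ∧
    (dm y (B 1) ≤ dm y (B 2) + dm (B 1) (B 2)) ∧ (dm y (B 2) ≤ dm y (B 1) + dm (B 1) (B 2)) := by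
  refine ⟨M.tri _ _ _, M.tri _ _ _, M.tri _ _ _, ?_, ?_, ?_, ?_, ?_, ?_⟩
  · have := M.tri y (B 0) (B 1); rw [M.comm (B 1) (B 0)] at this; exact this
  · exact M.tri _ _ _
  · have := M.tri y (B 0) (B 2); rw [M.comm (B 2) (B 0)] at this; exact this
  · exact M.tri _ _ _
  · have := M.tri y (B 1) (B 2); rw [M.comm (B 2) (B 1)] at this; exact this
  · exact M.tri _ _ _

/-- The numbers for the certificate after one step with `c = 2`. -/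
theorem cert_step_raw {l0 l1 l2 x0 x1 x2 w r0 r1 r2 rz s0 s1 s2 d01 d02 d12 m0 m1 m2 p0 p1 q W : ℝ}
    (K : KOK l0 l1 l2 s0 s1 s2 d01 d02 d12 x0 x1 x2 w) (G : GoodSt l0 l1 l2 d01 d02 d12)
    (h0 : r0 ≤ rz + s0) (h1 : r1 ≤ rz + s1) (h2 : r2 ≤ rz + s2)
    (t01a : r0 ≤ r1 + d01) (t01b : r1 ≤ r0 + d01) (t02a : r0 ≤ r2 + d02) (t02b : r2 ≤ r0 + d02)
    (t12a : r1 ≤ r2 + d12) (t12b : r2 ≤ r1 + d12)
    (hm0 : 0 ≤ m0) (hm1 : 0 ≤ m1) (hm2 : 0 ≤ m2) (hm : m0 + m1 + m2 = 1)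
    (hp0 : 0 ≤ p0 ∧ p0 ≤ 1) (hp1 : 0 ≤ p1 ∧ p1 ≤ 1) (hq : 0 ≤ q ∧ q ≤ 1)
    (hsum : p0 + p1 + q ≤ 1 + 1 / 48) (hW : 0 ≤ W)
    (hval : val0 r0 r1 rz (l0 - x0 * l0 + x1 * l1) (l1 - x1 * l1 + x0 * l0) (w + x2 * l2) p0 p1 q m0 m1 m2
      ≤ 3 * 4000000 * W + 1000000000000 * (W + ((l0 - x0 * l0 + x1 * l1) * (p0 * (1 - p0))
        + (l1 - x1 * l1 + x0 * l0) * (p1 * (1 - p1)) + (w + x2 * l2) * (q * (1 - q))))) :
    0 ≤ W + w * q ∧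
    (0 ≤ p0 + x0 * (1 - p0 - p1) ∧ p0 + x0 * (1 - p0 - p1) ≤ 1) ∧
    (0 ≤ p1 + x1 * (1 - p0 - p1) ∧ p1 + x1 * (1 - p0 - p1) ≤ 1) ∧
    (0 ≤ x2 * q ∧ x2 * q ≤ 1) ∧
    (p0 + x0 * (1 - p0 - p1)) + (p1 + x1 * (1 - p0 - p1)) + x2 * q ≤ 1 + 1 / 48 ∧
    ∃ n0 n1 n2 : ℝ, 0 ≤ n0 ∧ 0 ≤ n1 ∧ 0 ≤ n2 ∧ n0 + n1 + n2 = 1 ∧
      val0 r0 r1 r2 l0 l1 l2 (p0 + x0 * (1 - p0 - p1)) (p1 + x1 * (1 - p0 - p1)) (x2 * q) n0 n1 n2
      ≤ 3 * 4000000 * (W + w * q) + 1000000000000 * ((W + w * q)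
        + (l0 * ((p0 + x0 * (1 - p0 - p1)) * (1 - (p0 + x0 * (1 - p0 - p1))))
        + l1 * ((p1 + x1 * (1 - p0 - p1)) * (1 - (p1 + x1 * (1 - p0 - p1))))
        + l2 * ((x2 * q) * (1 - x2 * q)))) := by
  have HS := stepHyp_of (r0 := r0) (r1 := r1) (r2 := r2) (rz := rz) K G h0 h1 h2 t01a t01b t02a t02b t12a t12b
  have hreg := region_step K.hx00 K.hx01 K.hx10 K.hx11 K.hx20 K.hx21 K.hexc hp0.1 hp0.2 hp1.1 hp1.2 hq.1 hq.2 hsum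
  obtain ⟨a, b, c, d⟩ := hreg
  refine ⟨add_nonneg hW (mul_nonneg K.hw hq.1), a, b, c, d, ?_⟩
  exact claim_step HS hm0 hm1 hm2 hm hp0.1 hp0.2 hp1.1 hp1.2 hq.1 hq.2 hsum hval

lemma comp_0 (x p : Fin 3 → ℝ) :
    comp x p 0 = ![x 0 * p 2, p 0 + x 1 * (1 - p 0 - p 1), p 1 + x 2 * (1 - p 0 - p 1)] := by
  simp [comp]

lemma comp_1 (x p : Fin 3 → ℝ) :
    comp x p 1 = ![p 1 + x 0 * (1 - p 0 - p 1), x 1 * p 2, p 0 + x 2 * (1 - p 0 - p 1)] := by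
  simp [comp]

lemma comp_2 (x p : Fin 3 → ℝ) :
    comp x p 2 = ![p 0 + x 0 * (1 - p 0 - p 1), p 1 + x 1 * (1 - p 0 - p 1), x 2 * p 2] := by
  simp [comp]

lemma fin3_forall {P : Fin 3 → Prop} (h0 : P 0) (h1 : P 1) (h2 : P 2) : ∀ i, P i := by
  intro i
  rcases fin3_cases i with rfl | rfl | rfl <;> assumption

/-- The certificate passes to the parent bag, rotation `c = 2`. -/
theorem cert_up2 {dm : N → N → ℝ} (M : Met dm) {S : Sys N} {y n z : N} {p : Fin 3 → ℝ} {W : ℝ}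
    (hN : NodeOK dm S z) (hC : Cert dm S y n p W)
    (hT : S.T n = childT (S.T z) 2 z) (hL : S.leg n = childL (S.leg z) (S.x z) (S.w z) 2) :
    Cert dm S y z (comp (S.x z) p 2) (W + S.w z * p 2) := by
  obtain ⟨hW, hp, hsum, μ, hμ, hμ1, hval⟩ := hC
  have eT0 : S.T n 0 = S.T z 0 := by rw [hT]; rfl
  have eT1 : S.T n 1 = S.T z 1 := by rw [hT]; rfl
  have eT2 : S.T n 2 = z := by rw [hT]; rfl
  have eL0 : S.leg n 0 = S.leg z 0 - S.x z 0 * S.leg z 0 + S.x z 1 * S.leg z 1 := by rw [hL]; rfl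
  have eL1 : S.leg n 1 = S.leg z 1 - S.x z 1 * S.leg z 1 + S.x z 0 * S.leg z 0 := by rw [hL]; rfl
  have eL2 : S.leg n 2 = S.w z + S.x z 2 * S.leg z 2 := by rw [hL]; rfl
  unfold Vv at hval
  rw [eT0, eT1, eT2, eL0, eL1, eL2] at hval
  obtain ⟨d0, d1, d2, d3, d4, d5, d6, d7, d8⟩ := KOK.dist_bounds M y z (S.T z)
  obtain ⟨a1, a2, a3, a4, a5, n0, n1, n2, b1, b2, b3, b4, b5⟩ :=
    cert_step_raw hN.K hN.G d0 d1 d2 d3 d4 d5 d6 d7 d8 (hμ 0) (hμ 1) (hμ 2) hμ1 (hp 0) (hp 1) (hp 2)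
      hsum hW hval
  rw [comp_2]
  refine ⟨a1, fin3_forall a2 a3 a4, a5, ![n0, n1, n2], fin3_forall b1 b2 b3, b4, ?_⟩
  unfold Vv
  exact b5

/-- The certificate passes to the parent bag, rotation `c = 0`. -/
theorem cert_up0 {dm : N → N → ℝ} (M : Met dm) {S : Sys N} {y n z : N} {p : Fin 3 → ℝ} {W : ℝ}
    (hN : NodeOK dm S z) (hC : Cert dm S y n p W)
    (hT : S.T n = childT (S.T z) 0 z) (hL : S.leg n = childL (S.leg z) (S.x z) (S.w z) 0) :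
    Cert dm S y z (comp (S.x z) p 0) (W + S.w z * p 2) := by
  obtain ⟨hW, hp, hsum, μ, hμ, hμ1, hval⟩ := hC
  have eT0 : S.T n 0 = S.T z 1 := by rw [hT]; rfl
  have eT1 : S.T n 1 = S.T z 2 := by rw [hT]; rfl
  have eT2 : S.T n 2 = z := by rw [hT]; rfl
  have eL0 : S.leg n 0 = S.leg z 1 - S.x z 1 * S.leg z 1 + S.x z 2 * S.leg z 2 := by rw [hL]; rfl
  have eL1 : S.leg n 1 = S.leg z 2 - S.x z 2 * S.leg z 2 + S.x z 1 * S.leg z 1 := by rw [hL]; rfl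
  have eL2 : S.leg n 2 = S.w z + S.x z 0 * S.leg z 0 := by rw [hL]; rfl
  unfold Vv at hval
  rw [eT0, eT1, eT2, eL0, eL1, eL2] at hval
  obtain ⟨d0, d1, d2, d3, d4, d5, d6, d7, d8⟩ := KOK.dist_bounds M y z (S.T z)
  obtain ⟨a1, a2, a3, a4, a5, n0, n1, n2, b1, b2, b3, b4, b5⟩ :=
    cert_step_raw hN.K.cyc hN.G.cyc d1 d2 d0 d7 d8 d4 d3 d6 d5 (hμ 0) (hμ 1) (hμ 2) hμ1 (hp 0) (hp 1) (hp 2)
      hsum hW hval
  rw [comp_0]
  refine ⟨a1, fin3_forall a4 a2 a3, by simpa using (by linarith : _), ![n2, n0, n1],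
    fin3_forall b3 b1 b2, by simpa using (by linarith : _), ?_⟩
  unfold Vv
  have e : val0 (dm y (S.T z 0)) (dm y (S.T z 1)) (dm y (S.T z 2)) (S.leg z 0) (S.leg z 1) (S.leg z 2)
      (S.x z 0 * p 2) (p 0 + S.x z 1 * (1 - p 0 - p 1)) (p 1 + S.x z 2 * (1 - p 0 - p 1)) n2 n0 n1
      = val0 (dm y (S.T z 1)) (dm y (S.T z 2)) (dm y (S.T z 0)) (S.leg z 1) (S.leg z 2) (S.leg z 0)
      (p 0 + S.x z 1 * (1 - p 0 - p 1)) (p 1 + S.x z 2 * (1 - p 0 - p 1)) (S.x z 0 * p 2) n0 n1 n2 :=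
    val0_cyc _ _ _ _ _ _ _ _ _ _ _ _
  simp only [Matrix.cons_val_zero, Matrix.cons_val_one, Matrix.cons_val]
  rw [e]
  linarith

/-- The certificate passes to the parent bag, rotation `c = 1`. -/
theorem cert_up1 {dm : N → N → ℝ} (M : Met dm) {S : Sys N} {y n z : N} {p : Fin 3 → ℝ} {W : ℝ}
    (hN : NodeOK dm S z) (hC : Cert dm S y n p W)
    (hT : S.T n = childT (S.T z) 1 z) (hL : S.leg n = childL (S.leg z) (S.x z) (S.w z) 1) :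
    Cert dm S y z (comp (S.x z) p 1) (W + S.w z * p 2) := by
  obtain ⟨hW, hp, hsum, μ, hμ, hμ1, hval⟩ := hC
  have eT0 : S.T n 0 = S.T z 2 := by rw [hT]; rfl
  have eT1 : S.T n 1 = S.T z 0 := by rw [hT]; rfl
  have eT2 : S.T n 2 = z := by rw [hT]; rfl
  have eL0 : S.leg n 0 = S.leg z 2 - S.x z 2 * S.leg z 2 + S.x z 0 * S.leg z 0 := by rw [hL]; rfl
  have eL1 : S.leg n 1 = S.leg z 0 - S.x z 0 * S.leg z 0 + S.x z 2 * S.leg z 2 := by rw [hL]; rfl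
  have eL2 : S.leg n 2 = S.w z + S.x z 1 * S.leg z 1 := by rw [hL]; rfl
  unfold Vv at hval
  rw [eT0, eT1, eT2, eL0, eL1, eL2] at hval
  obtain ⟨d0, d1, d2, d3, d4, d5, d6, d7, d8⟩ := KOK.dist_bounds M y z (S.T z)
  obtain ⟨a1, a2, a3, a4, a5, n0, n1, n2, b1, b2, b3, b4, b5⟩ :=
    cert_step_raw hN.K.cyc.cyc hN.G.cyc.cyc d2 d0 d1 d6 d5 d8 d7 d3 d4 (hμ 0) (hμ 1) (hμ 2) hμ1 (hp 0) (hp 1) (hp 2)
      hsum hW hval
  rw [comp_1]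
  refine ⟨a1, fin3_forall a3 a4 a2, by simpa using (by linarith : _), ![n1, n2, n0],
    fin3_forall b2 b3 b1, by simpa using (by linarith : _), ?_⟩
  unfold Vv
  have e : val0 (dm y (S.T z 0)) (dm y (S.T z 1)) (dm y (S.T z 2)) (S.leg z 0) (S.leg z 1) (S.leg z 2)
      (p 1 + S.x z 0 * (1 - p 0 - p 1)) (S.x z 1 * p 2) (p 0 + S.x z 2 * (1 - p 0 - p 1)) n1 n2 n0
      = val0 (dm y (S.T z 2)) (dm y (S.T z 0)) (dm y (S.T z 1)) (S.leg z 2) (S.leg z 0) (S.leg z 1)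
      (p 0 + S.x z 2 * (1 - p 0 - p 1)) (p 1 + S.x z 0 * (1 - p 0 - p 1)) (S.x z 1 * p 2) n0 n1 n2 := by
    rw [val0_cyc, val0_cyc]
  simp only [Matrix.cons_val_zero, Matrix.cons_val_one, Matrix.cons_val]
  rw [e]
  linarith

theorem cert_up {dm : N → N → ℝ} (M : Met dm) {S : Sys N} {y n z : N} {c : Fin 3} {p : Fin 3 → ℝ} {W : ℝ}
    (hN : NodeOK dm S z) (hC : Cert dm S y n p W)
    (hT : S.T n = childT (S.T z) c z) (hL : S.leg n = childL (S.leg z) (S.x z) (S.w z) c) :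
    Cert dm S y z (comp (S.x z) p c) (W + S.w z * p 2) := by
  rcases fin3_cases c with rfl | rfl | rfl
  · exact cert_up0 M hN hC hT hL
  · exact cert_up1 M hN hC hT hL
  · exact cert_up2 M hN hC hT hL

lemma g3_zero_zero : g3 0 0 = 0 := by
  unfold g3; norm_num

lemma g3_one_one : g3 1 1 = 0 := by
  unfold g3; norm_num

/-- The base certificate at the vertex itself. -/
theorem cert_base {dm : N → N → ℝ} (M : Met dm) {S : Sys N} {y : N} (hN : NodeOK dm S y) :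
    Cert dm S y y (S.x y) (S.w y) := by
  obtain ⟨d0, d1, d2, d3, d4, d5, d6, d7, d8⟩ := KOK.dist_bounds M y y (S.T y)
  have hvirt : val0 (dm y (S.T y 0)) (dm y (S.T y 1)) (dm y y)
      (S.leg y 0 - S.x y 0 * S.leg y 0 + S.x y 1 * S.leg y 1)
      (S.leg y 1 - S.x y 1 * S.leg y 1 + S.x y 0 * S.leg y 0)
      (S.w y + S.x y 2 * S.leg y 2) 0 0 1 0 0 1
      ≤ 3 * 4000000 * 0 + 1000000000000 * (0
        + ((S.leg y 0 - S.x y 0 * S.leg y 0 + S.x y 1 * S.leg y 1) * (0 * (1 - 0))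
        + (S.leg y 1 - S.x y 1 * S.leg y 1 + S.x y 0 * S.leg y 0) * (0 * (1 - 0))
        + (S.w y + S.x y 2 * S.leg y 2) * (1 * (1 - 1)))) := by
    unfold val0 F0
    rw [g3_zero_zero, g3_one_one, M.self, pen_eq_zero _ _ (by norm_num : (1:ℝ) / 24 ≤ 1 - 0 - 0)]
    norm_num
  obtain ⟨a1, a2, a3, a4, a5, n0, n1, n2, b1, b2, b3, b4, b5⟩ :=
    cert_step_raw hN.K hN.G d0 d1 d2 d3 d4 d5 d6 d7 d8 (m0 := 0) (m1 := 0) (m2 := 1) (p0 := 0) (p1 := 0)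
      (q := 1) (W := 0) (le_refl _) (le_refl _) (by norm_num) (by norm_num) (by norm_num) (by norm_num)
      (by norm_num) (by norm_num) (le_refl _) hvirt
  have e0 : (0:ℝ) + S.x y 0 * (1 - 0 - 0) = S.x y 0 := by ring
  have e1 : (0:ℝ) + S.x y 1 * (1 - 0 - 0) = S.x y 1 := by ring
  have e2 : S.x y 2 * (1:ℝ) = S.x y 2 := by ring
  have e3 : (0:ℝ) + S.w y * 1 = S.w y := by ring
  rw [e0, e1, e2, e3] at b5
  rw [e0] at a2 a5
  rw [e1] at a3 a5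
  rw [e2] at a4 a5
  rw [e3] at a1
  exact ⟨a1, fin3_forall a2 a3 a4, a5, ![n0, n1, n2], fin3_forall b1 b2 b3, b4, b5⟩

/-- The certificate holds at all levels. -/
theorem cert_all {dm : N → N → ℝ} (M : Met dm) {S : Sys N} {L : List N} (H : S.OK L)
    (hNodes : ∀ z ∈ L, NodeOK dm S z) {y n : N} {p : Fin 3 → ℝ} {W : ℝ} (hy : y ∈ L)
    (h : Lvl S y n p W) : n ∈ L ∧ Cert dm S y n p W := by
  induction h with
  | base => exact ⟨hy, cert_base M (hNodes y hy)⟩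
  | @up n p W z c _ hpar ih =>
    obtain ⟨hn, hC⟩ := ih
    have hz : z ∈ L := by
      rcases WF_mem_bag H.hWF hn with h0 | ⟨u, c', h1, h2⟩
      · rw [hpar] at h0; simp at h0
      · rw [hpar] at h1
        simp only [Option.some.injEq, Prod.mk.injEq] at h1
        rw [h1.1]; exact h2
    exact ⟨hz, cert_up M (hNodes z hz) hC (H.hT1 n z c hpar) (H.hL1 n hn z c hpar)⟩

/-- A certificate gives a close vertex in the bag. -/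
theorem cert_close {dm : N → N → ℝ} {S : Sys N} {y n : N} {p : Fin 3 → ℝ} {W : ℝ}
    (hl0 : 0 ≤ S.leg n 0) (hl1 : 0 ≤ S.leg n 1) (hl2 : 0 ≤ S.leg n 2)
    (hC : Cert dm S y n p W) :
    0 ≤ Vv S n p W ∧ ∃ i, dm y (S.T n i) ≤ (1000000000000 + 30000000) * Vv S n p W := by
  obtain ⟨hW, hp, _, μ, hμ, hμ1, hval⟩ := hC
  have hq0 : 0 ≤ p 0 * (1 - p 0) := mul_nonneg (hp 0).1 (by linarith [(hp 0).2])
  have hq1 : 0 ≤ p 1 * (1 - p 1) := mul_nonneg (hp 1).1 (by linarith [(hp 1).2])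
  have hq2 : 0 ≤ p 2 * (1 - p 2) := mul_nonneg (hp 2).1 (by linarith [(hp 2).2])
  have hs0 := mul_nonneg hl0 hq0
  have hs1 := mul_nonneg hl1 hq1
  have hs2 := mul_nonneg hl2 hq2
  have hV : 0 ≤ Vv S n p W := by unfold Vv; linarith
  refine ⟨hV, ?_⟩
  have g0 := g3_lower (hp 0).1 (hp 0).2 (hμ 0) (by linarith [hμ 1, hμ 2])
  have g1 := g3_lower (hp 1).1 (hp 1).2 (hμ 1) (by linarith [hμ 0, hμ 2])
  have g2 := g3_lower (hp 2).1 (hp 2).2 (hμ 2) (by linarith [hμ 0, hμ 1])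
  have f0 := mul_le_mul_of_nonneg_left g0 hl0
  have f1 := mul_le_mul_of_nonneg_left g1 hl1
  have f2 := mul_le_mul_of_nonneg_left g2 hl2
  have p0 := mul_nonneg (hμ 0) (pen_nonneg hl1 hl2 (1 - p 1 - p 2))
  have p1 := mul_nonneg (hμ 1) (pen_nonneg hl2 hl0 (1 - p 2 - p 0))
  have p2 := mul_nonneg (hμ 2) (pen_nonneg hl0 hl1 (1 - p 0 - p 1))
  unfold val0 F0 at hval
  unfold Vv at hval hV ⊢
  have hsumr : μ 0 * dm y (S.T n 0) + μ 1 * dm y (S.T n 1) + μ 2 * dm y (S.T n 2)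
      ≤ (1000000000000 + 30000000) * (W + (S.leg n 0 * (p 0 * (1 - p 0))
        + S.leg n 1 * (p 1 * (1 - p 1)) + S.leg n 2 * (p 2 * (1 - p 2)))) := by
    linarith
  -- the minimum
  by_contra hcon
  push_neg at hcon
  have c0 := hcon 0
  have c1 := hcon 1
  have c2 := hcon 2
  set B := (1000000000000 + 30000000) * (W + (S.leg n 0 * (p 0 * (1 - p 0))
        + S.leg n 1 * (p 1 * (1 - p 1)) + S.leg n 2 * (p 2 * (1 - p 2)))) with hB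
  have m0 := mul_le_mul_of_nonneg_left c0.le (hμ 0)
  have m1 := mul_le_mul_of_nonneg_left c1.le (hμ 1)
  have m2 := mul_le_mul_of_nonneg_left c2.le (hμ 2)
  rcases (hμ 0).eq_or_lt with h0 | h0
  · rcases (hμ 1).eq_or_lt with h1 | h1
    · have h2 : μ 2 = 1 := by linarith
      rw [← h0, ← h1, h2] at hsumr
      linarith
    · have := mul_lt_mul_of_pos_left c1 h1
      have e : μ 0 * B + μ 1 * B + μ 2 * B = B := by
        have : μ 2 = 1 - μ 0 - μ 1 := by linarith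
        rw [this]; ring
      linarith
  · have := mul_lt_mul_of_pos_left c0 h0
    have e : μ 0 * B + μ 1 * B + μ 2 * B = B := by
      have : μ 2 = 1 - μ 0 - μ 1 := by linarith
      rw [this]; ring
    linarith

end

end Vale.Agent.Lib.P235
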