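import Mathlib.Combinatorics.SimpleGraph.Acyclic
import Mathlib.Algebra.Order.Archimedean.Real.Basic

namespace Vale.Agent.Lib.P235

/-- The shortest-path distance of `G` for the edge lengths `l`: the infimum over all walks from
`x` to `y` of the sum of the lengths of the edges of the walk. -/
noncomputable def pathDist {V : Type} (G : SimpleGraph V) (l : Sym2 V → ℝ) (x y : V) : ℝ :=
  ⨅ p : G.Walk x y, (p.edges.map l).sum

/-- `(T, B)` is a tree decomposition of `G`: `T` is a tree, every edge of `G` lies in some bag, and
for every vertex `v` the nodes whose bag contains `v` induce a nonempty connected subgraph of `T`. -/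
structure IsTreeDecomp {V I : Type} (G : SimpleGraph V) (T : SimpleGraph I) (B : I → Finset V) :
    Prop where
  isTree : T.IsTree
  edge_mem : ∀ u v, G.Adj u v → ∃ t, u ∈ B t ∧ v ∈ B t
  subtree : ∀ v, (T.induce {t | v ∈ B t}).Connected

end Vale.Agent.Lib.P235
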