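import Vale.Agent.Lib.P235.Build

namespace Vale.Agent.Lib.P235

noncomputable section

open Function

variable {N : Type} [DecidableEq N]

/-- The constant of the certificate. -/
def CC0 : ℝ := 1000000000000 + 30000000

/-- The final constant. -/
def CC : ℝ := (1000000 + 1) * CC0 + 1000000

lemma CC0_pos : 0 < CC0 := by unfold CC0; norm_num

lemma CC_pos : 0 < CC := by unfold CC CC0; norm_num

section

variable {dm : N → N → ℝ} {S : Sys N} {L : List N}

lemma d_self' (l : List N) (u : N) : S.d l u u = 0 := dF_self l u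

lemma d_nonneg' (H : S.OK L) (u v : N) : 0 ≤ S.d L u v := dF_nonneg H.hl0 H.hPos u v

lemma d_tri' (H : S.OK L) (u v t : N) : S.d L u t ≤ S.d L u v + S.d L v t :=
  dF_tri H.hl0 H.hPos u v t

lemma bag_close (M : Met dm) (H : S.OK L) (hNodes : ∀ z ∈ L, NodeOK dm S z) {m : N} (hm : m ∈ L)
    (i j : Fin 3) : dm (S.T m i) (S.T m j) ≤ 1000000 * S.d L (S.T m i) (S.T m j) := by
  obtain ⟨i01, i02, i12⟩ := inv_all H (fun v hv => hv) H.hWF hm (WF_mem_bag H.hWF hm)
  have G := (hNodes m hm).G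
  rcases fin3_cases i with rfl | rfl | rfl <;> rcases fin3_cases j with rfl | rfl | rfl
  · rw [M.self, d_self']; norm_num
  · rw [i01]; exact G.b01
  · rw [i02]; exact G.b02
  · rw [M.comm, d_comm, i01]; exact G.b01
  · rw [M.self, d_self']; norm_num
  · rw [i12]; exact G.b12
  · rw [M.comm, d_comm, i02]; exact G.b02
  · rw [M.comm, d_comm, i12]; exact G.b12
  · rw [M.self, d_self']; norm_num

lemma new_close (H : S.OK L) (hNodes : ∀ z ∈ L, NodeOK dm S z) {z : N} (hz : z ∈ L) (i : Fin 3) :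
    dm z (S.T z i) ≤ 1000000 * S.d L z (S.T z i) := by
  obtain ⟨a0, a1, a2⟩ := new_all H (fun v hv => hv) H.hWF hz
  have K := (hNodes z hz).K
  rcases fin3_cases i with rfl | rfl | rfl
  · rw [a0]; exact K.hB0
  · rw [a1]; exact K.hB1
  · rw [a2]; exact K.hB2

/-- Two elements of a bag together with its node. -/
lemma star_close (M : Met dm) (H : S.OK L) (hNodes : ∀ z ∈ L, NodeOK dm S z) {z u v : N} (hz : z ∈ L)
    (hu : u = z ∨ ∃ i, u = S.T z i) (hv : v = z ∨ ∃ j, v = S.T z j) :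
    dm u v ≤ 1000000 * S.d L u v := by
  rcases hu with rfl | ⟨i, rfl⟩
  · rcases hv with rfl | ⟨j, rfl⟩
    · rw [M.self, d_self']; norm_num
    · exact new_close H hNodes hz j
  · rcases hv with rfl | ⟨j, rfl⟩
    · rw [M.comm, d_comm]; exact new_close H hNodes hz i
    · exact bag_close M H hNodes hz i j

lemma child_entry (B : Fin 3 → N) (c : Fin 3) (z : N) (i : Fin 3) :
    childT B c z i = z ∨ ∃ j, childT B c z i = B j := by
  rcases fin3_cases i with rfl | rfl | rfl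
  · right; exact ⟨c + 1, rfl⟩
  · right; exact ⟨c + 2, rfl⟩
  · left; rfl

lemma common_close (M : Met dm) (H : S.OK L) (hNodes : ∀ z ∈ L, NodeOK dm S z) {m n : N} (hm : m ∈ L)
    (hC : CommonB S m n) (i j : Fin 3) :
    dm (S.T m i) (S.T n j) ≤ 1000000 * S.d L (S.T m i) (S.T n j) := by
  rcases hC with ⟨h1, h2⟩ | ⟨z, c, c', h1, h2⟩
  · have e1 := H.hT0 m h1
    have e2 := H.hT0 n h2
    have e : S.T n = S.T m := by rw [e1, e2]
    rw [e]
    exact bag_close M H hNodes hm i j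
  · have hz : z ∈ L := by
      rcases WF_mem_bag H.hWF hm with h0 | ⟨u, c'', h3, h4⟩
      · rw [h1] at h0; simp at h0
      · rw [h1] at h3
        simp only [Option.some.injEq, Prod.mk.injEq] at h3
        rw [h3.1]; exact h4
    rw [H.hT1 m z c h1, H.hT1 n z c' h2]
    exact star_close M H hNodes hz (child_entry _ _ _ _) (child_entry _ _ _ _)

lemma node_legs (hNodes : ∀ z ∈ L, NodeOK dm S z) {n : N} (hn : n ∈ L) :
    0 ≤ S.leg n 0 ∧ 0 ≤ S.leg n 1 ∧ 0 ≤ S.leg n 2 :=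
  ⟨(hNodes n hn).G.h0, (hNodes n hn).G.h1, (hNodes n hn).G.h2⟩

/-- The level close vertex. -/
lemma lvl_close (M : Met dm) (H : S.OK L) (hNodes : ∀ z ∈ L, NodeOK dm S z) {y n : N} {p : Fin 3 → ℝ}
    {W : ℝ} (hy : y ∈ L) (h : Lvl S y n p W) :
    0 ≤ Vv S n p W ∧ ∃ i, dm y (S.T n i) ≤ CC0 * Vv S n p W := by
  obtain ⟨hn, hC⟩ := cert_all M H hNodes hy h
  obtain ⟨l0, l1, l2⟩ := node_legs hNodes hn
  exact cert_close l0 l1 l2 hC

/-- Numerical closing in the first case. -/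
lemma num_close1 {D V e1 e2 dv : ℝ} (hV : V ≤ D) (hV0 : 0 ≤ V) (h1 : e1 ≤ 1000000 * (D + dv))
    (h2 : dv ≤ CC0 * V) (h3 : e2 ≤ e1 + dv) : e2 ≤ CC * D := by
  unfold CC
  have hC := CC0_pos
  have h4 : CC0 * V ≤ CC0 * D := mul_le_mul_of_nonneg_left hV hC.le
  have h5 : dv ≤ CC0 * D := h2.trans h4
  nlinarith

lemma num_dummy {D V dv e : ℝ} (hV : V ≤ D) (hV0 : 0 ≤ V) (h2 : dv ≤ CC0 * V) (h3 : e ≤ dv) :
    e ≤ CC * D := by
  unfold CC
  have hC := CC0_pos
  have h4 : CC0 * V ≤ CC0 * D := mul_le_mul_of_nonneg_left hV hC.le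
  have hD : 0 ≤ D := hV0.trans hV
  have : 0 ≤ CC0 * D := mul_nonneg hC.le hD
  nlinarith

lemma num_close2 {D V1 V2 e1 e2 v1 v2 : ℝ} (hV : V1 + V2 ≤ D) (h1 : e1 ≤ 1000000 * (v1 + D + v2))
    (hv1 : v1 ≤ CC0 * V1) (hv2 : v2 ≤ CC0 * V2) (h3 : e2 ≤ v1 + e1 + v2) : e2 ≤ CC * D := by
  unfold CC
  have hC := CC0_pos
  have h4 : CC0 * (V1 + V2) ≤ CC0 * D := mul_le_mul_of_nonneg_left hV hC.le
  have h5 : v1 + v2 ≤ CC0 * D := by
    have : CC0 * (V1 + V2) = CC0 * V1 + CC0 * V2 := by ring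
    linarith
  nlinarith

/-- The final bound for a pair in the list. -/
theorem final_bound (M : Met dm) (H : S.OK L) (hNodes : ∀ z ∈ L, NodeOK dm S z) (isV : N → Prop)
    (hUp : ∀ u v, isV u → isV v → S.d L u v ≤ dm u v)
    (hDum : ∀ u, ¬ isV u → ∀ v w, isV v → isV w → dm v w ≤ dm v u)
    {a y : N} (haV : isV a) (hyV : isV y) (haL : a ∈ L) (hyL : y ∈ L) :
    dm a y ≤ CC * S.d L a y := by
  by_cases hne : a = y
  · subst hne
    rw [M.self, d_self']; norm_num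
  obtain ⟨a', y', hc, hcases⟩ := pair_main H haL hyL hne
  have hkey : ∃ (_ : isV a') (_ : isV y') (_ : a' ∈ L) (_ : y' ∈ L),
      (dm a y = dm a' y' ∧ S.d L a' y' = S.d L a y) := by
    rcases hc with ⟨rfl, rfl⟩ | ⟨rfl, rfl⟩
    · exact ⟨haV, hyV, haL, hyL, rfl, rfl⟩
    · exact ⟨hyV, haV, hyL, haL, M.comm _ _, d_comm _ _ _⟩
  obtain ⟨haV', hyV', haL', hyL', hdm, hd⟩ := hkey
  rw [hdm]
  set D := S.d L a y with hD
  rcases hcases with ⟨n1, p2, W2, i, hl, hn1, hT, hV⟩ | ⟨m1, p1, W1, n1, p2, W2, hl1, hl2, hm1, hn1, hC, hV⟩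
  · obtain ⟨hV0, j, hj⟩ := lvl_close M H hNodes hyL' hl
    by_cases hv : isV (S.T n1 j)
    · have h1 := bag_close M H hNodes hn1 i j
      rw [hT] at h1
      have h2 := d_tri' H a' y' (S.T n1 j)
      have h3 := hUp y' (S.T n1 j) hyV' hv
      have h4 := M.tri a' y' (S.T n1 j)
      rw [M.comm (S.T n1 j) y'] at h4
      refine num_close1 (e1 := dm a' (S.T n1 j)) hV hV0 ?_ hj h4
      rw [hd] at h2
      linarith
    · have h1 := hDum _ hv y' a' hyV' haV'
      rw [M.comm y' a'] at h1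
      exact num_dummy hV hV0 hj h1
  · obtain ⟨hV1, i, hi⟩ := lvl_close M H hNodes haL' hl1
    obtain ⟨hV2, j, hj⟩ := lvl_close M H hNodes hyL' hl2
    by_cases hv1 : isV (S.T m1 i)
    · by_cases hv2 : isV (S.T n1 j)
      · have h1 := common_close M H hNodes hm1 hC i j
        have h2 := d_tri' H (S.T m1 i) a' (S.T n1 j)
        have h3 := d_tri' H a' y' (S.T n1 j)
        have h4 := hUp (S.T m1 i) a' hv1 haV'
        have h5 := hUp y' (S.T n1 j) hyV' hv2
        have h6 := M.tri a' y' (S.T m1 i)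
        have h7 := M.tri (S.T m1 i) y' (S.T n1 j)
        rw [M.comm (S.T m1 i) a'] at h4
        rw [M.comm (S.T n1 j) y'] at h7
        rw [hd] at h3
        refine num_close2 (e1 := dm (S.T m1 i) (S.T n1 j)) hV ?_ hi hj (by linarith)
        linarith
      · have h1 := hDum _ hv2 a' y' haV' hyV'
        have h2 := hDum _ hv2 y' a' hyV' haV'
        rw [M.comm y' a'] at h2
        exact num_dummy (by linarith) hV2 hj h2
    · have h1 := hDum _ hv1 a' y' haV' hyV'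
      exact num_dummy (by linarith) hV1 hi h1

end

end

end Vale.Agent.Lib.P235
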