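import Vale.Agent.Lib.P235.Noise

namespace Vale.Agent.Lib.P235

noncomputable section

/-- Division with a controlled numerator: `s / l * l = s` when `0 ≤ s ≤ l`. -/
lemma div_mul_of_le {s l : ℝ} (h0 : 0 ≤ s) (h1 : s ≤ l) : s / l * l = s := by
  rcases eq_or_lt_of_le (le_trans h0 h1) with h | h
  · have hs : s = 0 := by linarith
    rw [hs]; simp
  · exact div_mul_cancel₀ _ h.ne'

lemma div_nonneg_le_one {s l : ℝ} (h0 : 0 ≤ s) (h1 : s ≤ l) : 0 ≤ s / l ∧ s / l ≤ 1 := by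
  refine ⟨div_nonneg h0 (le_trans h0 h1), div_le_one_of_le₀ h1 (le_trans h0 h1)⟩

/-- Result of the flip construction. -/
structure FlipOut (lt lv lu ct cv cu xt xv xu w : ℝ) : Prop where
  hxt0 : 0 ≤ xt
  hxt1 : xt ≤ 1
  hxv0 : 0 ≤ xv
  hxv1 : xv ≤ 1
  hxu0 : 0 ≤ xu
  hxu1 : xu ≤ 1
  hw : 0 ≤ w
  hDt : w + lt - xt * lt + xv * lv + xu * lu = lt + ct
  hDv : w + lv + xt * lt - xv * lv + xu * lu = lv + cv
  hDu : w + lu + xt * lt + xv * lv - xu * lu = lu + cu

/-- The flip construction. -/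
theorem flip_exists {lt lv lu ct cv cu : ℝ}
    (hlt : 0 ≤ lt) (hlv : 0 ≤ lv) (hlu : 0 ≤ lu)
    (h1 : ct ≤ cv) (h2 : cv ≤ cu) (h3 : 0 ≤ ct + cv)
    (h4 : cu - ct ≤ 2 * lt) (h5 : cu - cv ≤ 2 * lv) :
    ∃ xt xv xu w : ℝ, FlipOut lt lv lu ct cv cu xt xv xu w ∧
      ((1 ≤ xt + xv + xu ∧ (xt + xv + xu ≤ 1 ∨
          (xu = 0 ∧ xt = (cu - ct) / 2 / lt ∧ xv = (cu - cv) / 2 / lv ∧
            1 < (cu - ct) / 2 / lt + (cu - cv) / 2 / lv))) ∨
       (w = 0 ∧ xt + xv + xu < 1 ∧ 0 < lt ∧ 0 < lv ∧ 0 < lu ∧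
          (cu - ct) / 2 / lt + (cu - cv) / 2 / lv < 1 ∧
          xt * lt = (cu + cv) / 2 ∧ xv * lv = (cu + ct) / 2 ∧ xu * lu = (cv + ct) / 2)) := by
  set st := (cu - ct) / 2 with hst
  set sv := (cu - cv) / 2 with hsv
  have hst0 : 0 ≤ st := by rw [hst]; linarith
  have hsv0 : 0 ≤ sv := by rw [hsv]; linarith
  have hst1 : st ≤ lt := by rw [hst]; linarith
  have hsv1 : sv ≤ lv := by rw [hsv]; linarith
  set w0 := (cv + ct) / 2 with hw0
  have hw00 : 0 ≤ w0 := by rw [hw0]; linarith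
  have ft := div_mul_of_le hst0 hst1
  have fv := div_mul_of_le hsv0 hsv1
  obtain ⟨ft0, ft1⟩ := div_nonneg_le_one hst0 hst1
  obtain ⟨fv0, fv1⟩ := div_nonneg_le_one hsv0 hsv1
  have eD1 : w0 - st + sv = ct := by rw [hw0, hst, hsv]; ring
  have eD2 : w0 + st - sv = cv := by rw [hw0, hst, hsv]; ring
  have eD3 : w0 + st + sv = cu := by rw [hw0, hst, hsv]; ring
  -- case split on zero legs
  by_cases hlu0 : lu = 0
  · subst hlu0
    refine ⟨st / lt, sv / lv, max 0 (1 - (st / lt + sv / lv)), w0, ⟨ft0, ft1, fv0, fv1, le_max_left _ _,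
      max_le (by norm_num) (by linarith), hw00, by rw [ft, fv]; linarith, by rw [ft, fv]; linarith,
      by rw [ft, fv]; linarith⟩, Or.inl ⟨?_, ?_⟩⟩
    · have := le_max_right 0 (1 - (st / lt + sv / lv)); linarith
    · rcases le_total (st / lt + sv / lv) 1 with h | h
      · left
        rw [max_eq_right (by linarith)]; linarith
      · rcases eq_or_lt_of_le h with h' | h'
        · left
          rw [max_eq_right (by linarith)]; linarith
        · right
          exact ⟨max_eq_left (by linarith), rfl, rfl, h'⟩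
  by_cases hlv0 : lv = 0
  · subst hlv0
    have hsv00 : sv = 0 := by linarith
    refine ⟨st / lt, 1 - st / lt, 0, w0, ⟨ft0, ft1, by linarith, by linarith, le_refl _, by norm_num,
      hw00, ?_, ?_, ?_⟩, Or.inl ⟨by linarith, Or.inl (by linarith)⟩⟩
    · rw [ft]; linarith
    · rw [ft]; linarith
    · rw [ft]; linarith
  by_cases hlt0 : lt = 0
  · subst hlt0
    have hst00 : st = 0 := by linarith
    have hcu : cu = ct := by rw [hst] at hst00; linarith
    have hsv00 : sv = 0 := by rw [hsv]; linarith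
    refine ⟨1, 0, 0, w0, ⟨by norm_num, le_refl _, le_refl _, by norm_num, le_refl _, by norm_num,
      hw00, ?_, ?_, ?_⟩, Or.inl ⟨by norm_num, Or.inl (by norm_num)⟩⟩
    · linarith
    · linarith
    · linarith
  have hlt' : 0 < lt := lt_of_le_of_ne hlt (Ne.symm hlt0)
  have hlv' : 0 < lv := lt_of_le_of_ne hlv (Ne.symm hlv0)
  have hlu' : 0 < lu := lt_of_le_of_ne hlu (Ne.symm hlu0)
  rcases le_or_gt 1 (st / lt + sv / lv) with hF | hF
  · refine ⟨st / lt, sv / lv, 0, w0, ⟨ft0, ft1, fv0, fv1, le_refl _, by norm_num, hw00, ?_, ?_, ?_⟩,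
      Or.inl ⟨by linarith, ?_⟩⟩
    · rw [ft, fv]; linarith
    · rw [ft, fv]; linarith
    · rw [ft, fv]; linarith
    · rcases eq_or_lt_of_le hF with h' | h'
      · left; linarith
      · right; exact ⟨rfl, rfl, rfl, h'⟩
  · -- all legs positive, `F < 1`
    set I := 1 / lt + 1 / lv + 1 / lu with hI
    have hIpos : 0 < I := by rw [hI]; positivity
    have e1 : ∀ (a : ℝ) (l : ℝ), 0 < l → (a / l) * l = a := fun a l hl => div_mul_cancel₀ a hl.ne'
    have key : ∀ lam : ℝ, 0 ≤ lam → lam ≤ w0 → st / lt + sv / lv + lam * I ≤ 1 →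
        FlipOut lt lv lu ct cv cu ((st + lam) / lt) ((sv + lam) / lv) (lam / lu) (w0 - lam) ∧
        (st + lam) / lt + (sv + lam) / lv + lam / lu = st / lt + sv / lv + lam * I := by
      intro lam h0 h1 h2
      have e2 : (st + lam) / lt + (sv + lam) / lv + lam / lu = st / lt + sv / lv + lam * I := by
        rw [hI]; field_simp; ring
      have ht0 : 0 ≤ (st + lam) / lt := div_nonneg (by linarith) hlt
      have hv0 : 0 ≤ (sv + lam) / lv := div_nonneg (by linarith) hlv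
      have hu0 : 0 ≤ lam / lu := div_nonneg h0 hlu
      refine ⟨⟨ht0, by linarith, hv0, by linarith, hu0, by linarith, by linarith, ?_, ?_, ?_⟩, e2⟩
      · rw [e1 _ _ hlt', e1 _ _ hlv', e1 _ _ hlu']; linarith
      · rw [e1 _ _ hlt', e1 _ _ hlv', e1 _ _ hlu']; linarith
      · rw [e1 _ _ hlt', e1 _ _ hlv', e1 _ _ hlu']; linarith
    by_cases hcase : (1 - (st / lt + sv / lv)) / I ≤ w0
    · set lam := (1 - (st / lt + sv / lv)) / I with hlam
      have hlam0 : 0 ≤ lam := div_nonneg (by linarith) hIpos.le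
      have hlamI : lam * I = 1 - (st / lt + sv / lv) := div_mul_cancel₀ _ hIpos.ne'
      obtain ⟨hK, e⟩ := key lam hlam0 hcase (by linarith)
      refine ⟨_, _, _, _, hK, Or.inl ⟨by linarith, Or.inl (by linarith)⟩⟩
    · have hcase' := not_le.1 hcase
      have hlt1 : w0 * I < 1 - (st / lt + sv / lv) := by
        rw [lt_div_iff₀ hIpos] at hcase'
        exact hcase'
      obtain ⟨hK, e⟩ := key w0 hw00 (le_refl _) (by linarith)
      refine ⟨_, _, _, _, hK, Or.inr ⟨by ring, by linarith, hlt', hlv', hlu', hF, ?_, ?_, ?_⟩⟩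
      · rw [e1 _ _ hlt']; rw [hst, hw0]; ring
      · rw [e1 _ _ hlv']; rw [hsv, hw0]; ring
      · rw [e1 _ _ hlu']

end

end Vale.Agent.Lib.P235
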