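import Vale.Agent.Lib.P235.Flip

namespace Vale.Agent.Lib.P235

noncomputable section

/-- Simple criterion for the harmonic clause. -/
lemma harm_simple_c {A B h S : ℝ} (hA : 0 ≤ A) (hB : 0 ≤ B) (hh : 0 ≤ h) (hS : 14 * h ≤ S) :
    14 * (A * B * h) ≤ S * (A * B + B * h + A * h) := by
  have h1 : 0 ≤ A * B := mul_nonneg hA hB
  have h2 := mul_le_mul_of_nonneg_right hS h1
  have hS0 : 0 ≤ S := by linarith
  have h3 : 0 ≤ S * (B * h + A * h) := mul_nonneg hS0 (add_nonneg (mul_nonneg hB hh) (mul_nonneg hA hh))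
  nlinarith

lemma harm_simple_a {A B h S : ℝ} (hA : 0 ≤ A) (hB : 0 ≤ B) (hh : 0 ≤ h) (hS : 14 * A ≤ S) :
    14 * (A * B * h) ≤ S * (A * B + B * h + A * h) := by
  have := harm_simple_c (A := B) (B := h) (h := A) (S := S) hB hh hA hS
  nlinarith

/-- Monotonicity of the harmonic clause in one leg. -/
lemma harm_mono {lt lv lu g E : ℝ} (hlt : 0 ≤ lt) (hlv : 0 ≤ lv) (hlu : 0 ≤ lu) (hg0 : 0 ≤ g)
    (hg : g ≤ lt)
    (hE : 14 * (lt * lv * lu) ≤ E * (lt * lv + lv * lu + lt * lu)) (hE0 : 0 ≤ E) :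
    14 * (lv * lu * g) ≤ E * (lv * lu + lu * g + lv * g) := by
  rcases eq_or_lt_of_le hlt with h0 | h0
  · have : g = 0 := by linarith
    subst this
    have : 0 ≤ lv * lu := mul_nonneg hlv hlu
    nlinarith
  · have h1 : 0 ≤ lv * lu := mul_nonneg hlv hlu
    have h2 : g * (lv * lu) ≤ lt * (lv * lu) := mul_le_mul_of_nonneg_right hg h1
    have h3 := mul_le_mul_of_nonneg_left hE hg0
    have h4 : E * (g * (lv * lu)) ≤ E * (lt * (lv * lu)) := mul_le_mul_of_nonneg_left h2 hE0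
    have h5 : lt * (14 * (lv * lu * g)) ≤ lt * (E * (lv * lu + lu * g + lv * g)) := by
      nlinarith
    exact le_of_mul_le_mul_left h5 h0

/-- The key reciprocal estimate for a small perturbation. -/
lemma recip_tangent {a η : ℝ} (ha : 0 < a) (hb : 0 < a + η) : 1 / a - η * (1 / a) ^ 2 ≤ 1 / (a + η) := by
  have h : 1 / (a + η) - (1 / a - η * (1 / a) ^ 2) = η ^ 2 * (1 / a) ^ 2 * (1 / (a + η)) := by
    field_simp
    ring
  have h2 : 0 ≤ η ^ 2 * (1 / a) ^ 2 * (1 / (a + η)) := by positivity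
  linarith

/-- Lower bound for the gain `1/h - 1/lt`, polynomial form. -/
lemma gain_poly {lt h L δ : ℝ} (hL : 0 < L) (hh : 0 < h) (hδ : 0 < δ)
    (h1 : h + (24 / 32) * δ ≤ lt) (h2 : h ≤ (171 / 100) * L) (h3 : δ ≤ (5 / 4) * L) :
    (231 / 100) * (δ / 64) * (h * lt) ≤ (lt - h) * L ^ 2 := by
  have hlt : 0 < lt := by linarith
  rcases le_total lt (2 * h) with hc | hc
  · -- lt ≤ 2 h
    have h4 : h * lt ≤ 2 * h ^ 2 := by nlinarith
    have h5 : h ^ 2 ≤ ((171 / 100) * L) ^ 2 := pow_le_pow_left₀ hh.le h2 2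
    have h6 : h * lt ≤ (5849 / 1000) * L ^ 2 := by nlinarith
    have h7 : δ * (h * lt) ≤ δ * ((5849 / 1000) * L ^ 2) := mul_le_mul_of_nonneg_left h6 hδ.le
    have h8 : ((24 / 32) * δ) * L ^ 2 ≤ (lt - h) * L ^ 2 :=
      mul_le_mul_of_nonneg_right (by linarith) (by positivity)
    nlinarith [mul_pos hδ (pow_pos hL 2)]
  · -- lt ≥ 2 h
    have h4 : lt / 2 ≤ lt - h := by linarith
    have h5 : (lt / 2) * L ^ 2 ≤ (lt - h) * L ^ 2 := mul_le_mul_of_nonneg_right h4 (by positivity)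
    have h6 : δ * h ≤ ((5 / 4) * L) * ((171 / 100) * L) :=
      mul_le_mul h3 h2 hh.le (by positivity)
    have h7 : (δ * h) * lt ≤ (((5 / 4) * L) * ((171 / 100) * L)) * lt :=
      mul_le_mul_of_nonneg_right h6 hlt.le
    nlinarith [mul_pos hlt (pow_pos hL 2)]

/-- Reciprocal form of the gain. -/
lemma gain_recip {lt h L δ : ℝ} (hL : 0 < L) (hh : 0 < h) (hδ : 0 < δ)
    (h1 : h + (24 / 32) * δ ≤ lt) (h2 : h ≤ (171 / 100) * L) (h3 : δ ≤ (5 / 4) * L) :
    (231 / 100) * (δ / 64) * (1 / L) ^ 2 ≤ 1 / h - 1 / lt := by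
  have hlt : 0 < lt := by linarith
  have h4 := gain_poly hL hh hδ h1 h2 h3
  have e : 1 / h - 1 / lt = (lt - h) / (h * lt) := by field_simp
  rw [e, div_pow, one_pow, ← mul_div_assoc, mul_one, div_le_div_iff₀ (by positivity) (by positivity)]
  nlinarith

lemma cross_bound {η σ X Y Λ : ℝ} (h1 : -σ ≤ η) (h2 : η ≤ σ) (hX0 : 0 ≤ X) (hX : X ≤ Λ)
    (hY0 : 0 ≤ Y) (hY : Y ≤ Λ) : -(σ * Λ ^ 2) ≤ η * (Y ^ 2 - X ^ 2) := by
  have hXX : X ^ 2 ≤ Λ ^ 2 := pow_le_pow_left₀ hX0 hX 2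
  have hYY : Y ^ 2 ≤ Λ ^ 2 := pow_le_pow_left₀ hY0 hY 2
  have hp1 : 0 ≤ Λ ^ 2 + (Y ^ 2 - X ^ 2) := by linarith [sq_nonneg Y]
  have hp2 : 0 ≤ Λ ^ 2 - (Y ^ 2 - X ^ 2) := by linarith [sq_nonneg X]
  have hs1 : 0 ≤ σ + η := by linarith
  have hs2 : 0 ≤ σ - η := by linarith
  nlinarith [mul_nonneg hs1 hp1, mul_nonneg hs2 hp2]

/-- Abstract reciprocal form of the harmonic step. -/
lemma harm_abstract {I I' K σ Λ E : ℝ} (hΛ : 0 < Λ) (hσ : 0 < σ) (hI : 0 < I) (hI3 : I ≤ 3 * Λ)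
    (hw : σ * Λ ≤ 5 / 256) (hK : K = (131 / 100) * (σ * Λ ^ 2)) (hI' : I + K ≤ I')
    (hE : 14 ≤ E * I) : 14 ≤ (E - 2 * σ) * I' := by
  have hK0 : 0 < K := by rw [hK]; positivity
  have hσI : σ * I ≤ 15 / 256 := by
    have := mul_le_mul_of_nonneg_left hI3 hσ.le
    nlinarith
  have hσI0 : 0 < σ * I := mul_pos hσ hI
  -- main inequality
  have h1 : 7 * I ≤ (I + K) * (7 - σ * I) := by
    have h2 : σ * I * I ≤ 9 * (σ * Λ ^ 2) := by
      have h3 : σ * I * I ≤ σ * (3 * Λ) * I := by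
        apply mul_le_mul_of_nonneg_right _ hI.le
        exact mul_le_mul_of_nonneg_left hI3 hσ.le
      have h4 : σ * (3 * Λ) * I ≤ σ * (3 * Λ) * (3 * Λ) :=
        mul_le_mul_of_nonneg_left hI3 (by positivity)
      nlinarith
    have h5 : σ * I * K ≤ (15 / 256) * K := mul_le_mul_of_nonneg_right hσI hK0.le
    have e : (I + K) * (7 - σ * I) = 7 * I + 7 * K - σ * I * I - σ * I * K := by ring
    rw [e, hK] at *
    have h6 : 0 < σ * Λ ^ 2 := by positivity
    nlinarith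
  have h7 : 0 < E - 2 * σ := by
    have h8 : 0 < (E - 2 * σ) * I := by nlinarith
    exact (mul_pos_iff_of_pos_right hI).1 h8
  have h9 : (E - 2 * σ) * (I + K) ≤ (E - 2 * σ) * I' := mul_le_mul_of_nonneg_left hI' h7.le
  have h10 : I * 14 ≤ I * ((E - 2 * σ) * (I + K)) := by
    have h11 : (14 - 2 * (σ * I)) * (I + K) ≤ (E * I - 2 * (σ * I)) * (I + K) :=
      mul_le_mul_of_nonneg_right (by linarith) (by linarith)
    nlinarith
  have h12 := le_of_mul_le_mul_left h10 hI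
  linarith

/-- The harmonic lemma for the child retiring the special vertex. -/
theorem harmonic_core {lt lv lu g δ yv yu E : ℝ} (hg : 0 < g) (hδ : 0 < δ)
    (h1 : g + δ ≤ (5 / 4) * lt - g / 4) (h2 : g + δ ≤ (5 / 4) * lv + g / 4)
    (h3 : g + δ ≤ (5 / 4) * lu + g / 4)
    (hyv0 : 0 ≤ yv) (hyv : yv ≤ δ / 32) (hyu0 : 0 ≤ yu) (hyu : yu ≤ δ / 32)
    (hE : 14 * (lt * lv * lu) ≤ E * (lt * lv + lv * lu + lt * lu)) :
    14 * ((lv + (yv - yu) / 2) * (lu + (yu - yv) / 2) * (g + (yv + yu) / 2))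
      ≤ (E - δ / 32) * ((lv + (yv - yu) / 2) * (lu + (yu - yv) / 2)
          + (lu + (yu - yv) / 2) * (g + (yv + yu) / 2)
          + (lv + (yv - yu) / 2) * (g + (yv + yu) / 2)) := by
  have hlt : 0 < lt := by linarith
  have hlv : 0 < lv := by linarith
  have hlu : 0 < lu := by linarith
  set L := min lt (min lv lu) with hL
  have hL0 : 0 < L := lt_min hlt (lt_min hlv hlu)
  have hL1 : L ≤ lt := min_le_left _ _
  have hL2 : L ≤ lv := le_trans (min_le_right _ _) (min_le_left _ _)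
  have hL3 : L ≤ lu := le_trans (min_le_right _ _) (min_le_right _ _)
  have hδL : (4 / 5) * δ ≤ L :=
    le_min (by linarith) (le_min (by linarith) (by linarith))
  have hgL : (3 / 5) * g ≤ L :=
    le_min (by linarith) (le_min (by linarith) (by linarith))
  set η := (yv - yu) / 2 with hη
  have hηb : -(δ / 64) ≤ η ∧ η ≤ δ / 64 := by
    rw [hη]; constructor <;> linarith
  set A := lv + η with hA
  set B := lu + (yu - yv) / 2 with hB
  have hBe : B = lu + (-η) := by rw [hB, hη]; ring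
  set h := g + (yv + yu) / 2 with hh
  have hA0 : 0 < A := by rw [hA]; linarith [hηb.1]
  have hB0 : 0 < B := by rw [hBe]; linarith [hηb.2]
  have hh0 : 0 < h := by rw [hh]; linarith
  -- reciprocal facts
  have hgain := gain_recip (lt := lt) (h := h) (L := L) (δ := δ) hL0 hh0 hδ
    (by rw [hh]; linarith) (by rw [hh]; linarith) (by linarith)
  have htan1 := recip_tangent (a := lv) (η := η) hlv hA0
  have htan2 := recip_tangent (a := lu) (η := -η) hlu (by rw [← hBe]; exact hB0)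
  rw [← hBe] at htan2
  have hX : 1 / lv ≤ 1 / L := one_div_le_one_div_of_le hL0 hL2
  have hY : 1 / lu ≤ 1 / L := one_div_le_one_div_of_le hL0 hL3
  have hT : 1 / lt ≤ 1 / L := one_div_le_one_div_of_le hL0 hL1
  have hX0 : 0 < 1 / lv := by positivity
  have hY0 : 0 < 1 / lu := by positivity
  have hT0 : 0 < 1 / lt := by positivity
  have hΛ0 : 0 < 1 / L := by positivity
  generalize hXd : 1 / lv = X at *
  generalize hYd : 1 / lu = Y at *
  generalize hTd : 1 / lt = T at *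
  generalize hΛd : 1 / L = Λ at *
  have hcross := cross_bound hηb.1 hηb.2 hX0.le hX hY0.le hY
  have hI' : (X + Y + T) + (131 / 100) * (δ / 64 * Λ ^ 2) ≤ 1 / A + 1 / B + 1 / h := by
    linarith
  have hLΛ : L * Λ = 1 := by rw [← hΛd]; field_simp
  have hw : δ / 64 * Λ ≤ 5 / 256 := by
    have h4 : δ * Λ ≤ (5 / 4) * L * Λ := mul_le_mul_of_nonneg_right (by linarith) hΛ0.le
    nlinarith
  have hE' : 14 ≤ E * (X + Y + T) := by
    have hP : 0 < lt * lv * lu := by positivity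
    have e : E * (lt * lv + lv * lu + lt * lu) = E * (X + Y + T) * (lt * lv * lu) := by
      rw [← hXd, ← hYd, ← hTd]
      field_simp
      ring
    rw [e] at hE
    have h5 : 14 * (lt * lv * lu) ≤ (E * (X + Y + T)) * (lt * lv * lu) := hE
    exact le_of_mul_le_mul_right h5 hP
  have hfinal := harm_abstract (I := X + Y + T) (I' := 1 / A + 1 / B + 1 / h)
    (K := (131 / 100) * (δ / 64 * Λ ^ 2)) (σ := δ / 64) (Λ := Λ) (E := E) hΛ0 (by positivity)
    (by positivity) (by linarith) hw rfl hI' hE'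
  have e : A * B * h * (1 / A + 1 / B + 1 / h) = A * B + B * h + A * h := by
    field_simp
    ring
  have hABh : 0 < A * B * h := by positivity
  have h6 := mul_le_mul_of_nonneg_left hfinal hABh.le
  have e2 : A * B * h * ((E - 2 * (δ / 64)) * (1 / A + 1 / B + 1 / h))
      = (E - δ / 32) * (A * B + B * h + A * h) := by
    rw [← e]; ring
  rw [e2] at h6
  linarith

end

end Vale.Agent.Lib.P235
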