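import Vale.Agent.Lib.P235.Ord3

namespace Vale.Agent.Lib.P235

noncomputable section

/-- The ordered kernel, from the definitions of the targets. -/
theorem kernel_ordered {lt lv lu rt rv ru dtv dtu dvu g Q σ : ℝ}
    (G : GoodSt lt lv lu dtv dtu dvu) (T : TriR rt rv ru dtv dtu dvu)
    (hg : (g = 0 ∧ 0 ≤ rt - lt ∧ 0 ≤ rv - lv ∧ 0 ≤ ru - lu) ∨ (0 < g ∧ rt - lt = -g))
    (hQ1 : Q ≤ (5 / 4) * lt - g / 4) (hQ2 : Q ≤ (5 / 4) * lv + g / 4) (hQ3 : Q ≤ (5 / 4) * lu + g / 4)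
    (hQ4 : Q = (5 / 4) * lt - g / 4 ∨ Q = (5 / 4) * lv + g / 4 ∨ Q = (5 / 4) * lu + g / 4)
    (hσ : σ = max 0 (Q - g) / 64)
    (o1 : -g + yval (rt - lt + g) lt g σ ≤ g + yval (rv - lv - g) lv g σ)
    (o2 : yval (rv - lv - g) lv g σ ≤ yval (ru - lu - g) lu g σ) :
    ∃ xt xv xu w : ℝ, KOK lt lv lu rt rv ru dtv dtu dvu xt xv xu w := by
  have hlt := G.h0
  have hlv := G.h1
  have hlu := G.h2
  have hrt := T.h0
  have hg0 : 0 ≤ g := by
    rcases hg with ⟨h, _⟩ | ⟨h, _⟩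
    · exact h.ge
    · exact h.le
  have hgt : g ≤ lt := by
    rcases hg with ⟨h, _⟩ | ⟨_, h⟩
    · rw [h]; exact hlt
    · linarith
  have hAt : 0 ≤ rt - lt + g := by
    rcases hg with ⟨h, h1, _⟩ | ⟨_, h⟩
    · rw [h]; linarith
    · linarith
  have hAv : 0 ≤ rv - lv - g := by
    rcases hg with ⟨h, _, h1, _⟩ | ⟨_, h⟩
    · rw [h]; linarith
    · linarith [T.c01, G.a01]
  have hAu : 0 ≤ ru - lu - g := by
    rcases hg with ⟨h, _, _, h1⟩ | ⟨_, h⟩
    · rw [h]; linarith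
    · linarith [T.c02, G.a02]
  have hσ0 : 0 ≤ σ := by
    rw [hσ]; exact div_nonneg (le_max_left _ _) (by norm_num)
  have hσ1 : 0 < σ → σ = (Q - g) / 64 := by
    intro h
    rcases le_total 0 (Q - g) with h1 | h1
    · rw [hσ, max_eq_right h1]
    · rw [hσ, max_eq_left h1] at h
      simp at h
  have hσ2 : Q - g ≤ 64 * σ := by
    have := le_max_right 0 (Q - g)
    rw [hσ]; linarith
  have hg' : g = 0 ∨ (0 < g ∧ rt - lt = -g) := by
    rcases hg with ⟨h, _⟩ | h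
    · exact Or.inl h
    · exact Or.inr h
  have hyt3 : 0 < g → yval (rt - lt + g) lt g σ = 0 := by
    intro h
    rcases hg with ⟨h1, _⟩ | ⟨_, h1⟩
    · linarith
    · rw [show rt - lt + g = 0 by linarith]
      exact yval_zero (by linarith) hσ0
  refine ord_core (yt := yval (rt - lt + g) lt g σ) (yv := yval (rv - lv - g) lv g σ)
    (yu := yval (ru - lu - g) lu g σ) G T hg0 hgt hg' hQ1 hQ2 hQ3 hQ4 hσ0 hσ1 hσ2 hAt hAv hAu
    (yval_nonneg _ _ _ _) ?_ ?_ hyt3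
    (yval_nonneg _ _ _ _) ?_ ?_ rfl
    (yval_nonneg _ _ _ _) ?_ ?_ rfl ?_ o1 o2
  · have := yval_le (A := rt - lt + g) (l := lt) (g := g) (σ := σ) hAt (by linarith)
    linarith
  · rcases hg' with h | ⟨h, h1⟩
    · subst h
      have := yval_ge_theta (rt - lt + 0) lt 0 σ
      linarith
    · rw [hyt3 h]; linarith
  · have := yval_le (A := rv - lv - g) (l := lv) (g := g) (σ := σ) hAv (by linarith)
    linarith
  · have := yval_ge_theta (rv - lv - g) lv g σ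
    linarith
  · have := yval_le (A := ru - lu - g) (l := lu) (g := g) (σ := σ) hAu (by linarith)
    linarith
  · have := yval_ge_theta (ru - lu - g) lu g σ
    linarith
  · intro hlt' hlv' hlu'
    rcases G.clause with c | c | c
    · exact y_fact hlt' hlv' hlu' hg0 hQ1 hQ2 hQ3 hσ0 hσ1 c (Or.inl (by linarith [T.c01]))
    · exact y_fact hlt' hlv' hlu' hg0 hQ1 hQ2 hQ3 hσ0 hσ1 c (Or.inr (Or.inl (by linarith [T.c02])))
    · exact y_fact hlt' hlv' hlu' hg0 hQ1 hQ2 hQ3 hσ0 hσ1 c (Or.inr (Or.inr (by linarith [T.c12])))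

/-- The kernel when the smallest target is known. -/
theorem kernel_semi {lt lv lu rt rv ru dtv dtu dvu g Q σ : ℝ}
    (G : GoodSt lt lv lu dtv dtu dvu) (T : TriR rt rv ru dtv dtu dvu)
    (hg : (g = 0 ∧ 0 ≤ rt - lt ∧ 0 ≤ rv - lv ∧ 0 ≤ ru - lu) ∨ (0 < g ∧ rt - lt = -g))
    (hQ1 : Q ≤ (5 / 4) * lt - g / 4) (hQ2 : Q ≤ (5 / 4) * lv + g / 4) (hQ3 : Q ≤ (5 / 4) * lu + g / 4)
    (hQ4 : Q = (5 / 4) * lt - g / 4 ∨ Q = (5 / 4) * lv + g / 4 ∨ Q = (5 / 4) * lu + g / 4)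
    (hσ : σ = max 0 (Q - g) / 64)
    (o1 : -g + yval (rt - lt + g) lt g σ ≤ g + yval (rv - lv - g) lv g σ)
    (o2 : -g + yval (rt - lt + g) lt g σ ≤ g + yval (ru - lu - g) lu g σ) :
    ∃ xt xv xu w : ℝ, KOK lt lv lu rt rv ru dtv dtu dvu xt xv xu w := by
  rcases le_total (yval (rv - lv - g) lv g σ) (yval (ru - lu - g) lu g σ) with h | h
  · exact kernel_ordered G T hg hQ1 hQ2 hQ3 hQ4 hσ o1 h
  · have hg2 : (g = 0 ∧ 0 ≤ rt - lt ∧ 0 ≤ ru - lu ∧ 0 ≤ rv - lv) ∨ (0 < g ∧ rt - lt = -g) := by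
      rcases hg with ⟨a, b, c, d⟩ | h2
      · exact Or.inl ⟨a, b, d, c⟩
      · exact Or.inr h2
    have hQ4' : Q = (5 / 4) * lt - g / 4 ∨ Q = (5 / 4) * lu + g / 4 ∨ Q = (5 / 4) * lv + g / 4 := by
      rcases hQ4 with a | a | a
      · exact Or.inl a
      · exact Or.inr (Or.inr a)
      · exact Or.inr (Or.inl a)
    obtain ⟨xt, xu, xv, w, K⟩ := kernel_ordered G.swap12 T.swap12 hg2 hQ1 hQ3 hQ2 hQ4' hσ o2 h
    exact ⟨xt, xv, xu, w, K.swap12⟩

/-- The kernel when all `a_i` are nonnegative and the first target is smallest. -/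
theorem kernel_zero {lt lv lu rt rv ru dtv dtu dvu Q σ : ℝ}
    (G : GoodSt lt lv lu dtv dtu dvu) (T : TriR rt rv ru dtv dtu dvu)
    (h1 : 0 ≤ rt - lt) (h2 : 0 ≤ rv - lv) (h3 : 0 ≤ ru - lu)
    (hQ1 : Q ≤ (5 / 4) * lt) (hQ2 : Q ≤ (5 / 4) * lv) (hQ3 : Q ≤ (5 / 4) * lu)
    (hQ4 : Q = (5 / 4) * lt ∨ Q = (5 / 4) * lv ∨ Q = (5 / 4) * lu)
    (hσ : σ = max 0 Q / 64)
    (o1 : yval (rt - lt) lt 0 σ ≤ yval (rv - lv) lv 0 σ)
    (o2 : yval (rt - lt) lt 0 σ ≤ yval (ru - lu) lu 0 σ) :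
    ∃ xt xv xu w : ℝ, KOK lt lv lu rt rv ru dtv dtu dvu xt xv xu w := by
  apply kernel_semi (g := 0) (Q := Q) (σ := σ) G T (Or.inl ⟨rfl, h1, h2, h3⟩)
  · linarith
  · linarith
  · linarith
  · rcases hQ4 with a | a | a
    · left; linarith
    · right; left; linarith
    · right; right; linarith
  · rw [hσ, sub_zero]
  · simp only [add_zero, sub_zero, neg_zero, zero_add]; exact o1
  · simp only [add_zero, sub_zero, neg_zero, zero_add]; exact o2

/-- The kernel when the vertex `t` has `a_t < 0`. -/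
theorem kernel_neg {lt lv lu rt rv ru dtv dtu dvu : ℝ}
    (G : GoodSt lt lv lu dtv dtu dvu) (T : TriR rt rv ru dtv dtu dvu)
    (h : rt - lt < 0) :
    ∃ xt xv xu w : ℝ, KOK lt lv lu rt rv ru dtv dtu dvu xt xv xu w := by
  set g := -(rt - lt) with hgd
  have hg : 0 < g := by rw [hgd]; linarith
  have hQ0 : min ((5 / 4) * lt - g / 4) (min ((5 / 4) * lv + g / 4) ((5 / 4) * lu + g / 4))
      ≤ (5 / 4) * lt - g / 4 := min_le_left _ _
  have hyt : yval (rt - lt + g) lt g (max 0 (min ((5 / 4) * lt - g / 4)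
      (min ((5 / 4) * lv + g / 4) ((5 / 4) * lu + g / 4)) - g) / 64) = 0 := by
    rw [show rt - lt + g = 0 by rw [hgd]; ring]
    exact yval_zero (by linarith [G.h0]) (div_nonneg (le_max_left _ _) (by norm_num))
  apply kernel_semi (g := g)
    (Q := min ((5 / 4) * lt - g / 4) (min ((5 / 4) * lv + g / 4) ((5 / 4) * lu + g / 4))) G T
    (Or.inr ⟨hg, by rw [hgd]; ring⟩) hQ0
    (le_trans (min_le_right _ _) (min_le_left _ _))
    (le_trans (min_le_right _ _) (min_le_right _ _)) ?_ rfl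
  · rw [hyt]
    have := yval_nonneg (rv - lv - g) lv g (max 0 (min ((5 / 4) * lt - g / 4)
      (min ((5 / 4) * lv + g / 4) ((5 / 4) * lu + g / 4)) - g) / 64)
    linarith
  · rw [hyt]
    have := yval_nonneg (ru - lu - g) lu g (max 0 (min ((5 / 4) * lt - g / 4)
      (min ((5 / 4) * lv + g / 4) ((5 / 4) * lu + g / 4)) - g) / 64)
    linarith
  · rcases min_choice ((5 / 4) * lt - g / 4) (min ((5 / 4) * lv + g / 4) ((5 / 4) * lu + g / 4)) with a | a
    · left; exact a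
    · rw [a]
      rcases min_choice ((5 / 4) * lv + g / 4) ((5 / 4) * lu + g / 4) with b | b
      · right; left; exact b
      · right; right; exact b

/-- The kernel exists for every good state and every admissible distance vector. -/
theorem kernel_exists {l0 l1 l2 r0 r1 r2 d01 d02 d12 : ℝ}
    (G : GoodSt l0 l1 l2 d01 d02 d12) (T : TriR r0 r1 r2 d01 d02 d12) :
    ∃ x0 x1 x2 w : ℝ, KOK l0 l1 l2 r0 r1 r2 d01 d02 d12 x0 x1 x2 w := by
  by_cases h0 : r0 - l0 < 0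
  · exact kernel_neg G T h0
  by_cases h1 : r1 - l1 < 0
  · obtain ⟨x1, x2, x0, w, K⟩ := kernel_neg G.cyc T.cyc h1
    exact ⟨x0, x1, x2, w, K.cyc.cyc⟩
  by_cases h2 : r2 - l2 < 0
  · obtain ⟨x2, x0, x1, w, K⟩ := kernel_neg G.cyc.cyc T.cyc.cyc h2
    exact ⟨x0, x1, x2, w, K.cyc⟩
  have h0' := not_lt.1 h0
  have h1' := not_lt.1 h1
  have h2' := not_lt.1 h2
  set Q := min ((5 / 4) * l0) (min ((5 / 4) * l1) ((5 / 4) * l2)) with hQ
  have hQ1 : Q ≤ (5 / 4) * l0 := min_le_left _ _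
  have hQ2 : Q ≤ (5 / 4) * l1 := le_trans (min_le_right _ _) (min_le_left _ _)
  have hQ3 : Q ≤ (5 / 4) * l2 := le_trans (min_le_right _ _) (min_le_right _ _)
  have hQ4 : Q = (5 / 4) * l0 ∨ Q = (5 / 4) * l1 ∨ Q = (5 / 4) * l2 := by
    rcases min_choice ((5 / 4) * l0) (min ((5 / 4) * l1) ((5 / 4) * l2)) with a | a
    · left; rw [hQ, a]
    · rcases min_choice ((5 / 4) * l1) ((5 / 4) * l2) with b | b
      · right; left; rw [hQ, a, b]
      · right; right; rw [hQ, a, b]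
  set σ := max 0 Q / 64 with hσ
  set y0 := yval (r0 - l0) l0 0 σ with hy0
  set y1 := yval (r1 - l1) l1 0 σ with hy1
  set y2 := yval (r2 - l2) l2 0 σ with hy2
  by_cases c0 : y0 ≤ y1 ∧ y0 ≤ y2
  · exact kernel_zero G T h0' h1' h2' hQ1 hQ2 hQ3 hQ4 hσ c0.1 c0.2
  by_cases c1 : y1 ≤ y2 ∧ y1 ≤ y0
  · obtain ⟨x1, x2, x0, w, K⟩ := kernel_zero (Q := Q) (σ := σ) G.cyc T.cyc h1' h2' h0' hQ2 hQ3 hQ1
      (by
        rcases hQ4 with a | a | a
        · right; right; exact a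
        · left; exact a
        · right; left; exact a) hσ c1.1 c1.2
    exact ⟨x0, x1, x2, w, K.cyc.cyc⟩
  · have c2 : y2 ≤ y0 ∧ y2 ≤ y1 := by
      by_contra hcon
      rw [not_and_or, not_le, not_le] at c0 c1 hcon
      rcases c0 with a | a <;> rcases c1 with b | b <;> rcases hcon with c | c <;> linarith
    obtain ⟨x2, x0, x1, w, K⟩ := kernel_zero (Q := Q) (σ := σ) G.cyc.cyc T.cyc.cyc h2' h0' h1' hQ3 hQ1 hQ2
      (by
        rcases hQ4 with a | a | a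
        · right; left; exact a
        · right; right; exact a
        · left; exact a) hσ c2.1 c2.2
    exact ⟨x0, x1, x2, w, K.cyc⟩

end

end Vale.Agent.Lib.P235
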