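import Mathlib.Tactic
import Mathlib.Data.Real.Basic
import Mathlib.Logic.Function.Basic

namespace Vale.Agent.Lib.P235

noncomputable section

open Function

/-- The numerical value of a bit. -/
def bit (b : Bool) : ℝ := if b then 1 else 0

@[simp] lemma bit_true : bit true = 1 := rfl
@[simp] lemma bit_false : bit false = 0 := rfl

/-- The probability that two independent bits of given means differ. -/
def FF (a b : ℝ) : ℝ := a * (1 - b) + (1 - a) * b

/-- The value of a one-vertex-isolating form on a bit pattern. -/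
def k3 (p0 p1 p2 : ℝ) : Bool → Bool → Bool → ℝ
  | false, false, false => 0
  | true, true, true => 1
  | true, false, false => p0
  | false, true, true => 1 - p0
  | false, true, false => p1
  | true, false, true => 1 - p1
  | false, false, true => p2
  | true, true, false => 1 - p2

variable {N : Type} [DecidableEq N]

/-- The form attached to a bag `T` and a vector `p`. -/
def kform (T : Fin 3 → N) (p : Fin 3 → ℝ) (σ : N → Bool) : ℝ :=
  k3 (p 0) (p 1) (p 2) (σ (T 0)) (σ (T 1)) (σ (T 2))

/-- The cut consisting of one vertex. -/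
def cutAt (v : N) : N → Bool := fun u => decide (u = v)

lemma cutAt_self (v : N) : cutAt v v = true := by simp [cutAt]

lemma cutAt_ne {u v : N} (h : u ≠ v) : cutAt v u = false := by simp [cutAt, h]

/-- Extending a cut to a vertex `z` by the rule `κ`. -/
def bindz (κ : (N → Bool) → ℝ) (z : N) (f : (N → Bool) → ℝ) (σ : N → Bool) : ℝ :=
  κ σ * f (update σ z true) + (1 - κ σ) * f (update σ z false)

/-- The cut functional attached to the data. -/
def EE (R : Fin 3 → N) (l0 : Fin 3 → ℝ) (T : N → Fin 3 → N) (x : N → Fin 3 → ℝ) (w : N → ℝ) :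
    List N → ((N → Bool) → ℝ) → ℝ
  | [], f => l0 0 * f (cutAt (R 0)) + l0 1 * f (cutAt (R 1)) + l0 2 * f (cutAt (R 2))
  | z :: l, f => EE R l0 T x w l (bindz (kform (T z) (x z)) z f) + w z * f (cutAt z)

/-- The semimetric of the cut functional. -/
def dF (R : Fin 3 → N) (l0 : Fin 3 → ℝ) (T : N → Fin 3 → N) (x : N → Fin 3 → ℝ) (w : N → ℝ)
    (l : List N) (u v : N) : ℝ :=
  EE R l0 T x w l (fun σ => FF (bit (σ u)) (bit (σ v)))

section basic

variable {R : Fin 3 → N} {l0 : Fin 3 → ℝ} {T : N → Fin 3 → N} {x : N → Fin 3 → ℝ} {w : N → ℝ}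

lemma EE_add (l : List N) (f g : (N → Bool) → ℝ) :
    EE R l0 T x w l (fun σ => f σ + g σ) = EE R l0 T x w l f + EE R l0 T x w l g := by
  induction l generalizing f g with
  | nil => simp only [EE]; ring
  | cons z l ih =>
    simp only [EE]
    have e : bindz (kform (T z) (x z)) z (fun σ => f σ + g σ)
        = fun σ => bindz (kform (T z) (x z)) z f σ + bindz (kform (T z) (x z)) z g σ := by
      funext σ; unfold bindz; ring
    rw [e, ih]; ring

lemma EE_smul (l : List N) (c : ℝ) (f : (N → Bool) → ℝ) :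
    EE R l0 T x w l (fun σ => c * f σ) = c * EE R l0 T x w l f := by
  induction l generalizing f with
  | nil => simp only [EE]; ring
  | cons z l ih =>
    simp only [EE]
    have e : bindz (kform (T z) (x z)) z (fun σ => c * f σ)
        = fun σ => c * bindz (kform (T z) (x z)) z f σ := by
      funext σ; unfold bindz; ring
    rw [e, ih]; ring

lemma EE_sub (l : List N) (f g : (N → Bool) → ℝ) :
    EE R l0 T x w l (fun σ => f σ - g σ) = EE R l0 T x w l f - EE R l0 T x w l g := by
  have h := EE_add (R := R) (l0 := l0) (T := T) (x := x) (w := w) l f (fun σ => (-1) * g σ)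
  rw [EE_smul] at h
  have e : (fun σ => f σ + (-1) * g σ) = fun σ => f σ - g σ := by funext σ; ring
  rw [e] at h
  rw [h]; ring

lemma k3_mem {p0 p1 p2 : ℝ} (h0 : 0 ≤ p0 ∧ p0 ≤ 1) (h1 : 0 ≤ p1 ∧ p1 ≤ 1) (h2 : 0 ≤ p2 ∧ p2 ≤ 1)
    (a b c : Bool) : 0 ≤ k3 p0 p1 p2 a b c ∧ k3 p0 p1 p2 a b c ≤ 1 := by
  cases a <;> cases b <;> cases c <;> simp only [k3] <;> constructor <;>
    first
      | linarith [h0.1, h0.2, h1.1, h1.2, h2.1, h2.2]
      | norm_num

lemma kform_mem {T' : Fin 3 → N} {p : Fin 3 → ℝ} (h : ∀ i, 0 ≤ p i ∧ p i ≤ 1) (σ : N → Bool) :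
    0 ≤ kform T' p σ ∧ kform T' p σ ≤ 1 :=
  k3_mem (h 0) (h 1) (h 2) _ _ _

/-- Positivity data of the functional along a list. -/
def PosData (x : N → Fin 3 → ℝ) (w : N → ℝ) (l : List N) : Prop :=
  ∀ z ∈ l, (∀ i, 0 ≤ x z i ∧ x z i ≤ 1) ∧ 0 ≤ w z

lemma EE_mono (hl0 : ∀ i, 0 ≤ l0 i) {l : List N} (hP : PosData x w l)
    {f g : (N → Bool) → ℝ} (h : ∀ σ, f σ ≤ g σ) :
    EE R l0 T x w l f ≤ EE R l0 T x w l g := by
  induction l generalizing f g with
  | nil =>
    simp only [EE]
    have h0 := mul_le_mul_of_nonneg_left (h (cutAt (R 0))) (hl0 0)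
    have h1 := mul_le_mul_of_nonneg_left (h (cutAt (R 1))) (hl0 1)
    have h2 := mul_le_mul_of_nonneg_left (h (cutAt (R 2))) (hl0 2)
    linarith
  | cons z l ih =>
    simp only [EE]
    have hz := hP z (by simp)
    have hP' : PosData x w l := fun y hy => hP y (by simp [hy])
    have h1 : EE R l0 T x w l (bindz (kform (T z) (x z)) z f)
        ≤ EE R l0 T x w l (bindz (kform (T z) (x z)) z g) := by
      apply ih hP'
      intro σ
      unfold bindz
      obtain ⟨k0, k1⟩ := kform_mem (T' := T z) hz.1 σ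
      have h2 := mul_le_mul_of_nonneg_left (h (update σ z true)) k0
      have h3 := mul_le_mul_of_nonneg_left (h (update σ z false)) (sub_nonneg.2 k1)
      linarith
    have h4 := mul_le_mul_of_nonneg_left (h (cutAt z)) hz.2
    linarith

lemma EE_nonneg (hl0 : ∀ i, 0 ≤ l0 i) {l : List N} (hP : PosData x w l)
    {f : (N → Bool) → ℝ} (h : ∀ σ, 0 ≤ f σ) : 0 ≤ EE R l0 T x w l f := by
  have h1 := EE_mono (R := R) (T := T) (f := fun _ => 0) (g := f) hl0 hP h
  have h2 := EE_smul (R := R) (l0 := l0) (T := T) (x := x) (w := w) l 0 f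
  rw [zero_mul] at h2
  have e : (fun σ : N → Bool => (0:ℝ) * f σ) = fun _ => 0 := by funext σ; ring
  rw [e] at h2
  linarith

/-- A function not depending on the coordinate `z`. -/
def Indep (z : N) (f : (N → Bool) → ℝ) : Prop := ∀ σ b, f (update σ z b) = f σ

lemma bindz_indep {κ : (N → Bool) → ℝ} {z : N} {f : (N → Bool) → ℝ} (h : Indep z f) :
    bindz κ z f = f := by
  funext σ
  unfold bindz
  rw [h, h]; ring

lemma EE_cons_indep {z : N} {l : List N} {f : (N → Bool) → ℝ} (h : Indep z f) :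
    EE R l0 T x w (z :: l) f = EE R l0 T x w l f + w z * f (cutAt z) := by
  simp only [EE]
  rw [bindz_indep h]

lemma indep_pair {z u v : N} (hu : u ≠ z) (hv : v ≠ z) :
    Indep z (fun σ => FF (bit (σ u)) (bit (σ v))) := by
  intro σ b
  simp only [update_of_ne hu, update_of_ne hv]

lemma FF_bit_false_false : FF (bit false) (bit false) = 0 := by simp [FF]

/-- The semimetric is not affected by newer vertices. -/
lemma dF_cons_ne {z u v : N} {l : List N} (hu : u ≠ z) (hv : v ≠ z) :
    dF R l0 T x w (z :: l) u v = dF R l0 T x w l u v := by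
  unfold dF
  rw [EE_cons_indep (indep_pair hu hv)]
  simp only [cutAt_ne hu, cutAt_ne hv, FF_bit_false_false]
  ring

lemma FF_comm_bit (a b : Bool) : FF (bit a) (bit b) = FF (bit b) (bit a) := by
  cases a <;> cases b <;> simp [FF]

lemma dF_comm (l : List N) (u v : N) : dF R l0 T x w l u v = dF R l0 T x w l v u := by
  unfold dF
  congr 1
  funext σ
  exact FF_comm_bit _ _

lemma FF_tri (a b c : Bool) : FF (bit a) (bit c) ≤ FF (bit a) (bit b) + FF (bit b) (bit c) := by
  cases a <;> cases b <;> cases c <;> simp [FF]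

lemma dF_tri (hl0 : ∀ i, 0 ≤ l0 i) {l : List N} (hP : PosData x w l) (u v t : N) :
    dF R l0 T x w l u t ≤ dF R l0 T x w l u v + dF R l0 T x w l v t := by
  unfold dF
  rw [← EE_add]
  exact EE_mono hl0 hP (fun σ => FF_tri _ _ _)

lemma dF_nonneg (hl0 : ∀ i, 0 ≤ l0 i) {l : List N} (hP : PosData x w l) (u v : N) :
    0 ≤ dF R l0 T x w l u v := by
  apply EE_nonneg hl0 hP
  intro σ
  cases σ u <;> cases σ v <;> simp [FF]

lemma dF_self (l : List N) (u : N) : dF R l0 T x w l u u = 0 := by
  unfold dF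
  have e : (fun σ : N → Bool => FF (bit (σ u)) (bit (σ u))) = fun σ => (0:ℝ) * (fun _ => (0:ℝ)) σ := by
    funext σ
    cases σ u <;> simp [FF]
  rw [e, EE_smul]; ring

end basic

end

end Vale.Agent.Lib.P235
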