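import Vale.Agent.Lib.P235.Markov1

namespace Vale.Agent.Lib.P235

noncomputable section

open Function

/-- The three indicator forms of a pattern, as combinations of pair differences. -/
def iso0 (a b c : Bool) : ℝ := (FF (bit a) (bit b) + FF (bit a) (bit c) - FF (bit b) (bit c)) / 2
def iso1 (a b c : Bool) : ℝ := (FF (bit a) (bit b) + FF (bit b) (bit c) - FF (bit a) (bit c)) / 2
def iso2 (a b c : Bool) : ℝ := (FF (bit a) (bit c) + FF (bit b) (bit c) - FF (bit a) (bit b)) / 2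

lemma k3_sq (p0 p1 p2 : ℝ) (a b c : Bool) :
    k3 p0 p1 p2 a b c * (1 - k3 p0 p1 p2 a b c)
      = p0 * (1 - p0) * iso0 a b c + p1 * (1 - p1) * iso1 a b c + p2 * (1 - p2) * iso2 a b c := by
  cases a <;> cases b <;> cases c <;> simp [k3, iso0, iso1, iso2, FF] <;> ring

lemma k3_diff0 (x0 x1 x2 : ℝ) (a b c : Bool) :
    FF (k3 x0 x1 x2 a b c) (bit a)
      = (1 - x0) * iso0 a b c + x1 * iso1 a b c + x2 * iso2 a b c := by
  cases a <;> cases b <;> cases c <;> simp [k3, iso0, iso1, iso2, FF] <;> ring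

lemma k3_diff1 (x0 x1 x2 : ℝ) (a b c : Bool) :
    FF (k3 x0 x1 x2 a b c) (bit b)
      = x0 * iso0 a b c + (1 - x1) * iso1 a b c + x2 * iso2 a b c := by
  cases a <;> cases b <;> cases c <;> simp [k3, iso0, iso1, iso2, FF] <;> ring

lemma k3_diff2 (x0 x1 x2 : ℝ) (a b c : Bool) :
    FF (k3 x0 x1 x2 a b c) (bit c)
      = x0 * iso0 a b c + x1 * iso1 a b c + (1 - x2) * iso2 a b c := by
  cases a <;> cases b <;> cases c <;> simp [k3, iso0, iso1, iso2, FF] <;> ring

lemma FF_identity (a b : ℝ) : FF a b = (a - b) ^ 2 + a * (1 - a) + b * (1 - b) := by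
  unfold FF; ring

lemma FF_ge (a b : ℝ) : a * (1 - a) + b * (1 - b) ≤ FF a b := by
  rw [FF_identity]; nlinarith [sq_nonneg (a - b)]

lemma FF_bit_ge (a : Bool) (b : ℝ) : b * (1 - b) ≤ FF (bit a) b := by
  have h := FF_ge (bit a) b
  cases a <;> simp at h ⊢ <;> linarith

variable {N : Type} [DecidableEq N]

/-- A combination of the indicator forms. -/
def isoc (B : Fin 3 → N) (c0 c1 c2 : ℝ) (σ : N → Bool) : ℝ :=
  c0 * iso0 (σ (B 0)) (σ (B 1)) (σ (B 2)) + c1 * iso1 (σ (B 0)) (σ (B 1)) (σ (B 2))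
    + c2 * iso2 (σ (B 0)) (σ (B 1)) (σ (B 2))

section

variable {R : Fin 3 → N} {l0 : Fin 3 → ℝ} {T : N → Fin 3 → N} {x : N → Fin 3 → ℝ} {w : N → ℝ}

/-- Value of the functional on combinations of indicator forms, from the pair distances. -/
lemma EE_isoc {l : List N} {B : Fin 3 → N} {L0 L1 L2 : ℝ}
    (h01 : dF R l0 T x w l (B 0) (B 1) = L0 + L1)
    (h02 : dF R l0 T x w l (B 0) (B 2) = L0 + L2)
    (h12 : dF R l0 T x w l (B 1) (B 2) = L1 + L2) (c0 c1 c2 : ℝ) :
    EE R l0 T x w l (isoc B c0 c1 c2) = c0 * L0 + c1 * L1 + c2 * L2 := by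
  unfold dF at h01 h02 h12
  have e : isoc B c0 c1 c2 = fun σ =>
      ((c0 + c1 - c2) / 2) * FF (bit (σ (B 0))) (bit (σ (B 1)))
      + (((c0 - c1 + c2) / 2) * FF (bit (σ (B 0))) (bit (σ (B 2)))
      + ((-c0 + c1 + c2) / 2) * FF (bit (σ (B 1))) (bit (σ (B 2)))) := by
    funext σ
    unfold isoc iso0 iso1 iso2
    ring
  rw [e, EE_add, EE_add, EE_smul, EE_smul, EE_smul, h01, h02, h12]
  ring

/-- The functional applied to `K (1 - K)`. -/
lemma EE_k_sq {l : List N} {B : Fin 3 → N} {L0 L1 L2 : ℝ} (p : Fin 3 → ℝ)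
    (h01 : dF R l0 T x w l (B 0) (B 1) = L0 + L1)
    (h02 : dF R l0 T x w l (B 0) (B 2) = L0 + L2)
    (h12 : dF R l0 T x w l (B 1) (B 2) = L1 + L2) :
    EE R l0 T x w l (fun σ => kform B p σ * (1 - kform B p σ))
      = L0 * (p 0 * (1 - p 0)) + L1 * (p 1 * (1 - p 1)) + L2 * (p 2 * (1 - p 2)) := by
  have e : (fun σ => kform B p σ * (1 - kform B p σ))
      = isoc B (p 0 * (1 - p 0)) (p 1 * (1 - p 1)) (p 2 * (1 - p 2)) := by
    funext σ
    unfold kform isoc
    rw [k3_sq]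
  rw [e, EE_isoc h01 h02 h12]
  ring

/-- The bind of the pair function of the new vertex with an older vertex. -/
lemma bindz_pair {κ : (N → Bool) → ℝ} {z u : N} (hu : u ≠ z) (σ : N → Bool) :
    bindz κ z (fun σ => FF (bit (σ z)) (bit (σ u))) σ = FF (κ σ) (bit (σ u)) := by
  unfold bindz
  simp only [update_self, update_of_ne hu]
  simp [FF]

/-- Distance of a new vertex to its bag. -/
lemma dF_new0 {l : List N} {z : N} {L0 L1 L2 : ℝ} (hB : ∀ i, T z i ≠ z)
    (h01 : dF R l0 T x w l (T z 0) (T z 1) = L0 + L1)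
    (h02 : dF R l0 T x w l (T z 0) (T z 2) = L0 + L2)
    (h12 : dF R l0 T x w l (T z 1) (T z 2) = L1 + L2) :
    dF R l0 T x w (z :: l) z (T z 0) = w z + L0 - x z 0 * L0 + x z 1 * L1 + x z 2 * L2 := by
  unfold dF
  simp only [EE]
  have e : bindz (kform (T z) (x z)) z (fun σ => FF (bit (σ z)) (bit (σ (T z 0))))
      = isoc (T z) (1 - x z 0) (x z 1) (x z 2) := by
    funext σ
    rw [bindz_pair (hB 0)]
    unfold kform isoc
    rw [k3_diff0]
  rw [e, EE_isoc h01 h02 h12, cutAt_self, cutAt_ne (hB 0)]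
  simp [FF]
  ring

lemma dF_new1 {l : List N} {z : N} {L0 L1 L2 : ℝ} (hB : ∀ i, T z i ≠ z)
    (h01 : dF R l0 T x w l (T z 0) (T z 1) = L0 + L1)
    (h02 : dF R l0 T x w l (T z 0) (T z 2) = L0 + L2)
    (h12 : dF R l0 T x w l (T z 1) (T z 2) = L1 + L2) :
    dF R l0 T x w (z :: l) z (T z 1) = w z + L1 + x z 0 * L0 - x z 1 * L1 + x z 2 * L2 := by
  unfold dF
  simp only [EE]
  have e : bindz (kform (T z) (x z)) z (fun σ => FF (bit (σ z)) (bit (σ (T z 1))))
      = isoc (T z) (x z 0) (1 - x z 1) (x z 2) := by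
    funext σ
    rw [bindz_pair (hB 1)]
    unfold kform isoc
    rw [k3_diff1]
  rw [e, EE_isoc h01 h02 h12, cutAt_self, cutAt_ne (hB 1)]
  simp [FF]
  ring

lemma dF_new2 {l : List N} {z : N} {L0 L1 L2 : ℝ} (hB : ∀ i, T z i ≠ z)
    (h01 : dF R l0 T x w l (T z 0) (T z 1) = L0 + L1)
    (h02 : dF R l0 T x w l (T z 0) (T z 2) = L0 + L2)
    (h12 : dF R l0 T x w l (T z 1) (T z 2) = L1 + L2) :
    dF R l0 T x w (z :: l) z (T z 2) = w z + L2 + x z 0 * L0 + x z 1 * L1 - x z 2 * L2 := by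
  unfold dF
  simp only [EE]
  have e : bindz (kform (T z) (x z)) z (fun σ => FF (bit (σ z)) (bit (σ (T z 2))))
      = isoc (T z) (x z 0) (x z 1) (1 - x z 2) := by
    funext σ
    rw [bindz_pair (hB 2)]
    unfold kform isoc
    rw [k3_diff2]
  rw [e, EE_isoc h01 h02 h12, cutAt_self, cutAt_ne (hB 2)]
  simp [FF]
  ring

end

/-- The bag of a child. -/
def childT (B : Fin 3 → N) (c : Fin 3) (z : N) : Fin 3 → N := ![B (c + 1), B (c + 2), z]

/-- The legs of a child. -/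
def childL (l x : Fin 3 → ℝ) (w : ℝ) (c : Fin 3) : Fin 3 → ℝ :=
  ![l (c + 1) - x (c + 1) * l (c + 1) + x (c + 2) * l (c + 2),
    l (c + 2) - x (c + 2) * l (c + 2) + x (c + 1) * l (c + 1),
    w + x c * l c]

/-- The composition rule for the level vectors. -/
def comp (x p : Fin 3 → ℝ) (c : Fin 3) : Fin 3 → ℝ :=
  if c = 0 then ![x 0 * p 2, p 0 + x 1 * (1 - p 0 - p 1), p 1 + x 2 * (1 - p 0 - p 1)]
  else if c = 1 then ![p 1 + x 0 * (1 - p 0 - p 1), x 1 * p 2, p 0 + x 2 * (1 - p 0 - p 1)]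
  else ![p 0 + x 0 * (1 - p 0 - p 1), p 1 + x 1 * (1 - p 0 - p 1), x 2 * p 2]

lemma fin3_cases (c : Fin 3) : c = 0 ∨ c = 1 ∨ c = 2 := by
  fin_cases c <;> simp

/-- The composition identity: extending a child form by the kernel gives the composed form. -/
lemma bindz_kform (B : Fin 3 → N) {z : N} (hB : ∀ i, B i ≠ z) (x p : Fin 3 → ℝ) (c : Fin 3)
    (σ : N → Bool) :
    bindz (kform B x) z (kform (childT B c z) p) σ = kform B (comp x p c) σ := by
  unfold bindz kform childT comp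
  rcases fin3_cases c with rfl | rfl | rfl
  · have e1 : ((0 : Fin 3) + 1) = 1 := rfl
    have e2 : ((0 : Fin 3) + 2) = 2 := rfl
    simp only [e1, e2, Matrix.cons_val_zero, Matrix.cons_val_one, Matrix.cons_val, update_self,
      update_of_ne (hB 1), update_of_ne (hB 2), if_true]
    cases σ (B 0) <;> cases σ (B 1) <;> cases σ (B 2) <;> simp [k3] <;> ring
  · have e1 : ((1 : Fin 3) + 1) = 2 := rfl
    have e2 : ((1 : Fin 3) + 2) = 0 := rfl
    have e3 : ((1 : Fin 3) = 0) = False := by simp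
    simp only [e1, e2, e3, Matrix.cons_val_zero, Matrix.cons_val_one, Matrix.cons_val, update_self,
      update_of_ne (hB 0), update_of_ne (hB 2), if_true, if_false]
    cases σ (B 0) <;> cases σ (B 1) <;> cases σ (B 2) <;> simp [k3] <;> ring
  · have e1 : ((2 : Fin 3) + 1) = 0 := rfl
    have e2 : ((2 : Fin 3) + 2) = 1 := rfl
    have e3 : ((2 : Fin 3) = 0) = False := by simp
    have e4 : ((2 : Fin 3) = 1) = False := by simp
    simp only [e1, e2, e3, e4, Matrix.cons_val_zero, Matrix.cons_val_one, Matrix.cons_val, update_self,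
      update_of_ne (hB 0), update_of_ne (hB 1), if_true, if_false]
    cases σ (B 0) <;> cases σ (B 1) <;> cases σ (B 2) <;> simp [k3] <;> ring

lemma indep_kform {B : Fin 3 → N} {z : N} (hB : ∀ i, B i ≠ z) (p : Fin 3 → ℝ) :
    Indep z (kform B p) := by
  intro σ b
  unfold kform
  simp only [update_of_ne (hB 0), update_of_ne (hB 1), update_of_ne (hB 2)]

lemma kform_cut_ne {B : Fin 3 → N} {z : N} (hB : ∀ i, B i ≠ z) (p : Fin 3 → ℝ) :
    kform B p (cutAt z) = 0 := by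
  unfold kform
  simp only [cutAt_ne (hB 0), cutAt_ne (hB 1), cutAt_ne (hB 2), k3]

lemma kform_child_cut {B : Fin 3 → N} {z : N} (hB : ∀ i, B i ≠ z) (c : Fin 3) (p : Fin 3 → ℝ) :
    kform (childT B c z) p (cutAt z) = p 2 := by
  unfold kform childT
  simp only [Matrix.cons_val_zero, Matrix.cons_val_one, Matrix.cons_val, cutAt_self,
    cutAt_ne (hB _), k3]

/-- Bind on a product difference, left factor depending on `z`. -/
lemma bindz_FF_left {κ : (N → Bool) → ℝ} {z : N} {f g : (N → Bool) → ℝ} (hg : Indep z g)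
    (σ : N → Bool) :
    bindz κ z (fun σ => FF (f σ) (g σ)) σ = FF (bindz κ z f σ) (g σ) := by
  unfold bindz FF
  simp only [hg σ]
  ring

lemma bindz_FF_right {κ : (N → Bool) → ℝ} {z : N} {f g : (N → Bool) → ℝ} (hf : Indep z f)
    (σ : N → Bool) :
    bindz κ z (fun σ => FF (f σ) (g σ)) σ = FF (f σ) (bindz κ z g σ) := by
  unfold bindz FF
  simp only [hf σ]
  ring

end

end Vale.Agent.Lib.P235
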