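import Vale.Agent.Lib.P235.Markov2

namespace Vale.Agent.Lib.P235

noncomputable section

open Function

variable {N : Type} [DecidableEq N]

/-- All combinatorial and numerical data of the construction. -/
structure Sys (N : Type) where
  R : Fin 3 → N
  T : N → Fin 3 → N
  par : N → Option (N × Fin 3)
  l0 : Fin 3 → ℝ
  x : N → Fin 3 → ℝ
  w : N → ℝ
  leg : N → Fin 3 → ℝ

/-- The parent of `m`, if any, lies in `l`. -/
def BagIn (S : Sys N) (l : List N) (m : N) : Prop :=
  S.par m = none ∨ ∃ u c, S.par m = some (u, c) ∧ u ∈ l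

/-- Well-formed elimination lists. -/
def WF (S : Sys N) : List N → Prop
  | [] => True
  | z :: l => z ∉ l ∧ (∀ i, S.R i ≠ z) ∧ BagIn S l z ∧ WF S l

/-- Structural hypotheses on the data. -/
structure Sys.OK (S : Sys N) (L : List N) : Prop where
  hR : Injective S.R
  hl0 : ∀ i, 0 ≤ S.l0 i
  hT0 : ∀ m, S.par m = none → S.T m = S.R
  hT1 : ∀ m u c, S.par m = some (u, c) → S.T m = childT (S.T u) c u
  hWF : WF S L
  hPos : PosData S.x S.w L
  hL0 : ∀ m ∈ L, S.par m = none → S.leg m = S.l0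
  hL1 : ∀ m ∈ L, ∀ u c, S.par m = some (u, c) → S.leg m = childL (S.leg u) (S.x u) (S.w u) c

/-- Abbreviation for the semimetric of a system. -/
def Sys.d (S : Sys N) (l : List N) (u v : N) : ℝ := dF S.R S.l0 S.T S.x S.w l u v

/-- Abbreviation for the functional of a system. -/
def Sys.E (S : Sys N) (l : List N) (f : (N → Bool) → ℝ) : ℝ := EE S.R S.l0 S.T S.x S.w l f

/-- The pair values on the bag of `m`. -/
def InvBag (S : Sys N) (l : List N) (m : N) : Prop :=
  S.d l (S.T m 0) (S.T m 1) = S.leg m 0 + S.leg m 1 ∧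
  S.d l (S.T m 0) (S.T m 2) = S.leg m 0 + S.leg m 2 ∧
  S.d l (S.T m 1) (S.T m 2) = S.leg m 1 + S.leg m 2

lemma BagIn.mono {S : Sys N} {l l' : List N} {m : N} (h : BagIn S l m) (hs : ∀ v ∈ l, v ∈ l') :
    BagIn S l' m := by
  rcases h with h | ⟨u, c, h1, h2⟩
  · exact Or.inl h
  · exact Or.inr ⟨u, c, h1, hs u h2⟩

lemma WF_mem_bag {S : Sys N} {l : List N} (hW : WF S l) {z : N} (hz : z ∈ l) : BagIn S l z := by
  induction l with
  | nil => simp at hz
  | cons a l ih =>
    obtain ⟨_, _, h3, h4⟩ := hW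
    rcases List.mem_cons.1 hz with rfl | h
    · exact h3.mono (fun v hv => List.mem_cons_of_mem _ hv)
    · exact (ih h4 h).mono (fun v hv => List.mem_cons_of_mem _ hv)

lemma WF_nodup {S : Sys N} {l : List N} (hW : WF S l) : l.Nodup := by
  induction l with
  | nil => simp
  | cons a l ih =>
    obtain ⟨h1, _, _, h4⟩ := hW
    exact List.nodup_cons.2 ⟨h1, ih h4⟩

section

variable {S : Sys N} {L : List N}

lemma bag_mem (hT0 : ∀ m, S.par m = none → S.T m = S.R)
    (hT1 : ∀ m u c, S.par m = some (u, c) → S.T m = childT (S.T u) c u)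
    {l : List N} (hW : WF S l) {m : N} (hm : BagIn S l m) (i : Fin 3) :
    S.T m i ∈ l ∨ ∃ j, S.T m i = S.R j := by
  induction l generalizing m i with
  | nil =>
    rcases hm with h | ⟨u, c, _, h2⟩
    · right; exact ⟨i, by rw [hT0 m h]⟩
    · simp at h2
  | cons a l ih =>
    obtain ⟨_, _, h3, h4⟩ := hW
    rcases hm with h | ⟨u, c, h1, h2⟩
    · right; exact ⟨i, by rw [hT0 m h]⟩
    · have hu : BagIn S l u ∨ u = a := by
        rcases List.mem_cons.1 h2 with rfl | h
        · right; rfl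
        · left; exact WF_mem_bag h4 h
      have hU : ∀ j, S.T u j ∈ a :: l ∨ ∃ k, S.T u j = S.R k := by
        intro j
        have hb : BagIn S l u := by
          rcases hu with h | rfl
          · exact h
          · exact h3
        rcases ih h4 hb j with h5 | h5
        · left; exact List.mem_cons_of_mem _ h5
        · right; exact h5
      rw [hT1 m u c h1]
      rcases fin3_cases i with rfl | rfl | rfl
      · exact hU _
      · exact hU _
      · left; exact h2

lemma bag_ne (hT0 : ∀ m, S.par m = none → S.T m = S.R)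
    (hT1 : ∀ m u c, S.par m = some (u, c) → S.T m = childT (S.T u) c u)
    {z : N} {l : List N} (hW : WF S (z :: l)) {m : N} (hm : BagIn S l m) (i : Fin 3) :
    S.T m i ≠ z := by
  obtain ⟨h1, h2, _, h4⟩ := hW
  rcases bag_mem hT0 hT1 h4 hm i with h | ⟨j, h⟩
  · intro e; rw [e] at h; exact h1 h
  · rw [h]; exact h2 j

lemma bag_cases {z : N} {l : List N} {m : N} (hm : BagIn S (z :: l) m) :
    (∃ c, S.par m = some (z, c)) ∨ BagIn S l m := by
  rcases hm with h | ⟨u, c, h1, h2⟩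
  · right; exact Or.inl h
  · rcases List.mem_cons.1 h2 with rfl | h
    · left; exact ⟨c, h1⟩
    · right; exact Or.inr ⟨u, c, h1, h⟩

lemma d_cons_ne {z u v : N} {l : List N} (hu : u ≠ z) (hv : v ≠ z) :
    S.d (z :: l) u v = S.d l u v := dF_cons_ne hu hv

lemma d_comm (l : List N) (u v : N) : S.d l u v = S.d l v u := dF_comm l u v


lemma inv_root_all (hR : Injective S.R) {l : List N} (hW : WF S l) :
    S.d l (S.R 0) (S.R 1) = S.l0 0 + S.l0 1 ∧
    S.d l (S.R 0) (S.R 2) = S.l0 0 + S.l0 2 ∧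
    S.d l (S.R 1) (S.R 2) = S.l0 1 + S.l0 2 := by
  have h01 : S.R 1 ≠ S.R 0 := fun e => absurd (hR e) (by decide)
  have h02 : S.R 2 ≠ S.R 0 := fun e => absurd (hR e) (by decide)
  have h12 : S.R 2 ≠ S.R 1 := fun e => absurd (hR e) (by decide)
  induction l with
  | nil =>
    simp only [Sys.d, dF, EE, cutAt_self, cutAt_ne h01, cutAt_ne h02, cutAt_ne h12,
      cutAt_ne h01.symm, cutAt_ne h02.symm, cutAt_ne h12.symm]
    simp [FF]
  | cons z l ih =>
    obtain ⟨_, h2, _, h4⟩ := hW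
    obtain ⟨a, b, c⟩ := ih h4
    refine ⟨?_, ?_, ?_⟩
    · rw [d_cons_ne (h2 0) (h2 1)]; exact a
    · rw [d_cons_ne (h2 0) (h2 2)]; exact b
    · rw [d_cons_ne (h2 1) (h2 2)]; exact c

lemma inv_child (hT0 : ∀ m, S.par m = none → S.T m = S.R)
    (hT1 : ∀ m u c, S.par m = some (u, c) → S.T m = childT (S.T u) c u)
    {z : N} {l : List N} {m : N} {c : Fin 3} (hW : WF S (z :: l))
    (hpar : S.par m = some (z, c)) (hleg : S.leg m = childL (S.leg z) (S.x z) (S.w z) c)
    (hinv : InvBag S l z) : InvBag S (z :: l) m := by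
  have hB : ∀ i, S.T z i ≠ z := bag_ne hT0 hT1 hW hW.2.2.1
  obtain ⟨i01, i02, i12⟩ := hinv
  have D0 : S.d (z :: l) z (S.T z 0) = _ := dF_new0 hB i01 i02 i12
  have D1 : S.d (z :: l) z (S.T z 1) = _ := dF_new1 hB i01 i02 i12
  have D2 : S.d (z :: l) z (S.T z 2) = _ := dF_new2 hB i01 i02 i12
  have a01 : S.d (z :: l) (S.T z 0) (S.T z 1) = S.leg z 0 + S.leg z 1 := by
    rw [d_cons_ne (hB 0) (hB 1)]; exact i01
  have a02 : S.d (z :: l) (S.T z 0) (S.T z 2) = S.leg z 0 + S.leg z 2 := by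
    rw [d_cons_ne (hB 0) (hB 2)]; exact i02
  have a12 : S.d (z :: l) (S.T z 1) (S.T z 2) = S.leg z 1 + S.leg z 2 := by
    rw [d_cons_ne (hB 1) (hB 2)]; exact i12
  unfold InvBag
  rw [hT1 m z c hpar, hleg]
  rcases fin3_cases c with rfl | rfl | rfl
  · have e1 : ((0 : Fin 3) + 1) = 1 := rfl
    have e2 : ((0 : Fin 3) + 2) = 2 := rfl
    simp only [childT, childL, e1, e2, Matrix.cons_val_zero, Matrix.cons_val_one, Matrix.cons_val]
    refine ⟨?_, ?_, ?_⟩
    · rw [a12]; ring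
    · rw [d_comm, D1]; ring
    · rw [d_comm, D2]; ring
  · have e1 : ((1 : Fin 3) + 1) = 2 := rfl
    have e2 : ((1 : Fin 3) + 2) = 0 := rfl
    simp only [childT, childL, e1, e2, Matrix.cons_val_zero, Matrix.cons_val_one, Matrix.cons_val]
    refine ⟨?_, ?_, ?_⟩
    · rw [d_comm, a02]; ring
    · rw [d_comm, D2]; ring
    · rw [d_comm, D0]; ring
  · have e1 : ((2 : Fin 3) + 1) = 0 := rfl
    have e2 : ((2 : Fin 3) + 2) = 1 := rfl
    simp only [childT, childL, e1, e2, Matrix.cons_val_zero, Matrix.cons_val_one, Matrix.cons_val]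
    refine ⟨?_, ?_, ?_⟩
    · rw [a01]; ring
    · rw [d_comm, D0]; ring
    · rw [d_comm, D1]; ring

/-- The bag relation along all sublists. -/
lemma inv_all (H : S.OK L) {l : List N} (hl : ∀ v ∈ l, v ∈ L) (hW : WF S l) {m : N} (hm : m ∈ L)
    (hB : BagIn S l m) : InvBag S l m := by
  induction l generalizing m with
  | nil =>
    rcases hB with h | ⟨u, c, _, h2⟩
    · unfold InvBag
      rw [H.hT0 m h, H.hL0 m hm h]
      exact inv_root_all H.hR hW
    · simp at h2
  | cons z l ih =>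
    have hl' : ∀ v ∈ l, v ∈ L := fun v hv => hl v (List.mem_cons_of_mem _ hv)
    have hzL : z ∈ L := hl z (by simp)
    have hW' := hW.2.2.2
    rcases bag_cases hB with ⟨c, hc⟩ | h
    · exact inv_child H.hT0 H.hT1 hW hc (H.hL1 m hm z c hc) (ih hl' hW' hzL hW.2.2.1)
    · obtain ⟨i01, i02, i12⟩ := ih hl' hW' hm h
      have hb := bag_ne H.hT0 H.hT1 hW h
      refine ⟨?_, ?_, ?_⟩
      · rw [d_cons_ne (hb 0) (hb 1)]; exact i01
      · rw [d_cons_ne (hb 0) (hb 2)]; exact i02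
      · rw [d_cons_ne (hb 1) (hb 2)]; exact i12

/-- Distances from a node to its bag along all sublists containing it. -/
lemma new_all (H : S.OK L) {l : List N} (hl : ∀ v ∈ l, v ∈ L) (hW : WF S l) {z : N} (hz : z ∈ l) :
    S.d l z (S.T z 0) = S.w z + S.leg z 0 - S.x z 0 * S.leg z 0 + S.x z 1 * S.leg z 1 + S.x z 2 * S.leg z 2 ∧
    S.d l z (S.T z 1) = S.w z + S.leg z 1 + S.x z 0 * S.leg z 0 - S.x z 1 * S.leg z 1 + S.x z 2 * S.leg z 2 ∧
    S.d l z (S.T z 2) = S.w z + S.leg z 2 + S.x z 0 * S.leg z 0 + S.x z 1 * S.leg z 1 - S.x z 2 * S.leg z 2 := by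
  induction l with
  | nil => simp at hz
  | cons a l ih =>
    have hl' : ∀ v ∈ l, v ∈ L := fun v hv => hl v (List.mem_cons_of_mem _ hv)
    have hW' := hW.2.2.2
    rcases List.mem_cons.1 hz with rfl | h
    · have hB := bag_ne H.hT0 H.hT1 hW hW.2.2.1
      obtain ⟨i01, i02, i12⟩ := inv_all H hl' hW' (hl z (by simp)) hW.2.2.1
      exact ⟨dF_new0 hB i01 i02 i12, dF_new1 hB i01 i02 i12, dF_new2 hB i01 i02 i12⟩
    · obtain ⟨a0, a1, a2⟩ := ih hl' hW' h
      have hb := bag_ne H.hT0 H.hT1 hW (WF_mem_bag hW' h)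
      have hza : z ≠ a := fun e => hW.1 (e ▸ h)
      refine ⟨?_, ?_, ?_⟩
      · rw [d_cons_ne hza (hb 0)]; exact a0
      · rw [d_cons_ne hza (hb 1)]; exact a1
      · rw [d_cons_ne hza (hb 2)]; exact a2

end

end

end Vale.Agent.Lib.P235
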