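import Vale.Agent.Lib.P235.Markov3

namespace Vale.Agent.Lib.P235

noncomputable section

open Function

variable {N : Type} [DecidableEq N]

/-- The levels of a vertex `y`: for each ancestor bag a vector of means and an accumulated weight. -/
inductive Lvl (S : Sys N) (y : N) : N → (Fin 3 → ℝ) → ℝ → Prop
  | base : Lvl S y y (S.x y) (S.w y)
  | up {n : N} {p : Fin 3 → ℝ} {W : ℝ} {z : N} {c : Fin 3} :
      Lvl S y n p W → S.par n = some (z, c) → Lvl S y z (comp (S.x z) p c) (W + S.w z * p 2)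

/-- The potential of a level. -/
def Vv (S : Sys N) (n : N) (p : Fin 3 → ℝ) (W : ℝ) : ℝ :=
  W + (S.leg n 0 * (p 0 * (1 - p 0)) + S.leg n 1 * (p 1 * (1 - p 1)) + S.leg n 2 * (p 2 * (1 - p 2)))

/-- Two nodes whose bags lie in a common bag. -/
def CommonB (S : Sys N) (m n : N) : Prop :=
  (S.par m = none ∧ S.par n = none) ∨ ∃ z c c', S.par m = some (z, c) ∧ S.par n = some (z, c')

section

variable {S : Sys N} {L : List N}

lemma E_mono (H : S.OK L) {l : List N} (hl : ∀ v ∈ l, v ∈ L) {f g : (N → Bool) → ℝ}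
    (h : ∀ σ, f σ ≤ g σ) : S.E l f ≤ S.E l g :=
  EE_mono H.hl0 (fun z hz => H.hPos z (hl z hz)) h

/-- Stopping: the pair functional dominates the sum of the two potentials. -/
lemma stop_lemma (H : S.OK L) {l : List N} (hl : ∀ v ∈ l, v ∈ L) {m n : N} (p p' : Fin 3 → ℝ)
    (W W' : ℝ) (h1 : InvBag S l m) (h2 : InvBag S l n) :
    Vv S m p W + Vv S n p' W'
      ≤ S.E l (fun σ => FF (kform (S.T m) p σ) (kform (S.T n) p' σ)) + W + W' := by
  have h3 := E_mono H hl (f := fun σ => kform (S.T m) p σ * (1 - kform (S.T m) p σ)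
      + kform (S.T n) p' σ * (1 - kform (S.T n) p' σ))
    (g := fun σ => FF (kform (S.T m) p σ) (kform (S.T n) p' σ)) (fun σ => FF_ge _ _)
  unfold Sys.E at h3 ⊢
  rw [EE_add] at h3
  obtain ⟨a1, a2, a3⟩ := h1
  obtain ⟨b1, b2, b3⟩ := h2
  rw [EE_k_sq p a1 a2 a3, EE_k_sq p' b1 b2 b3] at h3
  unfold Vv
  linarith

/-- One step of elimination for the left level. -/
lemma elim_left (hT1 : ∀ m u c, S.par m = some (u, c) → S.T m = childT (S.T u) c u)
    {z m : N} {l : List N} {c : Fin 3} (hB : ∀ i, S.T z i ≠ z) (hpar : S.par m = some (z, c))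
    (p : Fin 3 → ℝ) {g : (N → Bool) → ℝ} (hg : Indep z g) (hg0 : g (cutAt z) = 0) :
    S.E (z :: l) (fun σ => FF (kform (S.T m) p σ) (g σ))
      = S.E l (fun σ => FF (kform (S.T z) (comp (S.x z) p c) σ) (g σ)) + S.w z * p 2 := by
  unfold Sys.E
  simp only [EE]
  rw [hT1 m z c hpar]
  have e : bindz (kform (S.T z) (S.x z)) z (fun σ => FF (kform (childT (S.T z) c z) p σ) (g σ))
      = fun σ => FF (kform (S.T z) (comp (S.x z) p c) σ) (g σ) := by
    funext σ
    rw [bindz_FF_left hg, bindz_kform _ hB]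
  rw [e, kform_child_cut hB, hg0]
  simp [FF]

lemma elim_right (hT1 : ∀ m u c, S.par m = some (u, c) → S.T m = childT (S.T u) c u)
    {z m : N} {l : List N} {c : Fin 3} (hB : ∀ i, S.T z i ≠ z) (hpar : S.par m = some (z, c))
    (p : Fin 3 → ℝ) {g : (N → Bool) → ℝ} (hg : Indep z g) (hg0 : g (cutAt z) = 0) :
    S.E (z :: l) (fun σ => FF (g σ) (kform (S.T m) p σ))
      = S.E l (fun σ => FF (g σ) (kform (S.T z) (comp (S.x z) p c) σ)) + S.w z * p 2 := by
  unfold Sys.E
  simp only [EE]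
  rw [hT1 m z c hpar]
  have e : bindz (kform (S.T z) (S.x z)) z (fun σ => FF (g σ) (kform (childT (S.T z) c z) p σ))
      = fun σ => FF (g σ) (kform (S.T z) (comp (S.x z) p c) σ) := by
    funext σ
    rw [bindz_FF_right hg, bindz_kform _ hB]
  rw [e, kform_child_cut hB, hg0]
  simp [FF]

lemma indep_FF {z : N} {f g : (N → Bool) → ℝ} (hf : Indep z f) (hg : Indep z g) :
    Indep z (fun σ => FF (f σ) (g σ)) := by
  intro σ b
  simp only [hf σ b, hg σ b]

/-- Elimination of a vertex on which neither factor depends. -/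
lemma elim_none {z : N} {l : List N} {f g : (N → Bool) → ℝ} (hf : Indep z f) (hg : Indep z g)
    (hf0 : f (cutAt z) = 0) (hg0 : g (cutAt z) = 0) :
    S.E (z :: l) (fun σ => FF (f σ) (g σ)) = S.E l (fun σ => FF (f σ) (g σ)) := by
  unfold Sys.E
  rw [EE_cons_indep (indep_FF hf hg)]
  simp [hf0, hg0, FF]

/-- The main elimination for a pair of levels. -/
theorem pair_lower (H : S.OK L) {a y : N} {l : List N} (hl : ∀ v ∈ l, v ∈ L) (hW : WF S l)
    {m n : N} {p p' : Fin 3 → ℝ} {W W' : ℝ} (hm : Lvl S a m p W) (hn : Lvl S y n p' W')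
    (hmL : m ∈ L) (hnL : n ∈ L) (hBm : BagIn S l m) (hBn : BagIn S l n) :
    ∃ m1 p1 W1 n1 p2 W2, Lvl S a m1 p1 W1 ∧ Lvl S y n1 p2 W2 ∧ m1 ∈ L ∧ n1 ∈ L ∧ CommonB S m1 n1 ∧
      Vv S m1 p1 W1 + Vv S n1 p2 W2
        ≤ S.E l (fun σ => FF (kform (S.T m) p σ) (kform (S.T n) p' σ)) + W + W' := by
  induction l generalizing m n p p' W W' with
  | nil =>
    rcases hBm with h1 | ⟨u, c, _, h⟩
    · rcases hBn with h2 | ⟨u, c, _, h⟩
      · exact ⟨m, p, W, n, p', W', hm, hn, hmL, hnL, Or.inl ⟨h1, h2⟩,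
          stop_lemma H hl p p' W W' (inv_all H hl hW hmL (Or.inl h1)) (inv_all H hl hW hnL (Or.inl h2))⟩
      · simp at h
    · simp at h
  | cons z l ih =>
    have hl' : ∀ v ∈ l, v ∈ L := fun v hv => hl v (List.mem_cons_of_mem _ hv)
    have hzL : z ∈ L := hl z (by simp)
    have hW' := hW.2.2.2
    have hBz := hW.2.2.1
    have hBB : ∀ i, S.T z i ≠ z := bag_ne H.hT0 H.hT1 hW hBz
    rcases bag_cases hBm with ⟨c, hc⟩ | hm'
    · rcases bag_cases hBn with ⟨c', hc'⟩ | hn'
      · -- common parent: stop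
        exact ⟨m, p, W, n, p', W', hm, hn, hmL, hnL, Or.inr ⟨z, c, c', hc, hc'⟩,
          stop_lemma H hl p p' W W' (inv_all H hl hW hmL hBm) (inv_all H hl hW hnL hBn)⟩
      · have hbn := bag_ne H.hT0 H.hT1 hW hn'
        have e := elim_left H.hT1 (l := l) hBB hc p (indep_kform hbn p') (kform_cut_ne hbn p')
        obtain ⟨m1, p1, W1, n1, p2, W2, a1, a2, a3, a4, a5, a6⟩ :=
          ih hl' hW' (Lvl.up hm hc) hn hzL hnL hBz hn'
        refine ⟨m1, p1, W1, n1, p2, W2, a1, a2, a3, a4, a5, ?_⟩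
        rw [e]
        linarith
    · have hbm := bag_ne H.hT0 H.hT1 hW hm'
      rcases bag_cases hBn with ⟨c', hc'⟩ | hn'
      · have e := elim_right H.hT1 (l := l) hBB hc' p' (indep_kform hbm p) (kform_cut_ne hbm p)
        obtain ⟨m1, p1, W1, n1, p2, W2, a1, a2, a3, a4, a5, a6⟩ :=
          ih hl' hW' hm (Lvl.up hn hc') hmL hzL hm' hBz
        refine ⟨m1, p1, W1, n1, p2, W2, a1, a2, a3, a4, a5, ?_⟩
        rw [e]
        linarith
      · have hbn := bag_ne H.hT0 H.hT1 hW hn'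
        have e := elim_none (S := S) (l := l) (indep_kform hbm p) (indep_kform hbn p')
          (kform_cut_ne hbm p) (kform_cut_ne hbn p')
        obtain ⟨m1, p1, W1, n1, p2, W2, a1, a2, a3, a4, a5, a6⟩ :=
          ih hl' hW' hm hn hmL hnL hm' hn'
        refine ⟨m1, p1, W1, n1, p2, W2, a1, a2, a3, a4, a5, ?_⟩
        rw [e]
        exact a6

/-- The pre-phase: the older vertex still appears as a bit. -/
theorem pre_phase (H : S.OK L) {a y : N} {l : List N} (hl : ∀ v ∈ l, v ∈ L) (hW : WF S l)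
    (ha : a ∈ l) {n : N} {p' : Fin 3 → ℝ} {W' : ℝ} (hn : Lvl S y n p' W') (hnL : n ∈ L)
    (hBn : BagIn S l n) :
    (∃ n1 p2 W2 i, Lvl S y n1 p2 W2 ∧ n1 ∈ L ∧ S.T n1 i = a ∧
        Vv S n1 p2 W2 ≤ S.E l (fun σ => FF (bit (σ a)) (kform (S.T n) p' σ)) + W') ∨
    (∃ m1 p1 W1 n1 p2 W2, Lvl S a m1 p1 W1 ∧ Lvl S y n1 p2 W2 ∧ m1 ∈ L ∧ n1 ∈ L ∧ CommonB S m1 n1 ∧
      Vv S m1 p1 W1 + Vv S n1 p2 W2
        ≤ S.E l (fun σ => FF (bit (σ a)) (kform (S.T n) p' σ)) + W') := by
  induction l generalizing n p' W' with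
  | nil => simp at ha
  | cons z l ih =>
    have hl' : ∀ v ∈ l, v ∈ L := fun v hv => hl v (List.mem_cons_of_mem _ hv)
    have hzL : z ∈ L := hl z (by simp)
    have hW' := hW.2.2.2
    have hBz := hW.2.2.1
    have hBB : ∀ i, S.T z i ≠ z := bag_ne H.hT0 H.hT1 hW hBz
    by_cases haz : a = z
    · subst haz
      rcases bag_cases hBn with ⟨c, hc⟩ | hn'
      · -- the bit lies in the bag: stop
        left
        refine ⟨n, p', W', 2, hn, hnL, ?_, ?_⟩
        · rw [H.hT1 n a c hc]; rfl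
        · have h3 := E_mono H hl (f := fun σ => kform (S.T n) p' σ * (1 - kform (S.T n) p' σ))
            (g := fun σ => FF (bit (σ a)) (kform (S.T n) p' σ)) (fun σ => FF_bit_ge _ _)
          obtain ⟨b1, b2, b3⟩ := inv_all H hl hW hnL hBn
          unfold Sys.E at h3 ⊢
          rw [EE_k_sq p' b1 b2 b3] at h3
          unfold Vv
          linarith
      · right
        have hbn := bag_ne H.hT0 H.hT1 hW hn'
        have e : S.E (a :: l) (fun σ => FF (bit (σ a)) (kform (S.T n) p' σ))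
            = S.E l (fun σ => FF (kform (S.T a) (S.x a) σ) (kform (S.T n) p' σ)) + S.w a := by
          unfold Sys.E
          simp only [EE]
          have e2 : bindz (kform (S.T a) (S.x a)) a (fun σ => FF (bit (σ a)) (kform (S.T n) p' σ))
              = fun σ => FF (kform (S.T a) (S.x a) σ) (kform (S.T n) p' σ) := by
            funext σ
            rw [bindz_FF_left (indep_kform hbn p')]
            congr 1
            unfold bindz
            simp
          rw [e2, cutAt_self, kform_cut_ne hbn]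
          simp [FF]
        obtain ⟨m1, p1, W1, n1, p2, W2, a1, a2, a3, a4, a5, a6⟩ :=
          pair_lower H hl' hW' (Lvl.base (S := S) (y := a)) hn hzL hnL hBz hn'
        refine ⟨m1, p1, W1, n1, p2, W2, a1, a2, a3, a4, a5, ?_⟩
        rw [e]
        linarith
    · have ha' : a ∈ l := by
        rcases List.mem_cons.1 ha with h | h
        · exact absurd h haz
        · exact h
      have hind : Indep z (fun σ => bit (σ a)) := by
        intro σ b
        simp only [update_of_ne haz]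
      have hcut : bit (cutAt z a) = 0 := by
        rw [cutAt_ne haz]; rfl
      rcases bag_cases hBn with ⟨c, hc⟩ | hn'
      · have e := elim_right H.hT1 (l := l) (g := fun σ => bit (σ a)) hBB hc p' hind hcut
        rcases ih hl' hW' ha' (Lvl.up hn hc) hzL hBz with
          ⟨n1, p2, W2, i, a1, a2, a3, a4⟩ | ⟨m1, p1, W1, n1, p2, W2, a1, a2, a3, a4, a5, a6⟩
        · left
          refine ⟨n1, p2, W2, i, a1, a2, a3, ?_⟩
          rw [e]; linarith
        · right
          refine ⟨m1, p1, W1, n1, p2, W2, a1, a2, a3, a4, a5, ?_⟩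
          rw [e]; linarith
      · have hbn := bag_ne H.hT0 H.hT1 hW hn'
        have e := elim_none (S := S) (l := l) hind (indep_kform hbn p') hcut (kform_cut_ne hbn p')
        rcases ih hl' hW' ha' hn hnL hn' with
          ⟨n1, p2, W2, i, a1, a2, a3, a4⟩ | ⟨m1, p1, W1, n1, p2, W2, a1, a2, a3, a4, a5, a6⟩
        · left
          refine ⟨n1, p2, W2, i, a1, a2, a3, ?_⟩
          rw [e]; exact a4
        · right
          refine ⟨m1, p1, W1, n1, p2, W2, a1, a2, a3, a4, a5, ?_⟩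
          rw [e]; exact a6

end

end

end Vale.Agent.Lib.P235
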