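import Vale.Agent.Lib.P235.Markov4
import Vale.Agent.Lib.P235.Kernel

namespace Vale.Agent.Lib.P235

noncomputable section

open Function

variable {N : Type} [DecidableEq N]

section

variable {S : Sys N} {L : List N}

lemma d_drop (pre l : List N) {u v : N} (hu : u ∉ pre) (hv : v ∉ pre) :
    S.d (pre ++ l) u v = S.d l u v := by
  induction pre with
  | nil => rfl
  | cons h pre ih =>
    have hu1 : u ≠ h := fun e => hu (by simp [e])
    have hv1 : v ≠ h := fun e => hv (by simp [e])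
    have hu2 : u ∉ pre := fun e => hu (by simp [e])
    have hv2 : v ∉ pre := fun e => hv (by simp [e])
    rw [List.cons_append, d_cons_ne hu1 hv1, ih hu2 hv2]

lemma WF_suffix {pre l : List N} (h : WF S (pre ++ l)) : WF S l := by
  induction pre with
  | nil => exact h
  | cons a pre ih => exact ih h.2.2.2

lemma list_order (hN : L.Nodup) {a y : N} (ha : a ∈ L) (hy : y ∈ L) (hne : a ≠ y) :
    (∃ pre l, L = pre ++ y :: l ∧ a ∈ l) ∨ (∃ pre l, L = pre ++ a :: l ∧ y ∈ l) := by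
  induction L with
  | nil => simp at ha
  | cons h t ih =>
    rcases List.mem_cons.1 ha with rfl | ha'
    · right
      rcases List.mem_cons.1 hy with h1 | h1
      · exact absurd h1.symm hne
      · exact ⟨[], t, rfl, h1⟩
    · rcases List.mem_cons.1 hy with rfl | hy'
      · left; exact ⟨[], t, rfl, ha'⟩
      · rcases ih (List.nodup_cons.1 hN).2 ha' hy' with ⟨pre, l, e, h2⟩ | ⟨pre, l, e, h2⟩
        · left; exact ⟨h :: pre, l, by rw [e]; rfl, h2⟩
        · right; exact ⟨h :: pre, l, by rw [e]; rfl, h2⟩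

/-- The starting value of the pair functional. -/
lemma pair_start {a y : N} {l : List N} (hay : a ≠ y) :
    S.d (y :: l) a y = S.E l (fun σ => FF (bit (σ a)) (kform (S.T y) (S.x y) σ)) + S.w y := by
  unfold Sys.d Sys.E dF
  simp only [EE]
  have hind : Indep y (fun σ => bit (σ a)) := by
    intro σ b
    simp only [update_of_ne hay]
  have e2 : bindz (kform (S.T y) (S.x y)) y (fun σ => FF (bit (σ a)) (bit (σ y)))
      = fun σ => FF (bit (σ a)) (kform (S.T y) (S.x y) σ) := by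
    funext σ
    rw [bindz_FF_right hind]
    congr 1
    unfold bindz
    simp
  rw [e2, cutAt_self, cutAt_ne hay]
  simp [FF]

/-- The pair analysis: a common bag or a bag containing the older vertex. -/
theorem pair_main (H : S.OK L) {a y : N} (haL : a ∈ L) (hyL : y ∈ L) (hne : a ≠ y) :
    ∃ a' y' : N, ((a' = a ∧ y' = y) ∨ (a' = y ∧ y' = a)) ∧
    ((∃ n1 p2 W2 i, Lvl S y' n1 p2 W2 ∧ n1 ∈ L ∧ S.T n1 i = a' ∧ Vv S n1 p2 W2 ≤ S.d L a y) ∨
     (∃ m1 p1 W1 n1 p2 W2, Lvl S a' m1 p1 W1 ∧ Lvl S y' n1 p2 W2 ∧ m1 ∈ L ∧ n1 ∈ L ∧ CommonB S m1 n1 ∧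
        Vv S m1 p1 W1 + Vv S n1 p2 W2 ≤ S.d L a y)) := by
  have key : ∀ {a y : N}, a ≠ y → ∀ pre l, L = pre ++ y :: l → a ∈ l →
      ((∃ n1 p2 W2 i, Lvl S y n1 p2 W2 ∧ n1 ∈ L ∧ S.T n1 i = a ∧ Vv S n1 p2 W2 ≤ S.d L a y) ∨
       (∃ m1 p1 W1 n1 p2 W2, Lvl S a m1 p1 W1 ∧ Lvl S y n1 p2 W2 ∧ m1 ∈ L ∧ n1 ∈ L ∧ CommonB S m1 n1 ∧
          Vv S m1 p1 W1 + Vv S n1 p2 W2 ≤ S.d L a y)) := by
    intro a y hne pre l hL hal
    have hN : L.Nodup := WF_nodup H.hWF
    have hW1 : WF S (y :: l) := by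
      have := H.hWF
      rw [hL] at this
      exact WF_suffix this
    have hyL' : y ∈ L := by rw [hL]; simp
    have hsub : ∀ v ∈ l, v ∈ L := by
      intro v hv; rw [hL]; simp [hv]
    have hN2 : (pre ++ y :: l).Nodup := by rw [← hL]; exact hN
    have hdisj := (List.nodup_append.1 hN2).2.2
    have hypre : y ∉ pre := fun h => hdisj y h y (by simp) rfl
    have hapre : a ∉ pre := fun h => hdisj a h a (by simp [hal]) rfl
    have hd : S.d L a y = S.d (y :: l) a y := by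
      rw [hL]; exact d_drop pre _ hapre hypre
    rw [hd, pair_start hne]
    exact pre_phase H hsub hW1.2.2.2 hal Lvl.base hyL' hW1.2.2.1
  have hN : L.Nodup := WF_nodup H.hWF
  rcases list_order hN haL hyL hne with ⟨pre, l, e, h⟩ | ⟨pre, l, e, h⟩
  · exact ⟨a, y, Or.inl ⟨rfl, rfl⟩, key hne pre l e h⟩
  · refine ⟨y, a, Or.inr ⟨rfl, rfl⟩, ?_⟩
    rw [d_comm L a y]
    exact key hne.symm pre l e h

end

end

end Vale.Agent.Lib.P235
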