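import Vale.Agent.Lib.P235.Step4

namespace Vale.Agent.Lib.P235

noncomputable section

lemma noise_swap {la lb lc xa xb xc w : ℝ} (h : Noise la lb lc xa xb xc w) :
    Noise lb la lc xb xa xc w := by
  obtain ⟨Du, lu, hslot, hn⟩ := h
  refine ⟨Du, lu, ?_, ?_⟩
  · rcases hslot with ⟨h1, h2⟩ | ⟨h1, h2⟩ | ⟨h1, h2⟩
    · right; left; exact ⟨by rw [h1]; ring, h2⟩
    · left; exact ⟨by rw [h1]; ring, h2⟩
    · right; right; exact ⟨by rw [h1]; ring, h2⟩
  · have e : max 0 (1 - xb - xa) = max 0 (1 - xa - xb) := by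
      rw [show 1 - xb - xa = 1 - xa - xb by ring]
    rw [e]
    linarith

/-- Noise in the case `xa + xb ≥ 1` (no slot needed). -/
lemma noise_big {la lb lc xa xb xc w : ℝ}
    (hla : 0 ≤ la) (hlb : 0 ≤ lb) (hlc : 0 ≤ lc)
    (hxa0 : 0 ≤ xa) (hxa1 : xa ≤ 1) (hxb0 : 0 ≤ xb) (hxb1 : xb ≤ 1) (hxc0 : 0 ≤ xc)
    (hw : 0 ≤ w) (hexc : Exc xa xb xc) (hX : 1 ≤ xa + xb) :
    Noise la lb lc xa xb xc w := by
  have hsa : 0 ≤ xa * la := mul_nonneg hxa0 hla
  have hsb : 0 ≤ xb * lb := mul_nonneg hxb0 hlb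
  have hsc : 0 ≤ xc * lc := mul_nonneg hxc0 hlc
  have hv1 : 0 ≤ xa * la * (1 - xa) := mul_nonneg hsa (by linarith)
  have hv2 : 0 ≤ xb * lb * (1 - xb) := mul_nonneg hsb (by linarith)
  -- cross terms
  have h1 : xa * (xb * lb) ≤ (96 / 95) * (xb * lb * (1 - xb)) ∧
      xb * (xa * la) ≤ (96 / 95) * (xa * la * (1 - xa)) := by
    rcases hexc with h | ⟨h0, h1, h2⟩ | ⟨h0, h1, h2⟩ | ⟨h0, h1, h2⟩
    · have e1 : xa ≤ 1 - xb := by linarith
      have e2 : xb ≤ 1 - xa := by linarith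
      have h3 := mul_le_mul_of_nonneg_left e1 hsb
      have h4 := mul_le_mul_of_nonneg_left e2 hsa
      constructor <;> nlinarith
    · subst h0
      have e : xb = 1 := by linarith
      subst e
      constructor <;> norm_num
    · subst h0
      have e : xa = 1 := by linarith
      subst e
      constructor <;> norm_num
    · subst h0
      have e1 : xa ≤ (96 / 95) * (1 - xb) := by linarith
      have e2 : xb ≤ (96 / 95) * (1 - xa) := by linarith
      have h3 := mul_le_mul_of_nonneg_left e1 hsb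
      have h4 := mul_le_mul_of_nonneg_left e2 hsa
      constructor <;> nlinarith
  obtain ⟨h2, h3⟩ := h1
  refine ⟨w + la - xa * la + xb * lb + xc * lc, la, Or.inl ⟨rfl, rfl⟩, ?_⟩
  rw [max_eq_left (by linarith)]
  have hh : 0 ≤ w + xc * lc := by linarith
  have h4 : (xa + xb) * (w + xc * lc) ≤ 2 * (w + xc * lc) :=
    mul_le_mul_of_nonneg_right (by linarith) hh
  have e : xa * (w + la - xa * la + xb * lb + xc * lc) + xb * (w + lb + xa * la - xb * lb + xc * lc)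
      = (xa + xb) * (w + xc * lc) + (xa * la * (1 - xa) + xb * lb * (1 - xb))
        + xa * (xb * lb) + xb * (xa * la) := by ring
  rw [e]
  linarith

/-- Facts for the noise estimate with slot `c`. -/
lemma noise_c_facts {la lb lc xa xb xc : ℝ}
    (hla : 0 ≤ la) (hlb : 0 ≤ lb) (hlc : 0 ≤ lc)
    (hxa0 : 0 ≤ xa) (hxa1 : xa ≤ 1) (hxb0 : 0 ≤ xb) (hxb1 : xb ≤ 1) (hxc0 : 0 ≤ xc) (hxc1 : xc ≤ 1)
    (hexc : Exc xa xb xc) (hX : xa + xb < 1) (hS : 1 ≤ xa + xb + xc) :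
    xc * (xa * la) ≤ (96 / 95) * (xa * la * (1 - xa)) ∧
    xc * (xb * lb) ≤ (96 / 95) * (xb * lb * (1 - xb)) ∧
    (xa + xb + xc - 1) * (xa * la + xb * lb + xc * lc)
      ≤ (1 / 95) * (xa * la * (1 - xa) + xb * lb * (1 - xb) + xc * lc * (1 - xc)) := by
  have hsa : 0 ≤ xa * la := mul_nonneg hxa0 hla
  have hsb : 0 ≤ xb * lb := mul_nonneg hxb0 hlb
  have hsc : 0 ≤ xc * lc := mul_nonneg hxc0 hlc
  have hv1 : 0 ≤ xa * la * (1 - xa) := mul_nonneg hsa (by linarith)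
  have hv2 : 0 ≤ xb * lb * (1 - xb) := mul_nonneg hsb (by linarith)
  have hv3 : 0 ≤ xc * lc * (1 - xc) := mul_nonneg hsc (by linarith)
  by_cases he : xa + xb + xc ≤ 1
  · have e1 : xc ≤ 1 - xa := by linarith
    have e2 : xc ≤ 1 - xb := by linarith
    have h3 := mul_le_mul_of_nonneg_left e1 hsa
    have h4 := mul_le_mul_of_nonneg_left e2 hsb
    have e0 : xa + xb + xc - 1 = 0 := by linarith
    rw [e0]
    refine ⟨by nlinarith, by nlinarith, by nlinarith⟩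
  · have he' := not_le.1 he
    rcases hexc with h | ⟨h0, h1, h2⟩ | ⟨h0, h1, h2⟩ | ⟨h0, h1, h2⟩
    · exact absurd h he
    · subst h0
      have e2 : xc ≤ (96 / 95) * (1 - xb) := by linarith
      have h4 := mul_le_mul_of_nonneg_left e2 hsb
      have h5 : (0 + xb + xc - 1) * (xb * lb) ≤ (1 / 95) * (xb * lb * (1 - xb)) := by
        have := mul_le_mul_of_nonneg_left (by linarith : 95 * (0 + xb + xc - 1) ≤ 1 - xb) hsb
        linarith
      have h6 : (0 + xb + xc - 1) * (xc * lc) ≤ (1 / 95) * (xc * lc * (1 - xc)) := by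
        have := mul_le_mul_of_nonneg_left (by linarith : 95 * (0 + xb + xc - 1) ≤ 1 - xc) hsc
        linarith
      refine ⟨by simp, by linarith, by nlinarith⟩
    · subst h0
      have e2 : xc ≤ (96 / 95) * (1 - xa) := by linarith
      have h4 := mul_le_mul_of_nonneg_left e2 hsa
      have h5 : (xa + 0 + xc - 1) * (xa * la) ≤ (1 / 95) * (xa * la * (1 - xa)) := by
        have := mul_le_mul_of_nonneg_left (by linarith : 95 * (xa + 0 + xc - 1) ≤ 1 - xa) hsa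
        linarith
      have h6 : (xa + 0 + xc - 1) * (xc * lc) ≤ (1 / 95) * (xc * lc * (1 - xc)) := by
        have := mul_le_mul_of_nonneg_left (by linarith : 95 * (xa + 0 + xc - 1) ≤ 1 - xc) hsc
        linarith
      refine ⟨by linarith, by simp, by nlinarith⟩
    · subst h0
      linarith

/-- Noise with slot `c` when `lc` is comparable with `la`, `lb`. -/
lemma noise_slot_c {la lb lc xa xb xc w : ℝ}
    (hla : 0 ≤ la) (hlb : 0 ≤ lb) (hlc : 0 ≤ lc)
    (hxa0 : 0 ≤ xa) (hxa1 : xa ≤ 1) (hxb0 : 0 ≤ xb) (hxb1 : xb ≤ 1) (hxc0 : 0 ≤ xc) (hxc1 : xc ≤ 1)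
    (hw : 0 ≤ w) (hexc : Exc xa xb xc) (hX : xa + xb < 1) (hS : 1 ≤ xa + xb + xc)
    (h1 : lc ≤ 2 * la) (h2 : lc ≤ 2 * lb) :
    Noise la lb lc xa xb xc w := by
  obtain ⟨f1, f2, f3⟩ := noise_c_facts hla hlb hlc hxa0 hxa1 hxb0 hxb1 hxc0 hxc1 hexc hX hS
  have hsa : 0 ≤ xa * la := mul_nonneg hxa0 hla
  have hsb : 0 ≤ xb * lb := mul_nonneg hxb0 hlb
  have hsc : 0 ≤ xc * lc := mul_nonneg hxc0 hlc
  have hsa1 : xa * la ≤ la := mul_le_of_le_one_left hla hxa1
  have hsb1 : xb * lb ≤ lb := mul_le_of_le_one_left hlb hxb1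
  have hsc1 : xc * lc ≤ lc := mul_le_of_le_one_left hlc hxc1
  have hv1 : 0 ≤ xa * la * (1 - xa) := mul_nonneg hsa (by linarith)
  have hv2 : 0 ≤ xb * lb * (1 - xb) := mul_nonneg hsb (by linarith)
  have hv3 : 0 ≤ xc * lc * (1 - xc) := mul_nonneg hsc (by linarith)
  refine ⟨w + lc + xa * la + xb * lb - xc * lc, lc, Or.inr (Or.inr ⟨rfl, rfl⟩), ?_⟩
  rw [max_eq_right (by linarith)]
  have hτ : 0 ≤ 1 - xa - xb := by linarith
  have hτx : 1 - xa - xb ≤ xc := by linarith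
  have hDc : 0 ≤ w + lc + xa * la + xb * lb - xc * lc := by linarith
  -- replace tau by xc
  have h3 : (1 - xa - xb) * ((1 / 4) * (w + lc + xa * la + xb * lb - xc * lc) + lc)
      ≤ xc * ((1 / 4) * (w + lc + xa * la + xb * lb - xc * lc) + lc) :=
    mul_le_mul_of_nonneg_right hτx (by linarith)
  -- the bound on s_c (1 - x_c)
  have h4 : xc * lc * (1 - xc) ≤ 3 * (xa * la * (1 - xa) + xb * lb * (1 - xb)) := by
    have h5 : 1 - xc ≤ xa + xb := by linarith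
    have h6 : xc * lc * (1 - xc) ≤ xc * lc * (xa + xb) := mul_le_mul_of_nonneg_left h5 hsc
    have h7 : xc * lc * xa ≤ xc * (2 * la) * xa :=
      mul_le_mul_of_nonneg_right (mul_le_mul_of_nonneg_left h1 hxc0) hxa0
    have h8 : xc * lc * xb ≤ xc * (2 * lb) * xb :=
      mul_le_mul_of_nonneg_right (mul_le_mul_of_nonneg_left h2 hxc0) hxb0
    nlinarith
  -- the sum identity
  have e : xa * (w + la - xa * la + xb * lb + xc * lc)
        + xb * (w + lb + xa * la - xb * lb + xc * lc)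
        + xc * (w + lc + xa * la + xb * lb - xc * lc)
      = (xa + xb + xc) * w + (xa + xb + xc - 1) * (xa * la + xb * lb + xc * lc)
        + 2 * (xa * la * (1 - xa) + xb * lb * (1 - xb) + xc * lc * (1 - xc)) := by ring
  have hSx : xa + xb + xc ≤ 2 := by
    rcases hexc with h | ⟨h0, h1, h2⟩ | ⟨h0, h1, h2⟩ | ⟨h0, h1, h2⟩ <;> linarith
  have h9 : (xa + xb + xc) * w ≤ 2 * w := mul_le_mul_of_nonneg_right hSx hw
  have e' : xc * ((1 / 4) * (w + lc + xa * la + xb * lb - xc * lc) + lc)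
      = (1 / 4) * (xc * (w + lc + xa * la + xb * lb - xc * lc)) + xc * lc := by ring
  rw [e'] at h3
  linarith

/-- Noise with slot `a` when `lc` dominates `la`. -/
lemma noise_slot_a {la lb lc xa xb xc w : ℝ}
    (hla : 0 ≤ la) (hlb : 0 ≤ lb) (hlc : 0 ≤ lc)
    (hxa0 : 0 ≤ xa) (hxa1 : xa ≤ 1) (hxb0 : 0 ≤ xb) (hxb1 : xb ≤ 1) (hxc0 : 0 ≤ xc)
    (hw : 0 ≤ w) (hX : xa + xb < 1) (hS : 1 ≤ xa + xb + xc)
    (h1 : 2 * la ≤ lc) :
    Noise la lb lc xa xb xc w := by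
  have hsa : 0 ≤ xa * la := mul_nonneg hxa0 hla
  have hsb : 0 ≤ xb * lb := mul_nonneg hxb0 hlb
  have hsc : 0 ≤ xc * lc := mul_nonneg hxc0 hlc
  have hsa1 : xa * la ≤ la := mul_le_of_le_one_left hla hxa1
  have hsb1 : xb * lb ≤ lb := mul_le_of_le_one_left hlb hxb1
  have hv1 : 0 ≤ xa * la * (1 - xa) := mul_nonneg hsa (by linarith)
  have hv2 : 0 ≤ xb * lb * (1 - xb) := mul_nonneg hsb (by linarith)
  refine ⟨w + la - xa * la + xb * lb + xc * lc, la, Or.inl ⟨rfl, rfl⟩, ?_⟩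
  rw [max_eq_right (by linarith)]
  have hτ : 0 ≤ 1 - xa - xb := by linarith
  have hτx : 1 - xa - xb ≤ xc := by linarith
  set τ := 1 - xa - xb with hτdef
  set h := w + xc * lc with hh
  have hh0 : 0 ≤ h := by rw [hh]; linarith
  -- τ la ≤ h / 2
  have h2 : τ * la ≤ h / 2 := by
    have h3 := mul_le_mul_of_nonneg_right hτx hla
    have h4 := mul_le_mul_of_nonneg_left h1 hxc0
    rw [hh]
    nlinarith
  have h5 := xl_le_2V2 hla hlb hxa0 hxb0 hX.le
  -- τ sb ≤ V2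
  have h6 : τ * (xb * lb) ≤ xb * lb * (1 - xb) := by
    have := mul_le_mul_of_nonneg_right (by linarith : τ ≤ 1 - xb) hsb
    linarith
  have e : xa * (w + la - xa * la + xb * lb + xc * lc) + xb * (w + lb + xa * la - xb * lb + xc * lc)
      = (xa + xb) * h + (xa * (la - xa * la + xb * lb) + xb * (lb - xb * lb + xa * la)) := by
    rw [hh]; ring
  have e2 : (w + la - xa * la + xb * lb + xc * lc) = h + (la - xa * la + xb * lb) := by
    rw [hh]; ring
  rw [e, e2]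
  have e3 : τ * ((1 / 4) * (h + (la - xa * la + xb * lb)) + la)
      = (1 / 4) * (τ * h) + (1 / 4) * (τ * la) - (1 / 4) * (τ * (xa * la)) + (1 / 4) * (τ * (xb * lb)) + τ * la := by
    ring
  rw [e3]
  have h7 : 0 ≤ τ * (xa * la) := mul_nonneg hτ hsa
  have e4 : (xa + xb) * h = h - τ * h := by rw [hτdef]; ring
  rw [e4]
  have h8 : 0 ≤ τ * h := mul_nonneg hτ hh0
  linarith

/-- The general noise lemma when the flips sum to at least one. -/
theorem noise_general {la lb lc xa xb xc w : ℝ}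
    (hla : 0 ≤ la) (hlb : 0 ≤ lb) (hlc : 0 ≤ lc)
    (hxa0 : 0 ≤ xa) (hxa1 : xa ≤ 1) (hxb0 : 0 ≤ xb) (hxb1 : xb ≤ 1) (hxc0 : 0 ≤ xc) (hxc1 : xc ≤ 1)
    (hw : 0 ≤ w) (hexc : Exc xa xb xc) (hS : 1 ≤ xa + xb + xc) :
    Noise la lb lc xa xb xc w := by
  rcases le_or_gt 1 (xa + xb) with hX | hX
  · exact noise_big hla hlb hlc hxa0 hxa1 hxb0 hxb1 hxc0 hw hexc hX
  · rcases le_total (2 * la) lc with h1 | h1
    · exact noise_slot_a hla hlb hlc hxa0 hxa1 hxb0 hxb1 hxc0 hw hX hS h1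
    · rcases le_total (2 * lb) lc with h2 | h2
      · exact noise_swap (noise_slot_a hlb hla hlc hxb0 hxb1 hxa0 hxa1 hxc0 hw (by linarith) (by linarith) h2)
      · exact noise_slot_c hla hlb hlc hxa0 hxa1 hxb0 hxb1 hxc0 hxc1 hw hexc hX hS h1 h2

/-- Noise in mode B: no new cut, flips sum below one. -/
theorem noise_modeB {la lb lc xa xb xc Du lu : ℝ}
    (hla : 0 ≤ la) (hlb : 0 ≤ lb)
    (hxa0 : 0 ≤ xa) (hxa1 : xa ≤ 1) (hxb0 : 0 ≤ xb) (hxb1 : xb ≤ 1) (hsc : 0 ≤ xc * lc)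
    (hX : xa + xb ≤ 1)
    (hslot : (Du = 0 + la - xa * la + xb * lb + xc * lc ∧ lu = la) ∨
     (Du = 0 + lb + xa * la - xb * lb + xc * lc ∧ lu = lb) ∨
     (Du = 0 + lc + xa * la + xb * lb - xc * lc ∧ lu = lc))
    (hN : (1 / 4) * Du + lu - xc * lc ≤ 128 * (xa * la + xb * lb)) :
    Noise la lb lc xa xb xc 0 := by
  have hsa : 0 ≤ xa * la := mul_nonneg hxa0 hla
  have hsb : 0 ≤ xb * lb := mul_nonneg hxb0 hlb
  refine ⟨Du, lu, hslot, ?_⟩
  rw [max_eq_right (by linarith)]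
  have hτ : 0 ≤ 1 - xa - xb := by linarith
  have h5 := xl_le_2V2 hla hlb hxa0 hxb0 hX
  have h1 := mul_le_mul_of_nonneg_left hN hτ
  have h2 : (1 - xa - xb) * (xa * la) ≤ xa * la * (1 - xa) := by
    have := mul_le_mul_of_nonneg_right (by linarith : 1 - xa - xb ≤ 1 - xa) hsa
    linarith
  have h3 : (1 - xa - xb) * (xb * lb) ≤ xb * lb * (1 - xb) := by
    have := mul_le_mul_of_nonneg_right (by linarith : 1 - xa - xb ≤ 1 - xb) hsb
    linarith
  have e : xa * (0 + la - xa * la + xb * lb + xc * lc) + xb * (0 + lb + xa * la - xb * lb + xc * lc)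
      = (xa + xb) * (xc * lc) + (xa * (la - xa * la + xb * lb) + xb * (lb - xb * lb + xa * la)) := by
    ring
  rw [e]
  have h6 : (xa + xb) * (xc * lc) ≤ 1 * (xc * lc) := mul_le_mul_of_nonneg_right hX hsc
  have h7 : 0 ≤ (xa + xb) * (xc * lc) := mul_nonneg (by linarith) hsc
  nlinarith

end

end Vale.Agent.Lib.P235
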