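import Vale.Agent.Lib.P235.Rule

namespace Vale.Agent.Lib.P235

noncomputable section

/-- From the clause: the slack is large against a common lower bound of the legs. -/
lemma clause_big {lt lv lu E m : ℝ} (hlt : 0 < lt) (hlv : 0 < lv) (hlu : 0 < lu)
    (hm1 : m ≤ lt) (hm2 : m ≤ lv) (hm3 : m ≤ lu)
    (hE : 14 * (lt * lv * lu) ≤ E * (lt * lv + lv * lu + lt * lu)) : 14 * m ≤ 3 * E := by
  have hP : 0 < lt * lv * lu := by positivity
  have hS : 0 < lt * lv + lv * lu + lt * lu := by positivity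
  have hE0 : 0 < E := by
    by_contra hcon
    have h : E ≤ 0 := not_lt.1 hcon
    have h2 : E * (lt * lv + lv * lu + lt * lu) ≤ 0 := mul_nonpos_of_nonpos_of_nonneg h hS.le
    linarith
  have h1 : m * (lt * lv) ≤ lu * (lt * lv) := mul_le_mul_of_nonneg_right hm3 (by positivity)
  have h2 : m * (lv * lu) ≤ lt * (lv * lu) := mul_le_mul_of_nonneg_right hm1 (by positivity)
  have h3 : m * (lt * lu) ≤ lv * (lt * lu) := mul_le_mul_of_nonneg_right hm2 (by positivity)
  have h4 : m * (lt * lv + lv * lu + lt * lu) ≤ 3 * (lt * lv * lu) := by nlinarith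
  have h5 : m * (14 * (lt * lv * lu)) ≤ m * (E * (lt * lv + lv * lu + lt * lu)) ∨ m ≤ 0 := by
    rcases le_or_gt m 0 with h | h
    · right; exact h
    · left; exact mul_le_mul_of_nonneg_left hE h.le
  rcases h5 with h5 | h5
  · have h6 := mul_le_mul_of_nonneg_left h4 hE0.le
    have h7 : (14 * m) * (lt * lv * lu) ≤ (3 * E) * (lt * lv * lu) := by nlinarith
    exact le_of_mul_le_mul_right h7 hP
  · nlinarith

lemma y_ge_of_A {A l g σ : ℝ} (h : 2 * σ ≤ A / 15) : 2 * σ ≤ yval A l g σ := by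
  have h1 := yval_ge_min A l g σ
  rw [min_eq_right h] at h1
  exact h1

/-- Some vertex has a large target in the positive-legs case. -/
lemma y_fact {lt lv lu g Q σ At Av Au E : ℝ} (hlt : 0 < lt) (hlv : 0 < lv) (hlu : 0 < lu) (hg0 : 0 ≤ g)
    (hQ1 : Q ≤ (5 / 4) * lt - g / 4) (hQ2 : Q ≤ (5 / 4) * lv + g / 4) (hQ3 : Q ≤ (5 / 4) * lu + g / 4)
    (hσ0 : 0 ≤ σ) (hσ1 : 0 < σ → σ = (Q - g) / 64)
    (hE : 14 * (lt * lv * lu) ≤ E * (lt * lv + lv * lu + lt * lu))
    (hE2 : E ≤ At + Av ∨ E ≤ At + Au ∨ E ≤ Av + Au + 2 * g) :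
    2 * σ ≤ yval At lt g σ ∨ 2 * σ ≤ yval Av lv g σ ∨ 2 * σ ≤ yval Au lu g σ := by
  rcases eq_or_lt_of_le hσ0 with h0 | h0
  · left
    have := yval_nonneg At lt g σ
    linarith
  · have hδ := hσ1 h0
    have hQg : Q = g + 64 * σ := by linarith
    set m := min lt (min lv lu) with hm
    have hm1 : m ≤ lt := min_le_left _ _
    have hm2 : m ≤ lv := le_trans (min_le_right _ _) (min_le_left _ _)
    have hm3 : m ≤ lu := le_trans (min_le_right _ _) (min_le_right _ _)
    have hbig := clause_big hlt hlv hlu hm1 hm2 hm3 hE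
    have hδm : (4 / 5) * (64 * σ) ≤ m := by
      apply le_min (by linarith) (le_min (by linarith) (by linarith))
    have hgm : (3 / 5) * g ≤ m := by
      apply le_min (by linarith) (le_min (by linarith) (by linarith))
    rcases hE2 with h | h | h
    · rcases le_total At Av with h3 | h3
      · right; left; apply y_ge_of_A; linarith
      · left; apply y_ge_of_A; linarith
    · rcases le_total At Au with h3 | h3
      · right; right; apply y_ge_of_A; linarith
      · left; apply y_ge_of_A; linarith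
    · rcases le_total Av Au with h3 | h3
      · right; right; apply y_ge_of_A; linarith
      · right; left; apply y_ge_of_A; linarith

/-- The numerical inequalities for the mode B noise. -/
lemma modeB_ineq {g σ yt yv yu N : ℝ} (hg : 0 ≤ g) (hyt : 0 ≤ yt) (hyv : 0 ≤ yv) (hyu : 0 ≤ yu)
    (hσ : 0 ≤ σ)
    (hN : N ≤ g + 64 * σ + yt / 4 ∨ N ≤ g + 64 * σ + yv / 4 ∨ N ≤ g + 64 * σ + yu / 4)
    (hY : 2 * σ ≤ yt ∨ 2 * σ ≤ yv ∨ 2 * σ ≤ yu) :
    N - (g + (yv + yu) / 2) ≤ 128 * (yt + (yv + yu) / 2) ∧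
    N - (yu + yt) / 2 ≤ 128 * (g + yv + (yt + yu) / 2) ∧
    N - (yv + yt) / 2 ≤ 128 * (g + yu + (yt + yv) / 2) := by
  rcases hN with h | h | h <;> rcases hY with h2 | h2 | h2 <;>
    refine ⟨by linarith, by linarith, by linarith⟩

/-- Noise for a role in mode B from the slot value `N`. -/
lemma modeB_role {lt lv lu xt xv xu N Dt Dv Du : ℝ} (hlt : 0 ≤ lt) (hlv : 0 ≤ lv)
    (hxt0 : 0 ≤ xt) (hxt1 : xt ≤ 1) (hxv0 : 0 ≤ xv) (hxv1 : xv ≤ 1) (hsu : 0 ≤ xu * lu)
    (hX : xt + xv ≤ 1)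
    (hDt : Dt = 0 + lt - xt * lt + xv * lv + xu * lu)
    (hDv : Dv = 0 + lv + xt * lt - xv * lv + xu * lu)
    (hDu : Du = 0 + lu + xt * lt + xv * lv - xu * lu)
    (hslot : N = (1 / 4) * Dt + lt ∨ N = (1 / 4) * Dv + lv ∨ N = (1 / 4) * Du + lu)
    (hN : N - xu * lu ≤ 128 * (xt * lt + xv * lv)) :
    Noise lt lv lu xt xv xu 0 := by
  rcases hslot with h | h | h
  · exact noise_modeB (Du := Dt) (lu := lt) hlt hlv hxt0 hxt1 hxv0 hxv1 hsu hX
      (Or.inl ⟨hDt, rfl⟩) (by linarith)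
  · exact noise_modeB (Du := Dv) (lu := lv) hlt hlv hxt0 hxt1 hxv0 hxv1 hsu hX
      (Or.inr (Or.inl ⟨hDv, rfl⟩)) (by linarith)
  · exact noise_modeB (Du := Du) (lu := lu) hlt hlv hxt0 hxt1 hxv0 hxv1 hsu hX
      (Or.inr (Or.inr ⟨hDu, rfl⟩)) (by linarith)

/-- Simple clause for a child. -/
lemma child_clause_simple {La Lb h ya yb Sa Sb : ℝ} (hLa : 0 ≤ La) (hLb : 0 ≤ Lb)
    (hh : h = (ya + yb) / 2) (hya : 0 ≤ ya) (hyb : 0 ≤ yb) (hSa : 14 * ya ≤ Sa) (hSb : 14 * yb ≤ Sb) :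
    14 * (La * Lb * h) ≤ Sa * (La * Lb + Lb * h + La * h) ∨
    14 * (La * Lb * h) ≤ Sb * (La * Lb + Lb * h + La * h) := by
  have hh0 : 0 ≤ h := by rw [hh]; linarith
  rcases le_total ya yb with h1 | h1
  · right; exact harm_simple_c hLa hLb hh0 (by rw [hh]; linarith)
  · left; exact harm_simple_c hLa hLb hh0 (by rw [hh]; linarith)

/-- Child state from the basic inequalities and a clause. -/
lemma GoodSt_child {La Lb h dab ra rb la lb : ℝ} (hLa : 0 ≤ La) (hLb : 0 ≤ Lb) (hh : 0 ≤ h)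
    (hsum : La + Lb = la + lb) (h1 : la + lb ≤ dab) (h2 : dab ≤ 1000000 * (la + lb))
    (h3 : La + h ≤ ra) (h4 : ra ≤ 1000000 * (La + h)) (h5 : Lb + h ≤ rb) (h6 : rb ≤ 1000000 * (Lb + h))
    (cl : 14 * (La * Lb * h) ≤ (dab - La - Lb) * (La * Lb + Lb * h + La * h) ∨
      14 * (La * Lb * h) ≤ (ra - La - h) * (La * Lb + Lb * h + La * h) ∨
      14 * (La * Lb * h) ≤ (rb - Lb - h) * (La * Lb + Lb * h + La * h)) :
    GoodSt La Lb h dab ra rb :=
  ⟨hLa, hLb, hh, by linarith, by linarith, h3, h4, h5, h6, cl⟩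

/-- The clause for the child retiring the special vertex when `g > 0`. -/
lemma clause_special {lt lv lu g Q σ Av Au yv' yu' E evu : ℝ}
    (hlt : 0 ≤ lt) (hlv : 0 ≤ lv) (hlu : 0 ≤ lu) (hg : 0 < g) (hgt : g ≤ lt)
    (hQ1 : Q ≤ (5 / 4) * lt - g / 4) (hQ2 : Q ≤ (5 / 4) * lv + g / 4) (hQ3 : Q ≤ (5 / 4) * lu + g / 4)
    (hσ0 : 0 ≤ σ) (hσ1 : 0 < σ → σ = (Q - g) / 64)
    (hAv : 0 ≤ Av) (hAu : 0 ≤ Au)
    (hyv0 : 0 ≤ yv') (hyv : yv' ≤ yval Av lv g σ) (hyu0 : 0 ≤ yu') (hyu : yu' ≤ yval Au lu g σ)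
    (hE0 : 0 ≤ E) (hE : 14 * (lt * lv * lu) ≤ E * (lt * lv + lv * lu + lt * lu))
    (hE2 : E ≤ Av ∨ E ≤ Au ∨ E ≤ evu)
    (hL1 : 0 ≤ lv + (yv' - yu') / 2) (hL2 : 0 ≤ lu + (yu' - yv') / 2) :
    14 * ((lv + (yv' - yu') / 2) * (lu + (yu' - yv') / 2) * (g + (yv' + yu') / 2))
        ≤ evu * ((lv + (yv' - yu') / 2) * (lu + (yu' - yv') / 2)
          + (lu + (yu' - yv') / 2) * (g + (yv' + yu') / 2)
          + (lv + (yv' - yu') / 2) * (g + (yv' + yu') / 2)) ∨
    14 * ((lv + (yv' - yu') / 2) * (lu + (yu' - yv') / 2) * (g + (yv' + yu') / 2))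
        ≤ (Av - yv') * ((lv + (yv' - yu') / 2) * (lu + (yu' - yv') / 2)
          + (lu + (yu' - yv') / 2) * (g + (yv' + yu') / 2)
          + (lv + (yv' - yu') / 2) * (g + (yv' + yu') / 2)) ∨
    14 * ((lv + (yv' - yu') / 2) * (lu + (yu' - yv') / 2) * (g + (yv' + yu') / 2))
        ≤ (Au - yu') * ((lv + (yv' - yu') / 2) * (lu + (yu' - yv') / 2)
          + (lu + (yu' - yv') / 2) * (g + (yv' + yu') / 2)
          + (lv + (yv' - yu') / 2) * (g + (yv' + yu') / 2)) := by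
  have hh0 : 0 ≤ g + (yv' + yu') / 2 := by linarith
  have hl1 := yval_le (A := Av) (l := lv) (g := g) (σ := σ) hAv (by linarith)
  have hl2 := yval_le (A := Au) (l := lu) (g := g) (σ := σ) hAu (by linarith)
  generalize hAd : lv + (yv' - yu') / 2 = A at *
  generalize hBd : lu + (yu' - yv') / 2 = B at *
  generalize hhd : g + (yv' + yu') / 2 = h at *
  have hS2 : 0 ≤ A * B + B * h + A * h := by positivity
  rcases yval_branch (A := Av) (l := lv) (g := g) hAv hσ0 with bv | bv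
  · -- the slack at `v` dominates the leg `A`
    right; left
    apply harm_simple_a hL1 hL2 hh0
    rw [bv] at hyv
    rw [bv] at hl1
    have : A ≤ lv + yv' / 2 := by rw [← hAd]; linarith
    linarith
  rcases yval_branch (A := Au) (l := lu) (g := g) hAu hσ0 with bu | bu
  · right; right
    have h1 := harm_simple_a (A := B) (B := A) (h := h) (S := Au - yu') hL2 hL1 hh0 (by
      rw [bu] at hyu
      rw [bu] at hl2
      have : B ≤ lu + yu' / 2 := by rw [← hBd]; linarith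
      linarith)
    calc 14 * (A * B * h) = 14 * (B * A * h) := by ring
      _ ≤ (Au - yu') * (B * A + A * h + B * h) := h1
      _ = (Au - yu') * (A * B + B * h + A * h) := by ring
  -- both small
  have hyv2 : yv' ≤ 2 * σ := le_trans hyv bv
  have hyu2 : yu' ≤ 2 * σ := le_trans hyu bu
  have key : 14 * (A * B * h) ≤ (E - 2 * σ) * (A * B + B * h + A * h) := by
    rcases eq_or_lt_of_le hσ0 with h0 | h0
    · -- σ = 0
      have hv0 : yv' = 0 := by linarith
      have hu0 : yu' = 0 := by linarith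
      rw [hv0, hu0] at hAd hBd hhd
      have e1 : A = lv := by rw [← hAd]; ring
      have e2 : B = lu := by rw [← hBd]; ring
      have e3 : h = g := by rw [← hhd]; ring
      rw [e1, e2, e3, ← h0]
      have := harm_mono hlt hlv hlu hg.le hgt hE hE0
      linarith
    · have hδ := hσ1 h0
      have hc := harmonic_core (lt := lt) (lv := lv) (lu := lu) (g := g) (δ := 64 * σ)
        (yv := yv') (yu := yu') (E := E) hg (by positivity) (by linarith) (by linarith) (by linarith)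
        hyv0 (by linarith) hyu0 (by linarith) hE
      rw [hAd, hBd, hhd] at hc
      have e : E - 64 * σ / 32 = E - 2 * σ := by ring
      rw [e] at hc
      exact hc
  rcases hE2 with h1 | h1 | h1
  · right; left
    have h2 : E - 2 * σ ≤ Av - yv' := by linarith
    exact le_trans key (mul_le_mul_of_nonneg_right h2 hS2)
  · right; right
    have h2 : E - 2 * σ ≤ Au - yu' := by linarith
    exact le_trans key (mul_le_mul_of_nonneg_right h2 hS2)
  · left
    have h2 : E - 2 * σ ≤ evu := by linarith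
    exact le_trans key (mul_le_mul_of_nonneg_right h2 hS2)

end

end Vale.Agent.Lib.P235
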