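import Vale.Agent.Lib.P235.Ord1

namespace Vale.Agent.Lib.P235

noncomputable section

/-- Exc from the two alternatives after the caps. -/
lemma ord_excess {lt lv lu rt rv ru g yt yv cv cu : ℝ}
    (hg0 : 0 ≤ g) (hlu' : True)
    (hg : (g = 0) ∨ (0 < g ∧ rt - lt = -g)) (hrt : 0 ≤ rt)
    (tri2 : ru ≤ rt + 1000000 * (lu + lt)) (tri3 : ru ≤ rv + 1000000 * (lu + lv))
    (hyt0 : 0 ≤ yt) (hyv0 : 0 ≤ yv)
    (hyt0' : 0 < g → yt = 0)
    (hpre_t : rt ≤ 15 * (lt + (-g + yt))) (hpre_v : rv ≤ 15 * (lv + (g + yv)))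
    (o1 : -g + yt ≤ cv) (o2 : cv ≤ cu)
    (hF : 1 < (cu - (-g + yt)) / 2 / lt + (cu - cv) / 2 / lv)
    (hcaps : 0 < lt ∧ 0 < lv ∧ cv = g + yv ∧ cu ≤ ru / 1000000 - lu) :
    (cu - (-g + yt)) / 2 / lt + (cu - cv) / 2 / lv - 1 ≤ (cu - (-g + yt)) / 2 / lt / 96 ∧
    (cu - (-g + yt)) / 2 / lt + (cu - cv) / 2 / lv - 1 ≤ (cu - cv) / 2 / lv / 96 := by
  obtain ⟨hlt, hlv, hcv, hcu⟩ := hcaps
  have e1 : (cu - (-g + yt)) / 2 / lt * lt = (cu - (-g + yt)) / 2 := div_mul_cancel₀ _ hlt.ne'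
  have e2 : (cu - cv) / 2 / lv * lv = (cu - cv) / 2 := div_mul_cancel₀ _ hlv.ne'
  have hPv := low_cap_bound (P := cu) (l := lv) (h := g + yv) (r := rv) (u := ru / 1000000 - lu)
    hlv.le hcu (by linarith) hpre_v (by rw [← hcv]; exact o2)
  rcases hg with h0 | ⟨h0, h1⟩
  · subst h0
    have hPt := low_cap_bound (P := cu) (l := lt) (h := 0 + yt) (r := rt) (u := ru / 1000000 - lu)
      hlt.le hcu (by linarith) (by linarith) (by linarith)
    exact excess_plain hlt hlv (by linarith) (by linarith) hPt hPv e1 e2 hF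
  · have hyt := hyt0' h0
    subst hyt
    have e3 : cu - (-g + 0) = cu + g := by ring
    rw [e3] at e1 hF ⊢
    rw [hcv] at e2 hF ⊢
    exact excess_special (hv := g + yv) (E := rt) hlt hlv h0 hrt (by linarith) (by linarith)
      (by rw [← hcv]; exact o2) (by linarith) hPv (by rw [e1]) e2 hF

/-- Noise in all roles when the flips are in mode B. -/
lemma ord_noise_B {lt lv lu xt xv xu ct cv cu g yt yv yu N : ℝ}
    (hlt : 0 ≤ lt) (hlv : 0 ≤ lv) (hlu : 0 ≤ lu)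
    (hxt0 : 0 ≤ xt) (hxt1 : xt ≤ 1) (hxv0 : 0 ≤ xv) (hxv1 : xv ≤ 1) (hxu0 : 0 ≤ xu) (hxu1 : xu ≤ 1)
    (hS : xt + xv + xu < 1)
    (hct : ct = -g + yt) (hcv : cv = g + yv) (hcu : cu = g + yu)
    (hst : xt * lt = (cu + cv) / 2) (hsv : xv * lv = (cu + ct) / 2) (hsu : xu * lu = (cv + ct) / 2)
    (hDt : 0 + lt - xt * lt + xv * lv + xu * lu = lt + ct)
    (hDv : 0 + lv + xt * lt - xv * lv + xu * lu = lv + cv)
    (hDu : 0 + lu + xt * lt + xv * lv - xu * lu = lu + cu)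
    (hslot : N = (1 / 4) * (lt + ct) + lt ∨ N = (1 / 4) * (lv + cv) + lv ∨ N = (1 / 4) * (lu + cu) + lu)
    (h1 : N - (g + (yv + yu) / 2) ≤ 128 * (yt + (yv + yu) / 2))
    (h2 : N - (yu + yt) / 2 ≤ 128 * (g + yv + (yt + yu) / 2))
    (h3 : N - (yv + yt) / 2 ≤ 128 * (g + yu + (yt + yv) / 2)) :
    Noise lv lu lt xv xu xt 0 ∧ Noise lu lt lv xu xt xv 0 ∧ Noise lt lv lu xt xv xu 0 := by
  have hst0 : 0 ≤ xt * lt := mul_nonneg hxt0 hlt
  have hsv0 : 0 ≤ xv * lv := mul_nonneg hxv0 hlv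
  have hsu0 : 0 ≤ xu * lu := mul_nonneg hxu0 hlu
  refine ⟨?_, ?_, ?_⟩
  · refine modeB_role (Dt := lv + cv) (Dv := lu + cu) (Du := lt + ct) (N := N) hlv hlu hxv0 hxv1 hxu0 hxu1
      hst0 (by linarith) (by linarith) (by linarith) (by linarith) ?_ ?_
    · rcases hslot with h | h | h
      · right; right; exact h
      · left; exact h
      · right; left; exact h
    · rw [hst, hsv, hsu, hct, hcv, hcu]; linarith
  · refine modeB_role (Dt := lu + cu) (Dv := lt + ct) (Du := lv + cv) (N := N) hlu hlt hxu0 hxu1 hxt0 hxt1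
      hsv0 (by linarith) (by linarith) (by linarith) (by linarith) ?_ ?_
    · rcases hslot with h | h | h
      · right; left; exact h
      · right; right; exact h
      · left; exact h
    · rw [hst, hsv, hsu, hct, hcv, hcu]; linarith
  · refine modeB_role (Dt := lt + ct) (Dv := lv + cv) (Du := lu + cu) (N := N) hlt hlv hxt0 hxt1 hxv0 hxv1
      hsu0 (by linarith) (by linarith) (by linarith) (by linarith) hslot ?_
    rw [hst, hsv, hsu, hct, hcv, hcu]; linarith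

/-- Child retiring a vertex with the simple clause. -/
lemma ord_good_simple {la lb xa xb xc lc w ca cb ya yb dab ra rb : ℝ}
    (hla : 0 ≤ la) (hlb : 0 ≤ lb) (hlc : 0 ≤ lc)
    (hxa0 : 0 ≤ xa) (hxa1 : xa ≤ 1) (hxb0 : 0 ≤ xb) (hxb1 : xb ≤ 1) (hxc0 : 0 ≤ xc) (hw : 0 ≤ w)
    (hDa : w + la - xa * la + xb * lb + xc * lc = la + ca)
    (hDb : w + lb + xa * la - xb * lb + xc * lc = lb + cb)
    (h1 : la + lb ≤ dab) (h2 : dab ≤ 1000000 * (la + lb))
    (hEa : la + ca ≤ ra) (hBa : ra ≤ 1000000 * (la + ca))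
    (hEb : lb + cb ≤ rb) (hBb : rb ≤ 1000000 * (lb + cb))
    (hsum : ca + cb = ya + yb) (hya : 0 ≤ ya) (hyb : 0 ≤ yb)
    (hSa : 14 * ya ≤ ra - la - ca) (hSb : 14 * yb ≤ rb - lb - cb) :
    GoodSt (la - xa * la + xb * lb) (lb - xb * lb + xa * la) (w + xc * lc) dab ra rb := by
  have hsa : 0 ≤ xa * la := mul_nonneg hxa0 hla
  have hsb : 0 ≤ xb * lb := mul_nonneg hxb0 hlb
  have hsc : 0 ≤ xc * lc := mul_nonneg hxc0 hlc
  have hsa1 : xa * la ≤ la := mul_le_of_le_one_left hla hxa1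
  have hsb1 : xb * lb ≤ lb := mul_le_of_le_one_left hlb hxb1
  have hLa : 0 ≤ la - xa * la + xb * lb := by linarith
  have hLb : 0 ≤ lb - xb * lb + xa * la := by linarith
  have hh0 : 0 ≤ w + xc * lc := by linarith
  have hcl := child_clause_simple (h := w + xc * lc) (ya := ya) (yb := yb)
    (Sa := ra - (la - xa * la + xb * lb) - (w + xc * lc))
    (Sb := rb - (lb - xb * lb + xa * la) - (w + xc * lc)) hLa hLb (by linarith) hya hyb
    (by linarith) (by linarith)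
  apply GoodSt_child hLa hLb hh0 (by ring : _ = la + lb) h1 h2 (by linarith) (by linarith)
    (by linarith) (by linarith)
  rcases hcl with h | h
  · right; left; exact h
  · right; right; exact h

/-- Child retiring the special vertex. -/
lemma ord_good_special {lt lv lu xv xu xt w g Q σ rv ru dvu Av Au zv zu E cv cu : ℝ}
    (hlt : 0 ≤ lt) (hlv : 0 ≤ lv) (hlu : 0 ≤ lu)
    (hxv0 : 0 ≤ xv) (hxv1 : xv ≤ 1) (hxu0 : 0 ≤ xu) (hxu1 : xu ≤ 1) (hxt0 : 0 ≤ xt) (hw : 0 ≤ w)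
    (hDa : w + lv - xv * lv + xu * lu + xt * lt = lv + cv)
    (hDb : w + lu + xv * lv - xu * lu + xt * lt = lu + cu)
    (h1 : lv + lu ≤ dvu) (h2 : dvu ≤ 1000000 * (lv + lu))
    (hEa : lv + cv ≤ rv) (hBa : rv ≤ 1000000 * (lv + cv))
    (hEb : lu + cu ≤ ru) (hBb : ru ≤ 1000000 * (lu + cu))
    (hg : 0 < g) (hgt : g ≤ lt) (hcv : cv = g + zv) (hcu : cu = g + zu)
    (hAv : Av = rv - lv - g) (hAu : Au = ru - lu - g)
    (hQ1 : Q ≤ (5 / 4) * lt - g / 4) (hQ2 : Q ≤ (5 / 4) * lv + g / 4) (hQ3 : Q ≤ (5 / 4) * lu + g / 4)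
    (hσ0 : 0 ≤ σ) (hσ1 : 0 < σ → σ = (Q - g) / 64)
    (hAv0 : 0 ≤ Av) (hAu0 : 0 ≤ Au)
    (hzv0 : 0 ≤ zv) (hzv : zv ≤ yval Av lv g σ) (hzu0 : 0 ≤ zu) (hzu : zu ≤ yval Au lu g σ)
    (hE0 : 0 ≤ E) (hE : 14 * (lt * lv * lu) ≤ E * (lt * lv + lv * lu + lt * lu))
    (hE2 : E ≤ Av ∨ E ≤ Au ∨ E ≤ dvu - lv - lu) :
    GoodSt (lv - xv * lv + xu * lu) (lu - xu * lu + xv * lv) (w + xt * lt) dvu rv ru := by
  have hsa : 0 ≤ xv * lv := mul_nonneg hxv0 hlv
  have hsb : 0 ≤ xu * lu := mul_nonneg hxu0 hlu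
  have hsc : 0 ≤ xt * lt := mul_nonneg hxt0 hlt
  have hsa1 : xv * lv ≤ lv := mul_le_of_le_one_left hlv hxv1
  have hsb1 : xu * lu ≤ lu := mul_le_of_le_one_left hlu hxu1
  have hLa : 0 ≤ lv - xv * lv + xu * lu := by linarith
  have hLb : 0 ≤ lu - xu * lu + xv * lv := by linarith
  have hh0 : 0 ≤ w + xt * lt := by linarith
  have eLa : lv - xv * lv + xu * lu = lv + (zv - zu) / 2 := by linarith
  have eLb : lu - xu * lu + xv * lv = lu + (zu - zv) / 2 := by linarith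
  have eh : w + xt * lt = g + (zv + zu) / 2 := by linarith
  have hcl := clause_special (evu := dvu - (lv + (zv - zu) / 2) - (lu + (zu - zv) / 2)) hlt hlv hlu hg hgt hQ1 hQ2 hQ3 hσ0 hσ1 hAv0 hAu0 hzv0 hzv hzu0 hzu hE0 hE
    (by
      rcases hE2 with h | h | h
      · left; exact h
      · right; left; exact h
      · right; right; linarith)
    (by rw [← eLa]; exact hLa) (by rw [← eLb]; exact hLb)
  apply GoodSt_child hLa hLb hh0 (by ring : _ = lv + lu) h1 h2 (by linarith) (by linarith)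
    (by linarith) (by linarith)
  rw [eLa, eLb, eh]
  rcases hcl with h | h | h
  · left; exact h
  · right; left
    have e : rv - (lv + (zv - zu) / 2) - (g + (zv + zu) / 2) = Av - zv := by rw [hAv]; ring
    rw [e]; exact h
  · right; right
    have e : ru - (lu + (zu - zv) / 2) - (g + (zv + zu) / 2) = Au - zu := by rw [hAu]; ring
    rw [e]; exact h

end

end Vale.Agent.Lib.P235
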