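import Vale.Agent.Lib.P235.Ord2

namespace Vale.Agent.Lib.P235

noncomputable section

/-- Core of the ordered kernel: all target properties are assumed. -/
theorem ord_core {lt lv lu rt rv ru dtv dtu dvu g Q σ yt yv yu : ℝ}
    (G : GoodSt lt lv lu dtv dtu dvu) (T : TriR rt rv ru dtv dtu dvu)
    (hg0 : 0 ≤ g) (hgt : g ≤ lt)
    (hg : g = 0 ∨ (0 < g ∧ rt - lt = -g))
    (hQ1 : Q ≤ (5 / 4) * lt - g / 4) (hQ2 : Q ≤ (5 / 4) * lv + g / 4) (hQ3 : Q ≤ (5 / 4) * lu + g / 4)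
    (hQ4 : Q = (5 / 4) * lt - g / 4 ∨ Q = (5 / 4) * lv + g / 4 ∨ Q = (5 / 4) * lu + g / 4)
    (hσ0 : 0 ≤ σ) (hσ1 : 0 < σ → σ = (Q - g) / 64) (hσ2 : Q - g ≤ 64 * σ)
    (hAt : 0 ≤ rt - lt + g) (hAv : 0 ≤ rv - lv - g) (hAu : 0 ≤ ru - lu - g)
    (hyt0 : 0 ≤ yt) (hyt1 : 15 * yt ≤ rt - lt + g) (hyt2 : rt ≤ 15 * (lt + (-g + yt)))
    (hyt3 : 0 < g → yt = 0)
    (hyv0 : 0 ≤ yv) (hyv1 : 15 * yv ≤ rv - lv - g) (hyv2 : rv ≤ 15 * (lv + (g + yv)))
    (hyv3 : yv = yval (rv - lv - g) lv g σ)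
    (hyu0 : 0 ≤ yu) (hyu1 : 15 * yu ≤ ru - lu - g) (hyu2 : ru ≤ 15 * (lu + (g + yu)))
    (hyu3 : yu = yval (ru - lu - g) lu g σ)
    (hY : 0 < lt → 0 < lv → 0 < lu → 2 * σ ≤ yt ∨ 2 * σ ≤ yv ∨ 2 * σ ≤ yu)
    (o1 : -g + yt ≤ g + yv) (o2 : yv ≤ yu) :
    ∃ xt xv xu w : ℝ, KOK lt lv lu rt rv ru dtv dtu dvu xt xv xu w := by
  have hlt := G.h0
  have hlv := G.h1
  have hlu := G.h2
  have hrt := T.h0
  have tri1 : rv ≤ rt + 1000000 * (lv + lt) := by linarith [T.b01, G.b01]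
  have tri2 : ru ≤ rt + 1000000 * (lu + lt) := by linarith [T.b02, G.b02]
  have tri3 : ru ≤ rv + 1000000 * (lu + lv) := by linarith [T.b12, G.b12]
  have hrv := T.h1
  have hru := T.h2
  have pre_t : rt ≤ 1000000 * (lt + (-g + yt)) := by linarith
  have pre_v : rv ≤ 1000000 * (lv + (g + yv)) := by linarith
  have pre_u : ru ≤ 1000000 * (lu + (g + yu)) := by linarith
  obtain ⟨cv, cu, hcv1, hcu1, hcv2, hcvu, hcut, hcuv, hcvdef, hBv, hBu, hU, hL⟩ :=
    caps_core (lu := lu) (hu := g + yu) hlt hlv tri1 tri2 tri3 o1 (by linarith) pre_t pre_v pre_u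
  have hcvg : g ≤ cv := by
    rcases min_choice (g + yv) (-g + yt + 2 * lt) with h | h
    · rw [← hcvdef, h]; linarith
    · rw [← hcvdef, h]; linarith
  have hsum0 : 0 ≤ (-g + yt) + cv := by linarith
  obtain ⟨xt, xv, xu, w, hFO, halt⟩ := flip_exists hlt hlv hlu hcv2 hcvu hsum0 hcut hcuv
  obtain ⟨hxt0, hxt1, hxv0, hxv1, hxu0, hxu1, hw, hDt, hDv, hDu⟩ := hFO
  -- the excess condition and the noise
  have hmain : Exc xt xv xu ∧ Noise lv lu lt xv xu xt w ∧ Noise lu lt lv xu xt xv w ∧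
      Noise lt lv lu xt xv xu w := by
    rcases halt with ⟨hS, hS2⟩ | ⟨hw0, hS, hlt', hlv', hlu', hF, hst, hsv, hsu⟩
    · have hexc : Exc xt xv xu := by
        rcases hS2 with h | ⟨h0, h1, h2, h3⟩
        · left; exact h
        · have hcaps := hL h3
          obtain ⟨e1, e2⟩ := ord_excess hg0 trivial hg hrt tri2 tri3 hyt0 hyv0 hyt3 hyt2 hyv2 hcv2 hcvu
            h3 hcaps
          rw [← h1, ← h2] at e1 e2
          right; right; right
          exact ⟨h0, e1, e2⟩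
      refine ⟨hexc, ?_, ?_, ?_⟩
      · exact noise_general hlv hlu hlt hxv0 hxv1 hxu0 hxu1 hxt0 hxt1 hw hexc.cyc (by linarith)
      · exact noise_general hlu hlt hlv hxu0 hxu1 hxt0 hxt1 hxv0 hxv1 hw hexc.cyc.cyc (by linarith)
      · exact noise_general hlt hlv hlu hxt0 hxt1 hxv0 hxv1 hxu0 hxu1 hw hexc hS
    · subst hw0
      obtain ⟨hcve, hcue⟩ := hU hlt' hlv' hF
      subst hcve
      subst hcue
      have hexc : Exc xt xv xu := Or.inl hS.le
      have hY' := hY hlt' hlv' hlu'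
      obtain ⟨N, hN1, hN2⟩ : ∃ N : ℝ, (N = (1 / 4) * (lt + (-g + yt)) + lt ∨
          N = (1 / 4) * (lv + (g + yv)) + lv ∨ N = (1 / 4) * (lu + (g + yu)) + lu) ∧
          (N ≤ g + 64 * σ + yt / 4 ∨ N ≤ g + 64 * σ + yv / 4 ∨ N ≤ g + 64 * σ + yu / 4) := by
        rcases hQ4 with h | h | h
        · exact ⟨_, Or.inl rfl, Or.inl (by linarith)⟩
        · exact ⟨_, Or.inr (Or.inl rfl), Or.inr (Or.inl (by linarith))⟩
        · exact ⟨_, Or.inr (Or.inr rfl), Or.inr (Or.inr (by linarith))⟩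
      obtain ⟨h1, h2, h3⟩ := modeB_ineq hg0 hyt0 hyv0 hyu0 hσ0 hN2 hY'
      obtain ⟨n1, n2, n3⟩ := ord_noise_B (N := N) (g := g) (yt := yt) (yv := yv) (yu := yu) hlt hlv hlu
        hxt0 hxt1 hxv0 hxv1 hxu0 hxu1 hS rfl rfl rfl hst hsv hsu hDt hDv hDu hN1 h1 h2 h3
      exact ⟨hexc, n1, n2, n3⟩
  obtain ⟨hexc, hN0, hN1, hN2⟩ := hmain
  -- (E) bounds
  have hEt : lt + (-g + yt) ≤ rt := by linarith
  have hEv : lv + cv ≤ rv := by linarith
  have hEu : lu + cu ≤ ru := by linarith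
  refine ⟨xt, xv, xu, w, hxt0, hxt1, hxv0, hxv1, hxu0, hxu1, hw, by linarith, by linarith, by linarith,
    by linarith, by linarith, by linarith, hexc, hN0, hN1, hN2, ?_, ?_, ?_⟩
  · -- retire t
    rcases hg with h0 | ⟨h0, h1⟩
    · exact ord_good_simple (ya := cv - g) (yb := cu - g) hlv hlu hlt hxv0 hxv1 hxu0 hxu1 hxt0 hw
        (ca := cv) (cb := cu) (by linarith) (by linarith) G.a12 G.b12 hEv hBv hEu hBu
        (by rw [h0]; ring) (by linarith) (by linarith) (by linarith) (by linarith)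
    · have hyt := hyt3 h0
      have hg0' : 0 ≤ rt - lt + g := hAt
      rcases G.clause with c | c | c
      · exact ord_good_special (g := g) (Q := Q) (σ := σ) (Av := rv - lv - g) (Au := ru - lu - g)
          (zv := cv - g) (zu := cu - g) (E := dtv - lt - lv) (cv := cv) (cu := cu) hlt hlv hlu
          hxv0 hxv1 hxu0 hxu1 hxt0 hw (by linarith) (by linarith) G.a12 G.b12 hEv hBv hEu hBu h0 hgt
          (by ring) (by ring) rfl rfl hQ1 hQ2 hQ3 hσ0 hσ1 hAv hAu (by linarith) (by rw [← hyv3]; linarith)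
          (by linarith) (by rw [← hyu3]; linarith) (by linarith [G.a01]) c
          (Or.inl (by linarith [T.c01]))
      · exact ord_good_special (g := g) (Q := Q) (σ := σ) (Av := rv - lv - g) (Au := ru - lu - g)
          (zv := cv - g) (zu := cu - g) (E := dtu - lt - lu) (cv := cv) (cu := cu) hlt hlv hlu
          hxv0 hxv1 hxu0 hxu1 hxt0 hw (by linarith) (by linarith) G.a12 G.b12 hEv hBv hEu hBu h0 hgt
          (by ring) (by ring) rfl rfl hQ1 hQ2 hQ3 hσ0 hσ1 hAv hAu (by linarith) (by rw [← hyv3]; linarith)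
          (by linarith) (by rw [← hyu3]; linarith) (by linarith [G.a02]) c
          (Or.inr (Or.inl (by linarith [T.c02])))
      · exact ord_good_special (g := g) (Q := Q) (σ := σ) (Av := rv - lv - g) (Au := ru - lu - g)
          (zv := cv - g) (zu := cu - g) (E := dvu - lv - lu) (cv := cv) (cu := cu) hlt hlv hlu
          hxv0 hxv1 hxu0 hxu1 hxt0 hw (by linarith) (by linarith) G.a12 G.b12 hEv hBv hEu hBu h0 hgt
          (by ring) (by ring) rfl rfl hQ1 hQ2 hQ3 hσ0 hσ1 hAv hAu (by linarith) (by rw [← hyv3]; linarith)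
          (by linarith) (by rw [← hyu3]; linarith) (by linarith [G.a12]) c
          (Or.inr (Or.inr (le_refl _)))
  · -- retire v: pair (u, t)
    exact ord_good_simple (ya := cu - g) (yb := yt) (ca := cu) (cb := -g + yt) hlu hlt hlv hxu0 hxu1 hxt0 hxt1 hxv0 hw
      (by linarith) (by linarith) (by linarith [G.a02]) (by linarith [G.b02]) hEu hBu hEt pre_t
      (by ring) (by linarith) hyt0 (by linarith) (by linarith)
  · -- retire u: pair (t, v)
    exact ord_good_simple (ya := yt) (yb := cv - g) (ca := -g + yt) (cb := cv) hlt hlv hlu hxt0 hxt1 hxv0 hxv1 hxu0 hw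
      (by linarith) (by linarith) G.a01 G.b01 hEt pre_t hEv hBv
      (by ring) hyt0 (by linarith) (by linarith) (by linarith)

end

end Vale.Agent.Lib.P235
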