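import Vale.Agent.Lib.P235.Caps

namespace Vale.Agent.Lib.P235

noncomputable section

/-- The state of a bag: legs against pairwise distances. -/
structure GoodSt (l0 l1 l2 d01 d02 d12 : ℝ) : Prop where
  h0 : 0 ≤ l0
  h1 : 0 ≤ l1
  h2 : 0 ≤ l2
  a01 : l0 + l1 ≤ d01
  b01 : d01 ≤ 1000000 * (l0 + l1)
  a02 : l0 + l2 ≤ d02
  b02 : d02 ≤ 1000000 * (l0 + l2)
  a12 : l1 + l2 ≤ d12
  b12 : d12 ≤ 1000000 * (l1 + l2)
  clause : 14 * (l0 * l1 * l2) ≤ (d01 - l0 - l1) * (l0 * l1 + l1 * l2 + l0 * l2) ∨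
    14 * (l0 * l1 * l2) ≤ (d02 - l0 - l2) * (l0 * l1 + l1 * l2 + l0 * l2) ∨
    14 * (l0 * l1 * l2) ≤ (d12 - l1 - l2) * (l0 * l1 + l1 * l2 + l0 * l2)

/-- Triangle inequalities for the distances from a new vertex to a bag. -/
structure TriR (r0 r1 r2 d01 d02 d12 : ℝ) : Prop where
  h0 : 0 ≤ r0
  h1 : 0 ≤ r1
  h2 : 0 ≤ r2
  a01 : r0 ≤ r1 + d01
  b01 : r1 ≤ r0 + d01
  c01 : d01 ≤ r0 + r1
  a02 : r0 ≤ r2 + d02
  b02 : r2 ≤ r0 + d02
  c02 : d02 ≤ r0 + r2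
  a12 : r1 ≤ r2 + d12
  b12 : r2 ≤ r1 + d12
  c12 : d12 ≤ r1 + r2

/-- The output of the kernel. -/
structure KOK (l0 l1 l2 r0 r1 r2 d01 d02 d12 x0 x1 x2 w : ℝ) : Prop where
  hx00 : 0 ≤ x0
  hx01 : x0 ≤ 1
  hx10 : 0 ≤ x1
  hx11 : x1 ≤ 1
  hx20 : 0 ≤ x2
  hx21 : x2 ≤ 1
  hw : 0 ≤ w
  hE0 : w + l0 - x0 * l0 + x1 * l1 + x2 * l2 ≤ r0
  hE1 : w + l1 + x0 * l0 - x1 * l1 + x2 * l2 ≤ r1
  hE2 : w + l2 + x0 * l0 + x1 * l1 - x2 * l2 ≤ r2
  hB0 : r0 ≤ 1000000 * (w + l0 - x0 * l0 + x1 * l1 + x2 * l2)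
  hB1 : r1 ≤ 1000000 * (w + l1 + x0 * l0 - x1 * l1 + x2 * l2)
  hB2 : r2 ≤ 1000000 * (w + l2 + x0 * l0 + x1 * l1 - x2 * l2)
  hexc : Exc x0 x1 x2
  hN0 : Noise l1 l2 l0 x1 x2 x0 w
  hN1 : Noise l2 l0 l1 x2 x0 x1 w
  hN2 : Noise l0 l1 l2 x0 x1 x2 w
  hG0 : GoodSt (l1 - x1 * l1 + x2 * l2) (l2 - x2 * l2 + x1 * l1) (w + x0 * l0) d12 r1 r2
  hG1 : GoodSt (l2 - x2 * l2 + x0 * l0) (l0 - x0 * l0 + x2 * l2) (w + x1 * l1) d02 r2 r0
  hG2 : GoodSt (l0 - x0 * l0 + x1 * l1) (l1 - x1 * l1 + x0 * l0) (w + x2 * l2) d01 r0 r1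

lemma GoodSt.swap12 {l0 l1 l2 d01 d02 d12 : ℝ} (G : GoodSt l0 l1 l2 d01 d02 d12) :
    GoodSt l0 l2 l1 d02 d01 d12 := by
  obtain ⟨h0, h1, h2, a01, b01, a02, b02, a12, b12, cl⟩ := G
  refine ⟨h0, h2, h1, a02, b02, a01, b01, by linarith, by linarith, ?_⟩
  rcases cl with c | c | c
  · right; left; nlinarith
  · left; nlinarith
  · right; right; nlinarith

lemma GoodSt.swap01 {l0 l1 l2 d01 d02 d12 : ℝ} (G : GoodSt l0 l1 l2 d01 d02 d12) :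
    GoodSt l1 l0 l2 d01 d12 d02 := by
  obtain ⟨h0, h1, h2, a01, b01, a02, b02, a12, b12, cl⟩ := G
  refine ⟨h1, h0, h2, by linarith, by linarith, a12, b12, a02, b02, ?_⟩
  rcases cl with c | c | c
  · left; nlinarith
  · right; right; nlinarith
  · right; left; nlinarith

lemma GoodSt.cyc {l0 l1 l2 d01 d02 d12 : ℝ} (G : GoodSt l0 l1 l2 d01 d02 d12) :
    GoodSt l1 l2 l0 d12 d01 d02 := by
  obtain ⟨h0, h1, h2, a01, b01, a02, b02, a12, b12, cl⟩ := G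
  refine ⟨h1, h2, h0, a12, b12, by linarith, by linarith, by linarith, by linarith, ?_⟩
  rcases cl with c | c | c
  · right; left; nlinarith
  · right; right; nlinarith
  · left; nlinarith

lemma TriR.swap12 {r0 r1 r2 d01 d02 d12 : ℝ} (T : TriR r0 r1 r2 d01 d02 d12) :
    TriR r0 r2 r1 d02 d01 d12 := by
  obtain ⟨h0, h1, h2, a01, b01, c01, a02, b02, c02, a12, b12, c12⟩ := T
  exact ⟨h0, h2, h1, a02, b02, c02, a01, b01, c01, b12, a12, by linarith⟩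

lemma TriR.cyc {r0 r1 r2 d01 d02 d12 : ℝ} (T : TriR r0 r1 r2 d01 d02 d12) :
    TriR r1 r2 r0 d12 d01 d02 := by
  obtain ⟨h0, h1, h2, a01, b01, c01, a02, b02, c02, a12, b12, c12⟩ := T
  exact ⟨h1, h2, h0, a12, b12, c12, b01, a01, by linarith, b02, a02, by linarith⟩

lemma Exc.swap12 {x0 x1 x2 : ℝ} (h : Exc x0 x1 x2) : Exc x0 x2 x1 := by
  rcases h with h | ⟨a, b, c⟩ | ⟨a, b, c⟩ | ⟨a, b, c⟩
  · left; linarith
  · right; left; exact ⟨a, by linarith, by linarith⟩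
  · right; right; right; exact ⟨a, by linarith, by linarith⟩
  · right; right; left; exact ⟨a, by linarith, by linarith⟩

lemma Exc.cyc {x0 x1 x2 : ℝ} (h : Exc x0 x1 x2) : Exc x1 x2 x0 := by
  rcases h with h | ⟨a, b, c⟩ | ⟨a, b, c⟩ | ⟨a, b, c⟩
  · left; linarith
  · right; right; right; exact ⟨a, by linarith, by linarith⟩
  · right; left; exact ⟨a, by linarith, by linarith⟩
  · right; right; left; exact ⟨a, by linarith, by linarith⟩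

lemma KOK.swap12 {l0 l1 l2 r0 r1 r2 d01 d02 d12 x0 x1 x2 w : ℝ}
    (K : KOK l0 l1 l2 r0 r1 r2 d01 d02 d12 x0 x1 x2 w) :
    KOK l0 l2 l1 r0 r2 r1 d02 d01 d12 x0 x2 x1 w := by
  obtain ⟨hx00, hx01, hx10, hx11, hx20, hx21, hw, hE0, hE1, hE2, hB0, hB1, hB2, hexc, hN0, hN1, hN2,
    hG0, hG1, hG2⟩ := K
  refine ⟨hx00, hx01, hx20, hx21, hx10, hx11, hw, by linarith, by linarith, by linarith,
    by linarith, by linarith, by linarith, hexc.swap12, noise_swap hN0, noise_swap hN2,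
    noise_swap hN1, ?_, ?_, ?_⟩
  · exact hG0.swap01
  · exact hG2.swap01
  · exact hG1.swap01

lemma KOK.cyc {l0 l1 l2 r0 r1 r2 d01 d02 d12 x0 x1 x2 w : ℝ}
    (K : KOK l0 l1 l2 r0 r1 r2 d01 d02 d12 x0 x1 x2 w) :
    KOK l1 l2 l0 r1 r2 r0 d12 d01 d02 x1 x2 x0 w := by
  obtain ⟨hx00, hx01, hx10, hx11, hx20, hx21, hw, hE0, hE1, hE2, hB0, hB1, hB2, hexc, hN0, hN1, hN2,
    hG0, hG1, hG2⟩ := K
  exact ⟨hx10, hx11, hx20, hx21, hx00, hx01, hw, by linarith, by linarith, by linarith,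
    by linarith, by linarith, by linarith, hexc.cyc, hN1, hN2, hN0, hG1, hG2, hG0⟩

/-- The target value of a vertex. -/
def yval (A l g σ : ℝ) : ℝ := max (max (A / 15 - (14 / 15) * (l + g)) (min (A / 15) (2 * σ))) 0

lemma yval_nonneg (A l g σ : ℝ) : 0 ≤ yval A l g σ := le_max_right _ _

lemma yval_le {A l g σ : ℝ} (hA : 0 ≤ A) (hl : 0 ≤ l + g) : yval A l g σ ≤ A / 15 := by
  unfold yval
  apply max_le (max_le _ (min_le_left _ _)) (by linarith)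
  linarith

lemma yval_ge_theta (A l g σ : ℝ) : A / 15 - (14 / 15) * (l + g) ≤ yval A l g σ :=
  le_trans (le_max_left _ _) (le_max_left _ _)

lemma yval_ge_min (A l g σ : ℝ) : min (A / 15) (2 * σ) ≤ yval A l g σ :=
  le_trans (le_max_right _ _) (le_max_left _ _)

/-- Either the target is the value `θ`, or it is at most `2 σ`. -/
lemma yval_branch {A l g σ : ℝ} (hA : 0 ≤ A) (hσ : 0 ≤ σ) :
    (yval A l g σ = A / 15 - (14 / 15) * (l + g)) ∨ yval A l g σ ≤ 2 * σ := by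
  by_cases h : min (A / 15) (2 * σ) ≤ A / 15 - (14 / 15) * (l + g)
  · left
    have h1 : 0 ≤ min (A / 15) (2 * σ) := le_min (by linarith) (by linarith)
    unfold yval
    rw [max_eq_left h, max_eq_left (by linarith)]
  · right
    have h' := not_le.1 h
    have h1 : 0 ≤ min (A / 15) (2 * σ) := le_min (by linarith) (by linarith)
    unfold yval
    rw [max_eq_right h'.le, max_eq_left h1]
    exact min_le_right _ _

lemma yval_zero {l g σ : ℝ} (hl : 0 ≤ l + g) (hσ : 0 ≤ σ) : yval 0 l g σ = 0 := by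
  apply le_antisymm _ (yval_nonneg _ _ _ _)
  have := yval_le (le_refl (0:ℝ)) hl (σ := σ)
  linarith

end

end Vale.Agent.Lib.P235
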