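import Mathlib.Tactic
import Mathlib.Data.Real.Basic

namespace Vale.Agent.Lib.P235

noncomputable section

/-- The certificate function `g3 m p = |m - 3 p + 1| - 1`. -/
def g3 (m p : ℝ) : ℝ := |m - 3 * p + 1| - 1

/-- The gate function: the clip of `1 - 24 u` to `[0,1]`. -/
def gate (u : ℝ) : ℝ := max 0 (min 1 (1 - 24 * u))

/-- The penalty at a vertex whose two partners have legs `l1 l2`, with `u = 1 - p1 - p2`. -/
def pen (l1 l2 u : ℝ) : ℝ := 22000000 * min l1 l2 * gate u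

lemma gate_nonneg (u : ℝ) : 0 ≤ gate u := le_max_left _ _

lemma gate_le_one (u : ℝ) : gate u ≤ 1 := by
  unfold gate
  apply max_le (by norm_num) (min_le_left _ _)

lemma gate_eq_zero {u : ℝ} (h : 1 / 24 ≤ u) : gate u = 0 := by
  unfold gate
  apply max_eq_left
  apply le_trans (min_le_right _ _)
  linarith

lemma gate_ge_half {u : ℝ} (h : u ≤ 1 / 48) : 1 / 2 ≤ gate u := by
  unfold gate
  apply le_max_of_le_right
  apply le_min (by norm_num)
  linarith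

lemma gate_lip (u u' : ℝ) : gate u - gate u' ≤ 24 * max 0 (u' - u) := by
  have h0 : 0 ≤ max 0 (u' - u) := le_max_left _ _
  have h1 : u' - u ≤ max 0 (u' - u) := le_max_right _ _
  have h2 := gate_nonneg u'
  have h3 : min 1 (1 - 24 * u') ≤ gate u' := le_max_right _ _
  have h4 : gate u ≤ 1 := gate_le_one u
  rcases le_total 0 (min 1 (1 - 24 * u)) with h | h
  · have h5 : gate u = min 1 (1 - 24 * u) := max_eq_right h
    have h6 : gate u ≤ 1 - 24 * u := by rw [h5]; exact min_le_right _ _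
    rcases le_total 1 (1 - 24 * u') with h7 | h7
    · rw [min_eq_left h7] at h3; linarith
    · rw [min_eq_right h7] at h3; linarith
  · have h5 : gate u = 0 := max_eq_left h
    linarith

lemma pen_nonneg {l1 l2 : ℝ} (h1 : 0 ≤ l1) (h2 : 0 ≤ l2) (u : ℝ) : 0 ≤ pen l1 l2 u := by
  unfold pen
  have : 0 ≤ min l1 l2 := le_min h1 h2
  have := gate_nonneg u
  positivity

lemma pen_eq_zero (l1 l2 : ℝ) {u : ℝ} (h : 1 / 24 ≤ u) : pen l1 l2 u = 0 := by
  unfold pen; rw [gate_eq_zero h]; ring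

lemma pen_le_left {l1 l2 : ℝ} (h1 : 0 ≤ l1) (h2 : 0 ≤ l2) (u : ℝ) :
    pen l1 l2 u ≤ 22000000 * l1 := by
  unfold pen
  have h3 : 0 ≤ min l1 l2 := le_min h1 h2
  have h4 : min l1 l2 ≤ l1 := min_le_left _ _
  have h5 := gate_nonneg u
  have h6 := gate_le_one u
  nlinarith [mul_nonneg h3 h5, mul_nonneg h3 (sub_nonneg.2 h6)]

lemma pen_le_right {l1 l2 : ℝ} (h1 : 0 ≤ l1) (h2 : 0 ≤ l2) (u : ℝ) :
    pen l1 l2 u ≤ 22000000 * l2 := by
  unfold pen
  have h3 : 0 ≤ min l1 l2 := le_min h1 h2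
  have h4 : min l1 l2 ≤ l2 := min_le_right _ _
  have h5 := gate_nonneg u
  have h6 := gate_le_one u
  nlinarith [mul_nonneg h3 h5, mul_nonneg h3 (sub_nonneg.2 h6)]

lemma abs_combo (x A B t M : ℝ) (h0 : 0 ≤ x) (h1 : x ≤ 1) (hM : 0 ≤ M) :
    |(1 - x) * A - x * B + (t - x) * M| ≤ (1 - x) * |A| + x * |B| + |t - x| * M := by
  have h2 : 0 ≤ 1 - x := by linarith
  calc |(1 - x) * A - x * B + (t - x) * M| ≤ |(1 - x) * A - x * B| + |(t - x) * M| :=
        abs_add_le _ _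
    _ ≤ |(1 - x) * A| + |x * B| + |(t - x) * M| := by
        have := abs_sub ((1 - x) * A) (x * B); linarith
    _ = _ := by rw [abs_mul, abs_mul, abs_mul, abs_of_nonneg h2, abs_of_nonneg h0, abs_of_nonneg hM]

/-- bound for the `a`-coordinate of a route. -/
lemma route_abs_a {xa ma mb mz pa pb aa : ℝ} (hxa0 : 0 ≤ xa) (hxa1 : xa ≤ 1) (hmz : 0 ≤ mz)
    (hsum : ma + mb + mz = 1) :
    |ma + aa * mz - 3 * (pa + xa * (1 - pa - pb)) + 1| ≤
      (1 - xa) * |ma - 3 * pa + 1| + xa * |mb - 3 * pb + 1| + |aa - xa| * mz := by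
  have hid : ma + aa * mz - 3 * (pa + xa * (1 - pa - pb)) + 1
      = (1 - xa) * (ma - 3 * pa + 1) - xa * (mb - 3 * pb + 1) + (aa - xa) * mz := by
    have : mz = 1 - ma - mb := by linarith
    subst this; ring
  rw [hid]
  exact abs_combo _ _ _ _ _ hxa0 hxa1 hmz

lemma star_common {la lb xa xb ma mb mz pa pb aa ab : ℝ}
    (hla : 0 ≤ la) (hlb : 0 ≤ lb) (hxa0 : 0 ≤ xa) (hxa1 : xa ≤ 1) (hxb0 : 0 ≤ xb) (hxb1 : xb ≤ 1)
    (hmz : 0 ≤ mz) (hsum : ma + mb + mz = 1) :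
    la * g3 (ma + aa * mz) (pa + xa * (1 - pa - pb)) + lb * g3 (mb + ab * mz) (pb + xb * (1 - pa - pb))
      ≤ (la - xa * la + xb * lb) * g3 ma pa + (lb - xb * lb + xa * la) * g3 mb pb
        + mz * (la * |aa - xa| + lb * |ab - xb|) := by
  have h1 := mul_le_mul_of_nonneg_left (route_abs_a (pa := pa) (pb := pb) (aa := aa) hxa0 hxa1 hmz hsum) hla
  have h2 := mul_le_mul_of_nonneg_left
    (route_abs_a (xa := xb) (ma := mb) (mb := ma) (mz := mz) (pa := pb) (pb := pa) (aa := ab)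
      hxb0 hxb1 hmz (by linarith)) hlb
  have e2 : 1 - pb - pa = 1 - pa - pb := by ring
  rw [e2] at h2
  unfold g3
  nlinarith [h1, h2]

/-- The general route bound (star). -/
lemma star_F {la lb lc xa xb xc w ma mb mz pa pb q aa ab ac : ℝ}
    (hla : 0 ≤ la) (hlb : 0 ≤ lb) (hlc : 0 ≤ lc)
    (hxa0 : 0 ≤ xa) (hxa1 : xa ≤ 1) (hxb0 : 0 ≤ xb) (hxb1 : xb ≤ 1) (hxc0 : 0 ≤ xc) (hxc1 : xc ≤ 1)
    (hw : 0 ≤ w) (hmz : 0 ≤ mz) (hsum : ma + mb + mz = 1) :
    la * g3 (ma + aa * mz) (pa + xa * (1 - pa - pb)) + lb * g3 (mb + ab * mz) (pb + xb * (1 - pa - pb))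
      + lc * g3 (ac * mz) (xc * q) - 3 * w * q
      ≤ (la - xa * la + xb * lb) * g3 ma pa + (lb - xb * lb + xa * la) * g3 mb pb
        + (w + xc * lc) * g3 mz q
        + mz * (la * |aa - xa| + lb * |ab - xb| + lc * |ac - xc| - w) := by
  have h1 := star_common (pa := pa) (pb := pb) (aa := aa) (ab := ab) hla hlb hxa0 hxa1 hxb0 hxb1 hmz hsum
  -- the c-coordinate
  have hid : ac * mz - 3 * (xc * q) + 1
      = xc * (mz - 3 * q + 1) + (1 - xc) + (ac - xc) * mz := by ring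
  have h2 : |ac * mz - 3 * (xc * q) + 1| ≤ xc * |mz - 3 * q + 1| + (1 - xc) + |ac - xc| * mz := by
    rw [hid]
    calc |xc * (mz - 3 * q + 1) + (1 - xc) + (ac - xc) * mz|
        ≤ |xc * (mz - 3 * q + 1) + (1 - xc)| + |(ac - xc) * mz| := abs_add_le _ _
      _ ≤ |xc * (mz - 3 * q + 1)| + |1 - xc| + |(ac - xc) * mz| := by
          have := abs_add_le (xc * (mz - 3 * q + 1)) (1 - xc); linarith
      _ = _ := by
          rw [abs_mul, abs_mul, abs_of_nonneg hxc0, abs_of_nonneg (sub_nonneg.2 hxc1), abs_of_nonneg hmz]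
  have h3 := mul_le_mul_of_nonneg_left h2 hlc
  have h4 : mz - 3 * q + 1 ≤ |mz - 3 * q + 1| := le_abs_self _
  have h5 := mul_le_mul_of_nonneg_left h4 hw
  unfold g3 at h1 ⊢
  nlinarith [h1, h3, h5]

/-- The route bound when `q ≤ 1/3` (double star). -/
lemma star2_F {la lb lc xa xb xc w ma mb mz pa pb q aa ab ac : ℝ}
    (hla : 0 ≤ la) (hlb : 0 ≤ lb) (hlc : 0 ≤ lc)
    (hxa0 : 0 ≤ xa) (hxa1 : xa ≤ 1) (hxb0 : 0 ≤ xb) (hxb1 : xb ≤ 1) (hxc0 : 0 ≤ xc) (hxc1 : xc ≤ 1)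
    (hmz : 0 ≤ mz) (hsum : ma + mb + mz = 1) (hq0 : 0 ≤ q) (hq : q ≤ 1 / 3) (hac : 0 ≤ ac) :
    la * g3 (ma + aa * mz) (pa + xa * (1 - pa - pb)) + lb * g3 (mb + ab * mz) (pb + xb * (1 - pa - pb))
      + lc * g3 (ac * mz) (xc * q) - 3 * w * q
      ≤ (la - xa * la + xb * lb) * g3 ma pa + (lb - xb * lb + xa * la) * g3 mb pb
        + (w + xc * lc) * g3 mz q
        + mz * (la * |aa - xa| + lb * |ab - xb| + ac * lc - (w + xc * lc)) := by
  have h1 := star_common (pa := pa) (pb := pb) (aa := aa) (ab := ab) hla hlb hxa0 hxa1 hxb0 hxb1 hmz hsum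
  have hxq : xc * q ≤ 1 / 3 := by nlinarith [mul_nonneg hxc0 hq0]
  have h2 : g3 (ac * mz) (xc * q) = ac * mz - 3 * (xc * q) := by
    unfold g3
    rw [abs_of_nonneg (by have := mul_nonneg hac hmz; linarith)]; ring
  have h3 : g3 mz q = mz - 3 * q := by
    unfold g3
    rw [abs_of_nonneg (by linarith)]; ring
  rw [h2, h3]
  nlinarith [h1]

/-- The pen-free part of the value, unscaled. -/
def F0 (l0 l1 l2 p0 p1 p2 n0 n1 n2 : ℝ) : ℝ := l0 * g3 n0 p0 + l1 * g3 n1 p1 + l2 * g3 n2 p2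

/-- The full value without the `W` and `V` parts. -/
def val0 (r0 r1 r2 l0 l1 l2 p0 p1 p2 n0 n1 n2 : ℝ) : ℝ :=
  n0 * (r0 + pen l1 l2 (1 - p1 - p2)) + n1 * (r1 + pen l2 l0 (1 - p2 - p0))
    + n2 * (r2 + pen l0 l1 (1 - p0 - p1)) + 4000000 * F0 l0 l1 l2 p0 p1 p2 n0 n1 n2

/-- Excess condition on flips. -/
def Exc (xa xb xc : ℝ) : Prop :=
  xa + xb + xc ≤ 1 ∨
  (xa = 0 ∧ xb + xc - 1 ≤ xb / 96 ∧ xb + xc - 1 ≤ xc / 96) ∨
  (xb = 0 ∧ xa + xc - 1 ≤ xa / 96 ∧ xa + xc - 1 ≤ xc / 96) ∨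
  (xc = 0 ∧ xa + xb - 1 ≤ xa / 96 ∧ xa + xb - 1 ≤ xb / 96)

/-- Noise condition at `T = (a,b,c)` for the child retiring `c`. -/
def Noise (la lb lc xa xb xc w : ℝ) : Prop :=
  ∃ Du lu : ℝ,
    ((Du = w + la - xa * la + xb * lb + xc * lc ∧ lu = la) ∨
     (Du = w + lb + xa * la - xb * lb + xc * lc ∧ lu = lb) ∨
     (Du = w + lc + xa * la + xb * lb - xc * lc ∧ lu = lc)) ∧
    (1 / 4) * (xa * (w + la - xa * la + xb * lb + xc * lc) + xb * (w + lb + xa * la - xb * lb + xc * lc))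
      + max 0 (1 - xa - xb) * ((1 / 4) * Du + lu) - (w + xc * lc)
      ≤ 129 * (xa * la * (1 - xa) + xb * lb * (1 - xb))

structure StepHyp (la lb lc xa xb xc w ra rb rc rz : ℝ) : Prop where
  hla : 0 ≤ la
  hlb : 0 ≤ lb
  hlc : 0 ≤ lc
  hxa0 : 0 ≤ xa
  hxa1 : xa ≤ 1
  hxb0 : 0 ≤ xb
  hxb1 : xb ≤ 1
  hxc0 : 0 ≤ xc
  hxc1 : xc ≤ 1
  hw : 0 ≤ w
  hra : ra ≤ rz + 1000000 * (w + la - xa * la + xb * lb + xc * lc)
  hrb : rb ≤ rz + 1000000 * (w + lb + xa * la - xb * lb + xc * lc)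
  hrc : rc ≤ rz + 1000000 * (w + lc + xa * la + xb * lb - xc * lc)
  hab : ra ≤ rb + 1000000 * (la + lb)
  hba : rb ≤ ra + 1000000 * (la + lb)
  hac : ra ≤ rc + 1000000 * (la + lc)
  hca : rc ≤ ra + 1000000 * (la + lc)
  hbc : rb ≤ rc + 1000000 * (lb + lc)
  hcb : rc ≤ rb + 1000000 * (lb + lc)
  hexc : Exc xa xb xc
  hnoise : Noise la lb lc xa xb xc w

/-- Integer lemma: when `p0` is large the vertex `0` is optimal among pen-free routes. -/
lemma int_lemma {r0 r1 r2 l0 l1 l2 p0 p1 p2 n0 n1 n2 : ℝ}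
    (hl0 : 0 ≤ l0) (hl1 : 0 ≤ l1) (hl2 : 0 ≤ l2)
    (hp1 : 0 ≤ p1) (hp2 : 0 ≤ p2) (hp0 : 2 / 3 + 1 / 48 ≤ p0) (hsum : p0 + p1 + p2 ≤ 1 + 1 / 48)
    (h1 : r0 ≤ r1 + 1000000 * (l0 + l1)) (h2 : r0 ≤ r2 + 1000000 * (l0 + l2))
    (hn0 : 0 ≤ n0) (hn1 : 0 ≤ n1) (hn2 : 0 ≤ n2) (hn : n0 + n1 + n2 = 1) :
    r0 + 4000000 * F0 l0 l1 l2 p0 p1 p2 1 0 0
      ≤ n0 * r0 + n1 * r1 + n2 * r2 + 4000000 * F0 l0 l1 l2 p0 p1 p2 n0 n1 n2 := by
  have e1 : g3 0 p1 = -3 * p1 := by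
    unfold g3; rw [abs_of_nonneg (by linarith)]; ring
  have e2 : g3 0 p2 = -3 * p2 := by
    unfold g3; rw [abs_of_nonneg (by linarith)]; ring
  have e3 : g3 n1 p1 = n1 - 3 * p1 := by
    unfold g3; rw [abs_of_nonneg (by linarith)]; ring
  have e4 : g3 n2 p2 = n2 - 3 * p2 := by
    unfold g3; rw [abs_of_nonneg (by linarith)]; ring
  have e5 : g3 1 p0 = 3 * p0 - 3 := by
    unfold g3; rw [abs_of_nonpos (by linarith)]; ring
  have e6 : 3 * p0 - 2 - n0 ≤ g3 n0 p0 := by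
    unfold g3
    have := neg_abs_le (n0 - 3 * p0 + 1)
    linarith
  unfold F0
  rw [e1, e2, e3, e4, e5]
  have e7 := mul_le_mul_of_nonneg_left e6 hl0
  have e8 := mul_le_mul_of_nonneg_left h1 hn1
  have e9 := mul_le_mul_of_nonneg_left h2 hn2
  have e10 : n0 = 1 - n1 - n2 := by linarith
  subst e10
  nlinarith [mul_nonneg hn1 hl0, mul_nonneg hn1 hl1, mul_nonneg hn2 hl0, mul_nonneg hn2 hl2]

/-- Conclude from a route with a pen-free bound and a pen bound in the non-integer case. -/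
lemma step_conclude {ra rb rc la lb lc Pa Pb Pc na nb nc RHS : ℝ}
    (hla : 0 ≤ la) (hlb : 0 ≤ lb) (hlc : 0 ≤ lc)
    (hPa : 0 ≤ Pa) (hPb : 0 ≤ Pb) (hPc : 0 ≤ Pc) (hsum : Pa + Pb + Pc ≤ 1 + 1 / 48)
    (hab : ra ≤ rb + 1000000 * (la + lb)) (hba : rb ≤ ra + 1000000 * (la + lb))
    (hac : ra ≤ rc + 1000000 * (la + lc)) (hca : rc ≤ ra + 1000000 * (la + lc))
    (hbc : rb ≤ rc + 1000000 * (lb + lc)) (hcb : rc ≤ rb + 1000000 * (lb + lc))
    (hna : 0 ≤ na) (hnb : 0 ≤ nb) (hnc : 0 ≤ nc) (hn : na + nb + nc = 1)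
    (h0 : na * ra + nb * rb + nc * rc + 4000000 * F0 la lb lc Pa Pb Pc na nb nc ≤ RHS)
    (h1 : Pa < 2 / 3 + 1 / 48 → Pb < 2 / 3 + 1 / 48 → Pc < 2 / 3 + 1 / 48 →
      val0 ra rb rc la lb lc Pa Pb Pc na nb nc ≤ RHS) :
    ∃ ma mb mc : ℝ, 0 ≤ ma ∧ 0 ≤ mb ∧ 0 ≤ mc ∧ ma + mb + mc = 1 ∧
      val0 ra rb rc la lb lc Pa Pb Pc ma mb mc ≤ RHS := by
  by_cases ha : 2 / 3 + 1 / 48 ≤ Pa
  · refine ⟨1, 0, 0, by norm_num, by norm_num, by norm_num, by norm_num, ?_⟩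
    have h2 := int_lemma (r1 := rb) (r2 := rc) (n0 := na) (n1 := nb) (n2 := nc)
      hla hlb hlc hPb hPc ha hsum hab hac hna hnb hnc hn
    have h3 : pen lb lc (1 - Pb - Pc) = 0 := pen_eq_zero _ _ (by linarith)
    unfold val0
    rw [h3]
    linarith
  by_cases hb : 2 / 3 + 1 / 48 ≤ Pb
  · refine ⟨0, 1, 0, by norm_num, by norm_num, by norm_num, by norm_num, ?_⟩
    have h2 := int_lemma (r0 := rb) (r1 := rc) (r2 := ra) (l0 := lb) (l1 := lc) (l2 := la)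
      (p0 := Pb) (p1 := Pc) (p2 := Pa) (n0 := nb) (n1 := nc) (n2 := na)
      hlb hlc hla hPc hPa hb (by linarith) hbc (by linarith) hnb hnc hna (by linarith)
    have h3 : pen lc la (1 - Pc - Pa) = 0 := pen_eq_zero _ _ (by linarith)
    unfold val0
    rw [h3]
    unfold F0 at h0 h2 ⊢
    linarith
  by_cases hc : 2 / 3 + 1 / 48 ≤ Pc
  · refine ⟨0, 0, 1, by norm_num, by norm_num, by norm_num, by norm_num, ?_⟩
    have h2 := int_lemma (r0 := rc) (r1 := ra) (r2 := rb) (l0 := lc) (l1 := la) (l2 := lb)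
      (p0 := Pc) (p1 := Pa) (p2 := Pb) (n0 := nc) (n1 := na) (n2 := nb)
      hlc hla hlb hPa hPb hc (by linarith) (by linarith) (by linarith) hnc hna hnb (by linarith)
    have h3 : pen la lb (1 - Pa - Pb) = 0 := pen_eq_zero _ _ (by linarith)
    unfold val0
    rw [h3]
    unfold F0 at h0 h2 ⊢
    linarith
  · exact ⟨na, nb, nc, hna, hnb, hnc, hn, h1 (not_le.1 ha) (not_le.1 hb) (not_le.1 hc)⟩

/-- Variation of a penalty along a step. -/
lemma pen_diff_core {l1 l1' lc h u u' x1 xc : ℝ} (hl1 : 0 ≤ l1) (hlc : 0 ≤ lc)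
    (hl1' : 0 ≤ l1') (hh : 0 ≤ h) (hx10 : 0 ≤ x1) (hxc1 : xc ≤ 1)
    (h1 : l1 - x1 * l1 ≤ l1') (h2 : xc * lc ≤ h) (hu : u' - u ≤ x1) :
    pen l1 lc u - pen l1' h u' ≤ 22000000 * (25 * (x1 * l1) + lc * (1 - xc)) := by
  unfold pen
  set m := min l1 lc with hm
  set m' := min l1' h with hm'
  have hm1 : m ≤ l1 := min_le_left _ _
  have hm0 : 0 ≤ m := le_min hl1 hlc
  have hm2 : m ≤ lc := min_le_right _ _
  have hm'0 : 0 ≤ m' := le_min hl1' hh
  have hlc1 : 0 ≤ lc * (1 - xc) := mul_nonneg hlc (by linarith)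
  have hsb : 0 ≤ x1 * l1 := mul_nonneg hx10 hl1
  have hmm : m - m' ≤ x1 * l1 + lc * (1 - xc) := by
    have : m - x1 * l1 - lc * (1 - xc) ≤ m' := by
      apply le_min
      · linarith
      · nlinarith
    linarith
  have hg := gate_lip u u'
  have hg2 : max 0 (u' - u) ≤ x1 := max_le hx10 hu
  have hg3 : gate u - gate u' ≤ 24 * x1 := by linarith
  have hg0 := gate_nonneg u'
  have hg1 := gate_le_one u'
  have h3 : m * (gate u - gate u') ≤ l1 * (24 * x1) := by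
    calc m * (gate u - gate u') ≤ m * (24 * x1) := mul_le_mul_of_nonneg_left hg3 hm0
      _ ≤ l1 * (24 * x1) := mul_le_mul_of_nonneg_right hm1 (by positivity)
  have h4 : (m - m') * gate u' ≤ x1 * l1 + lc * (1 - xc) := by
    rcases le_total (m - m') 0 with h5 | h5
    · have := mul_nonneg (neg_nonneg.2 h5) hg0
      nlinarith
    · nlinarith [mul_le_mul_of_nonneg_left hg1 h5]
  nlinarith

lemma pen_comm (l1 l2 u : ℝ) : pen l1 l2 u = pen l2 l1 u := by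
  unfold pen; rw [min_comm]

/-- Route bound on distances. -/
lemma route_R {ra rb rc rz Da Db Dc ma mb mz aa ab ac : ℝ}
    (hra : ra ≤ rz + 1000000 * Da) (hrb : rb ≤ rz + 1000000 * Db) (hrc : rc ≤ rz + 1000000 * Dc)
    (hmz : 0 ≤ mz) (haa : 0 ≤ aa) (hab : 0 ≤ ab) (hac : 0 ≤ ac) (hα : aa + ab + ac = 1) :
    (ma + aa * mz) * ra + (mb + ab * mz) * rb + (ac * mz) * rc
      ≤ ma * ra + mb * rb + mz * rz + mz * (1000000 * (aa * Da + ab * Db + ac * Dc)) := by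
  have h1 := mul_le_mul_of_nonneg_left hra (mul_nonneg haa hmz)
  have h2 := mul_le_mul_of_nonneg_left hrb (mul_nonneg hab hmz)
  have h3 := mul_le_mul_of_nonneg_left hrc (mul_nonneg hac hmz)
  have h4 : aa * mz * rz + ab * mz * rz + ac * mz * rz = mz * rz := by
    have : ac = 1 - aa - ab := by linarith
    subst this; ring
  nlinarith

lemma tauN_bound {τ N B sc xc : ℝ} (hτ : 0 ≤ τ) (hN : 0 ≤ N) (hB : 0 ≤ B) (hsc : 0 ≤ sc)
    (hxc : 0 ≤ xc) (hsum : τ + xc ≤ 1) (h : (τ + xc) * N ≤ B + sc) :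
    τ * N ≤ B + 2 * (sc * (1 - xc)) := by
  rcases le_total xc (1 / 2) with h1 | h1
  · have h2 : sc ≤ 2 * (sc * (1 - xc)) := by nlinarith
    have h3 : 0 ≤ xc * N := mul_nonneg hxc hN
    nlinarith
  · have hpos : 0 < τ + xc := by linarith
    have h2 : (τ + xc) * (τ * N) ≤ (τ + xc) * (B + 2 * (sc * (1 - xc))) := by
      have h3 : τ * ((τ + xc) * N) ≤ τ * (B + sc) := mul_le_mul_of_nonneg_left h hτ
      have h4 : τ * B ≤ (τ + xc) * B := by nlinarith
      have h5 : τ * sc ≤ (τ + xc) * (2 * (sc * (1 - xc))) := by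
        have h6 : τ ≤ 1 - xc := by linarith
        have h7 : (1 - xc) ≤ (τ + xc) * (2 * (1 - xc)) := by nlinarith
        have h8 : τ ≤ (τ + xc) * (2 * (1 - xc)) := by linarith
        have := mul_le_mul_of_nonneg_right h8 hsc
        nlinarith
      nlinarith
    exact le_of_mul_le_mul_left h2 hpos

/-- Consequences of an excess `e = xj + xk - 1`. -/
lemma excess_facts {xj xk lj lk e : ℝ} (he : e = xj + xk - 1) (he0 : 0 ≤ e)
    (hj : 1 / 2 ≤ xj) (hej : e ≤ xj / 96) (hek : e ≤ xk / 96) (hlj : 0 ≤ lj) (hlk : 0 ≤ lk)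
    (hxk0 : 0 ≤ xk) :
    e * lj ≤ (2 / 95) * (xj * lj * (1 - xj)) ∧
    e * (xj * lj) ≤ (1 / 95) * (xj * lj * (1 - xj)) ∧
    e * (xk * lk) ≤ (1 / 95) * (xk * lk * (1 - xk)) := by
  have h1 : 95 * e ≤ 1 - xj := by linarith
  have h2 : 95 * e ≤ 1 - xk := by linarith
  have hs : 0 ≤ xj * lj := mul_nonneg (by linarith) hlj
  have hs' : 0 ≤ xk * lk := mul_nonneg hxk0 hlk
  refine ⟨?_, ?_, ?_⟩
  · have h3 := mul_le_mul_of_nonneg_left h1 (mul_nonneg hs (by norm_num : (0:ℝ) ≤ 1))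
    have h4 : (1 / 2) * lj * (95 * e) ≤ xj * lj * (95 * e) :=
      mul_le_mul_of_nonneg_right (mul_le_mul_of_nonneg_right hj hlj) (by linarith)
    nlinarith
  · have h3 := mul_le_mul_of_nonneg_left h1 hs
    nlinarith
  · have h3 := mul_le_mul_of_nonneg_left h2 hs'
    nlinarith

/-- Bracket bound for the excess route in regime P. -/
lemma excess_bracket {xj xk lj lk w e : ℝ} (he : e = xj + xk - 1) (he0 : 0 ≤ e)
    (hj : 1 / 2 ≤ xj) (hj1 : xj ≤ 1) (hej : e ≤ xj / 96) (hek : e ≤ xk / 96) (hlj : 0 ≤ lj)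
    (hlk : 0 ≤ lk) (hxk0 : 0 ≤ xk) (hw : 0 ≤ w) :
    (1 / 4) * ((xj - e) * (w + lj - xj * lj + xk * lk) + xk * (w + lk + xj * lj - xk * lk))
      + lj * e - w ≤ xj * lj * (1 - xj) + xk * lk * (1 - xk) := by
  obtain ⟨h1, h2, h3⟩ := excess_facts he he0 hj hej hek hlj hlk hxk0
  have hD : 0 ≤ w + lj - xj * lj + xk * lk := by
    have : xj * lj ≤ lj := by nlinarith
    have := mul_nonneg hxk0 hlk
    linarith
  have h4 := mul_nonneg he0 hD
  have h5 : 0 ≤ xj * lj * (1 - xj) := mul_nonneg (mul_nonneg (by linarith) hlj) (by linarith)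
  have hxk1 : xk ≤ 1 := by linarith
  have h6 : 0 ≤ xk * lk * (1 - xk) := mul_nonneg (mul_nonneg hxk0 hlk) (by linarith)
  have h7 : e ≤ 1 := by linarith
  have h8 : e * w ≤ w := by nlinarith
  subst he
  nlinarith

/-- Main bracket bound in regime P without excess. -/
lemma P_bracket {la lb lc xa xb xc w N : ℝ}
    (hla : 0 ≤ la) (hlb : 0 ≤ lb) (hlc : 0 ≤ lc)
    (hxa0 : 0 ≤ xa) (hxa1 : xa ≤ 1) (hxb0 : 0 ≤ xb) (hxb1 : xb ≤ 1) (hxc0 : 0 ≤ xc) (hxc1 : xc ≤ 1)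
    (hw : 0 ≤ w) (hX : xa + xb + xc ≤ 1) (hN : 0 ≤ N)
    (hn : (1 / 4) * (xa * (w + la - xa * la + xb * lb + xc * lc)
        + xb * (w + lb + xa * la - xb * lb + xc * lc))
      + max 0 (1 - xa - xb) * N - (w + xc * lc)
      ≤ 129 * (xa * la * (1 - xa) + xb * lb * (1 - xb))) :
    (1 / 4) * (xa * (w + la - xa * la + xb * lb + xc * lc)
        + xb * (w + lb + xa * la - xb * lb + xc * lc)
        + xc * (w + lc + xa * la + xb * lb - xc * lc))
      + (1 - xa - xb - xc) * N - w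
      ≤ 132 * (w + xc * lc * (1 - xc) + (xa * la * (1 - xa) + xb * lb * (1 - xb))) := by
  have hsa : 0 ≤ xa * la := mul_nonneg hxa0 hla
  have hsb : 0 ≤ xb * lb := mul_nonneg hxb0 hlb
  have hsc : 0 ≤ xc * lc := mul_nonneg hxc0 hlc
  have hv1 : 0 ≤ xa * la * (1 - xa) := mul_nonneg hsa (by linarith)
  have hv2 : 0 ≤ xb * lb * (1 - xb) := mul_nonneg hsb (by linarith)
  have hv3 : 0 ≤ xc * lc * (1 - xc) := mul_nonneg hsc (by linarith)
  have hDa : 0 ≤ w + la - xa * la + xb * lb + xc * lc := by nlinarith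
  have hDb : 0 ≤ w + lb + xa * la - xb * lb + xc * lc := by nlinarith
  have hτc : max 0 (1 - xa - xb) = (1 - xa - xb - xc) + xc := by
    rw [max_eq_right (by linarith)]; ring
  rw [hτc] at hn
  have hτ : 0 ≤ 1 - xa - xb - xc := by linarith
  have h1 := tauN_bound (τ := 1 - xa - xb - xc) (N := N)
    (B := 129 * (xa * la * (1 - xa) + xb * lb * (1 - xb)) + w) (sc := xc * lc) (xc := xc)
    hτ hN (by linarith) hsc hxc0 (by linarith)
    (by
      have h2 := mul_nonneg hxa0 hDa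
      have h3 := mul_nonneg hxb0 hDb
      linarith)
  -- the identity for the sum of x D
  have h4 : xa * (w + la - xa * la + xb * lb + xc * lc)
        + xb * (w + lb + xa * la - xb * lb + xc * lc)
        + xc * (w + lc + xa * la + xb * lb - xc * lc)
      = (xa + xb + xc) * w - (1 - xa - xb - xc) * (xa * la + xb * lb + xc * lc)
        + 2 * (xa * la * (1 - xa) + xb * lb * (1 - xb) + xc * lc * (1 - xc)) := by ring
  have h5 : 0 ≤ (1 - xa - xb - xc) * (xa * la + xb * lb + xc * lc) := by positivity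
  have h6 : (xa + xb + xc) * w ≤ w := by nlinarith
  linarith

/-- The route for regime P. -/
lemma P_route {la lb lc xa xb xc w : ℝ}
    (hla : 0 ≤ la) (hlb : 0 ≤ lb) (hlc : 0 ≤ lc)
    (hxa0 : 0 ≤ xa) (hxa1 : xa ≤ 1) (hxb0 : 0 ≤ xb) (hxb1 : xb ≤ 1) (hxc0 : 0 ≤ xc) (hxc1 : xc ≤ 1)
    (hw : 0 ≤ w) (hexc : Exc xa xb xc) (hnoise : Noise la lb lc xa xb xc w) :
    ∃ aa ab ac : ℝ, 0 ≤ aa ∧ 0 ≤ ab ∧ 0 ≤ ac ∧ aa + ab + ac = 1 ∧
      (1 / 4) * (aa * (w + la - xa * la + xb * lb + xc * lc)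
        + ab * (w + lb + xa * la - xb * lb + xc * lc)
        + ac * (w + lc + xa * la + xb * lb - xc * lc))
        + la * |aa - xa| + lb * |ab - xb| + lc * |ac - xc| - w
        ≤ 132 * (w + xc * lc * (1 - xc) + (xa * la * (1 - xa) + xb * lb * (1 - xb))) ∧
      95 * aa ≤ 96 * (1 - xc) ∧ 95 * ab ≤ 96 * (1 - xc) ∧ 95 * ac ≤ 96 * max 0 (1 - xa - xb) := by
  have hsa : 0 ≤ xa * la := mul_nonneg hxa0 hla
  have hsb : 0 ≤ xb * lb := mul_nonneg hxb0 hlb
  have hsc : 0 ≤ xc * lc := mul_nonneg hxc0 hlc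
  have hsa1 : xa * la ≤ la := mul_le_of_le_one_left hla hxa1
  have hsb1 : xb * lb ≤ lb := mul_le_of_le_one_left hlb hxb1
  have hsc1 : xc * lc ≤ lc := mul_le_of_le_one_left hlc hxc1
  have hv1 : 0 ≤ xa * la * (1 - xa) := mul_nonneg hsa (by linarith)
  have hv2 : 0 ≤ xb * lb * (1 - xb) := mul_nonneg hsb (by linarith)
  have hv3 : 0 ≤ xc * lc * (1 - xc) := mul_nonneg hsc (by linarith)
  have hmax : ∀ t : ℝ, t ≤ max 0 t := fun t => le_max_right _ _
  have hmax0 : ∀ t : ℝ, 0 ≤ max 0 t := fun t => le_max_left _ _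
  have hτc : 1 - xa - xb ≤ max 0 (1 - xa - xb) := hmax _
  have hτc0 : 0 ≤ max 0 (1 - xa - xb) := hmax0 _
  by_cases hX : xa + xb + xc ≤ 1
  · -- no excess: use the slot
    obtain ⟨Du, lu, hslot, hn⟩ := hnoise
    have hτ : 0 ≤ 1 - xa - xb - xc := by linarith
    have hDu : 0 ≤ Du ∧ 0 ≤ lu := by
      rcases hslot with ⟨rfl, rfl⟩ | ⟨rfl, rfl⟩ | ⟨rfl, rfl⟩
      · exact ⟨by linarith, hla⟩
      · exact ⟨by linarith, hlb⟩
      · exact ⟨by linarith, hlc⟩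
    have hB := P_bracket (N := (1 / 4) * Du + lu) hla hlb hlc hxa0 hxa1 hxb0 hxb1 hxc0 hxc1 hw hX
      (by linarith [hDu.1, hDu.2]) hn
    rcases hslot with ⟨rfl, rfl⟩ | ⟨rfl, rfl⟩ | ⟨rfl, rfl⟩
    · refine ⟨xa + (1 - xa - xb - xc), xb, xc, by linarith, hxb0, hxc0, by ring, ?_, ?_, ?_, ?_⟩
      · have e1 : |xa + (1 - xa - xb - xc) - xa| = 1 - xa - xb - xc := by
          rw [show xa + (1 - xa - xb - xc) - xa = 1 - xa - xb - xc by ring, abs_of_nonneg hτ]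
        rw [e1, sub_self, sub_self, abs_zero]
        linarith
      · linarith
      · linarith
      · linarith
    · refine ⟨xa, xb + (1 - xa - xb - xc), xc, hxa0, by linarith, hxc0, by ring, ?_, ?_, ?_, ?_⟩
      · have e1 : |xb + (1 - xa - xb - xc) - xb| = 1 - xa - xb - xc := by
          rw [show xb + (1 - xa - xb - xc) - xb = 1 - xa - xb - xc by ring, abs_of_nonneg hτ]
        rw [e1, sub_self, sub_self, abs_zero]
        linarith
      · linarith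
      · linarith
      · linarith
    · refine ⟨xa, xb, xc + (1 - xa - xb - xc), hxa0, hxb0, by linarith, by ring, ?_, ?_, ?_, ?_⟩
      · have e1 : |xc + (1 - xa - xb - xc) - xc| = 1 - xa - xb - xc := by
          rw [show xc + (1 - xa - xb - xc) - xc = 1 - xa - xb - xc by ring, abs_of_nonneg hτ]
        rw [e1, sub_self, sub_self, abs_zero]
        linarith
      · linarith
      · linarith
      · linarith
  have hX' : 1 < xa + xb + xc := not_le.1 hX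
  have habs : ∀ x e : ℝ, 0 ≤ e → |x - e - x| = e := by
    intro x e he
    rw [show x - e - x = -e by ring, abs_neg, abs_of_nonneg he]
  rcases hexc with hX0 | ⟨h0, h1, h2⟩ | ⟨h0, h1, h2⟩ | ⟨h0, h1, h2⟩
  · exact absurd hX0 hX
  · -- xa = 0
    subst h0
    have he0 : 0 ≤ xb + xc - 1 := by linarith
    rcases le_total (1 / 2) xb with hj | hj
    · have hB := excess_bracket (xj := xb) (xk := xc) (lj := lb) (lk := lc) (w := w) rfl he0 hj hxb1 h1 h2 hlb hlc hxc0 hw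
      refine ⟨0, xb - (xb + xc - 1), xc, le_refl _, by linarith, hxc0, by ring, ?_, ?_, ?_, ?_⟩
      · rw [habs _ _ he0, sub_self, sub_self, abs_zero]
        nlinarith
      · linarith
      · linarith
      · have : 1 - 0 - xb ≤ max 0 (1 - 0 - xb) := hτc
        linarith
    · have hj' : 1 / 2 ≤ xc := by linarith
      have hB := excess_bracket (xj := xc) (xk := xb) (lj := lc) (lk := lb) (w := w) (e := xb + xc - 1) (by ring) he0 hj' hxc1 h2 h1 hlc hlb hxb0 hw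
      refine ⟨0, xb, xc - (xb + xc - 1), le_refl _, hxb0, by linarith, by ring, ?_, ?_, ?_, ?_⟩
      · rw [habs _ _ he0, sub_self, sub_self, abs_zero]
        nlinarith
      · linarith
      · linarith
      · have : 1 - 0 - xb ≤ max 0 (1 - 0 - xb) := hτc
        linarith
  · -- xb = 0
    subst h0
    have he0 : 0 ≤ xa + xc - 1 := by linarith
    rcases le_total (1 / 2) xa with hj | hj
    · have hB := excess_bracket (xj := xa) (xk := xc) (lj := la) (lk := lc) (w := w) rfl he0 hj hxa1 h1 h2 hla hlc hxc0 hw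
      refine ⟨xa - (xa + xc - 1), 0, xc, by linarith, le_refl _, hxc0, by ring, ?_, ?_, ?_, ?_⟩
      · rw [habs _ _ he0, sub_self, sub_self, abs_zero]
        nlinarith
      · linarith
      · linarith
      · have : 1 - xa - 0 ≤ max 0 (1 - xa - 0) := hτc
        linarith
    · have hj' : 1 / 2 ≤ xc := by linarith
      have hB := excess_bracket (xj := xc) (xk := xa) (lj := lc) (lk := la) (w := w) (e := xa + xc - 1) (by ring) he0 hj' hxc1 h2 h1 hlc hla hxa0 hw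
      refine ⟨xa, 0, xc - (xa + xc - 1), hxa0, le_refl _, by linarith, by ring, ?_, ?_, ?_, ?_⟩
      · rw [habs _ _ he0, sub_self, sub_self, abs_zero]
        nlinarith
      · linarith
      · linarith
      · have : 1 - xa - 0 ≤ max 0 (1 - xa - 0) := hτc
        linarith
  · -- xc = 0
    subst h0
    have he0 : 0 ≤ xa + xb - 1 := by linarith
    rcases le_total (1 / 2) xa with hj | hj
    · have hB := excess_bracket (xj := xa) (xk := xb) (lj := la) (lk := lb) (w := w) rfl he0 hj hxa1 h1 h2 hla hlb hxb0 hw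
      refine ⟨xa - (xa + xb - 1), xb, 0, by linarith, hxb0, le_refl _, by ring, ?_, ?_, ?_, ?_⟩
      · rw [habs _ _ he0, sub_self, sub_self, abs_zero]
        nlinarith
      · linarith
      · linarith
      · linarith
    · have hj' : 1 / 2 ≤ xb := by linarith
      have hB := excess_bracket (xj := xb) (xk := xa) (lj := lb) (lk := la) (w := w) (e := xa + xb - 1) (by ring) he0 hj' hxb1 h2 h1 hlb hla hxa0 hw
      refine ⟨xa, xb - (xa + xb - 1), 0, hxa0, by linarith, le_refl _, by ring, ?_, ?_, ?_, ?_⟩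
      · rw [habs _ _ he0, sub_self, sub_self, abs_zero]
        nlinarith
      · linarith
      · linarith
      · linarith

end

end Vale.Agent.Lib.P235
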