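import Vale.Agent.Lib.P235.Step1

namespace Vale.Agent.Lib.P235

noncomputable section

/-- Region invariance for one step. -/
lemma region_step {xa xb xc pa pb q : ℝ}
    (hxa0 : 0 ≤ xa) (hxa1 : xa ≤ 1) (hxb0 : 0 ≤ xb) (hxb1 : xb ≤ 1) (hxc0 : 0 ≤ xc) (hxc1 : xc ≤ 1)
    (hexc : Exc xa xb xc)
    (hpa0 : 0 ≤ pa) (hpa1 : pa ≤ 1) (hpb0 : 0 ≤ pb) (hpb1 : pb ≤ 1) (hq0 : 0 ≤ q) (hq1 : q ≤ 1)
    (hsum : pa + pb + q ≤ 1 + 1 / 48) :
    (0 ≤ pa + xa * (1 - pa - pb) ∧ pa + xa * (1 - pa - pb) ≤ 1) ∧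
    (0 ≤ pb + xb * (1 - pa - pb) ∧ pb + xb * (1 - pa - pb) ≤ 1) ∧
    (0 ≤ xc * q ∧ xc * q ≤ 1) ∧
    (pa + xa * (1 - pa - pb)) + (pb + xb * (1 - pa - pb)) + xc * q ≤ 1 + 1 / 48 := by
  refine ⟨⟨?_, ?_⟩, ⟨?_, ?_⟩, ⟨mul_nonneg hxc0 hq0, mul_le_one₀ hxc1 hq0 hq1⟩, ?_⟩
  · have e : pa + xa * (1 - pa - pb) = (1 - xa) * pa + xa * (1 - pb) := by ring
    rw [e]
    have := mul_nonneg (sub_nonneg.2 hxa1) hpa0
    have := mul_nonneg hxa0 (sub_nonneg.2 hpb1)
    linarith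
  · have e : 1 - (pa + xa * (1 - pa - pb)) = (1 - xa) * (1 - pa) + xa * pb := by ring
    have := mul_nonneg (sub_nonneg.2 hxa1) (sub_nonneg.2 hpa1)
    have := mul_nonneg hxa0 hpb0
    linarith
  · have e : pb + xb * (1 - pa - pb) = (1 - xb) * pb + xb * (1 - pa) := by ring
    rw [e]
    have := mul_nonneg (sub_nonneg.2 hxb1) hpb0
    have := mul_nonneg hxb0 (sub_nonneg.2 hpa1)
    linarith
  · have e : 1 - (pb + xb * (1 - pa - pb)) = (1 - xb) * (1 - pb) + xb * pa := by ring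
    have := mul_nonneg (sub_nonneg.2 hxb1) (sub_nonneg.2 hpb1)
    have := mul_nonneg hxb0 hpa0
    linarith
  · -- the sum
    have hid : (pa + xa * (1 - pa - pb)) + (pb + xb * (1 - pa - pb)) + xc * q - 1
        = (1 - pa - pb) * (xa + xb + xc - 1) + xc * (pa + pb + q - 1) := by ring
    have h1 : xc * (pa + pb + q - 1) ≤ xc * (1 / 48) :=
      mul_le_mul_of_nonneg_left (by linarith) hxc0
    by_cases hX : xa + xb + xc ≤ 1
    · rcases le_total 0 (1 - pa - pb) with h2 | h2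
      · have := mul_nonneg h2 (sub_nonneg.2 hX)
        nlinarith
      · have h3 : 1 - pa - pb ≥ - (1 / 48) := by linarith
        have h4 := mul_nonneg (by linarith : (0:ℝ) ≤ (1 - pa - pb) + 1 / 48) (sub_nonneg.2 hX)
        nlinarith
    · have he : 0 ≤ xa + xb + xc - 1 := by linarith [not_le.1 hX]
      have h2 : (1 - pa - pb) * (xa + xb + xc - 1) ≤ xa + xb + xc - 1 := by
        have := mul_nonneg (by linarith : (0:ℝ) ≤ pa + pb) he
        nlinarith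
      rcases hexc with h | ⟨h0, h3, h4⟩ | ⟨h0, h3, h4⟩ | ⟨h0, h3, h4⟩
      · exact absurd h hX
      · subst h0; linarith
      · subst h0; linarith
      · subst h0; linarith

/-- Penalty bounds at vertices `a`, `b` for regime P. -/
lemma P_pen_vertex {l1 l2 lc x1 x2 xc w p1 p2 q a1 : ℝ}
    (hl1 : 0 ≤ l1) (hl2 : 0 ≤ l2) (hlc : 0 ≤ lc)
    (hx10 : 0 ≤ x1) (hx11 : x1 ≤ 1) (hx20 : 0 ≤ x2) (hx21 : x2 ≤ 1) (hxc0 : 0 ≤ xc) (hxc1 : xc ≤ 1)
    (hw : 0 ≤ w) (hp1 : 0 ≤ p1) (hp2 : 0 ≤ p2) (hq0 : 0 ≤ q) (hq1 : q ≤ 1)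
    (hP1 : p1 + x1 * (1 - p1 - p2) < 2 / 3 + 1 / 48)
    (hgap : 13 / 48 < xc → 1 / 4 ≤ 1 - x1)
    (ha10 : 0 ≤ a1) (ha1 : 95 * a1 ≤ 96 * (1 - xc)) :
    pen l1 lc (1 - (p1 + x1 * (1 - p1 - p2)) - xc * q)
        - pen (l1 - x1 * l1 + x2 * l2) (w + xc * lc) (1 - p1 - q)
      ≤ 22000000 * (100 * (x1 * l1 * (1 - x1) + x2 * l2 * (1 - x2)) + 4 * (w + xc * lc * (1 - xc))) ∧
    a1 * pen l1 lc (1 - (p1 + x1 * (1 - p1 - p2)) - xc * q)
      ≤ 22000000 * (4 * (w + xc * lc * (1 - xc))) := by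
  have hs1 : 0 ≤ x1 * l1 := mul_nonneg hx10 hl1
  have hs2 : 0 ≤ x2 * l2 := mul_nonneg hx20 hl2
  have hsc : 0 ≤ xc * lc := mul_nonneg hxc0 hlc
  have hs11 : x1 * l1 ≤ l1 := mul_le_of_le_one_left hl1 hx11
  have hv1 : 0 ≤ x1 * l1 * (1 - x1) := mul_nonneg hs1 (by linarith)
  have hv2 : 0 ≤ x2 * l2 * (1 - x2) := mul_nonneg hs2 (by linarith)
  have hv3 : 0 ≤ xc * lc * (1 - xc) := mul_nonneg hsc (by linarith)
  have hl1' : 0 ≤ l1 - x1 * l1 + x2 * l2 := by linarith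
  have hh : 0 ≤ w + xc * lc := by linarith
  have hP' := pen_nonneg hl1' hh (1 - p1 - q)
  by_cases hu : 1 / 24 ≤ 1 - (p1 + x1 * (1 - p1 - p2)) - xc * q
  · rw [pen_eq_zero _ _ hu]
    constructor <;> linarith
  · have hu' := not_le.1 hu
    have hxq : xc * q ≤ xc := mul_le_of_le_one_right hxc0 hq1
    have hxc : 13 / 48 < xc := by linarith
    have h1 := hgap hxc
    have hD := pen_diff_core (l1 := l1) (l1' := l1 - x1 * l1 + x2 * l2) (lc := lc)
      (h := w + xc * lc) (u := 1 - (p1 + x1 * (1 - p1 - p2)) - xc * q) (u' := 1 - p1 - q)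
      (x1 := x1) (xc := xc) hl1 hlc hl1' hh hx10 hxc1 (by linarith) (by linarith)
      (by
        have h2 := mul_nonneg (sub_nonneg.2 hxc1) hq0
        have h3 : x1 * (1 - p1 - p2) ≤ x1 := by
          have := mul_nonneg hx10 (by linarith : (0:ℝ) ≤ p1 + p2)
          nlinarith
        nlinarith)
    have h4 : x1 * l1 ≤ 4 * (x1 * l1 * (1 - x1)) := by nlinarith
    have hlc1 : 0 ≤ lc * (1 - xc) := mul_nonneg hlc (by linarith)
    have h5 : lc * (1 - xc) ≤ (48 / 13) * (xc * lc * (1 - xc)) := by nlinarith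
    constructor
    · linarith
    · have h6 := pen_le_right hl1 hlc (1 - (p1 + x1 * (1 - p1 - p2)) - xc * q)
      have h7 := mul_le_mul_of_nonneg_left h6 ha10
      have h8 : a1 * lc ≤ (96 / 95) * (lc * (1 - xc)) := by nlinarith
      nlinarith

/-- Penalty bound at vertex `c` for regime P. -/
lemma P_pen_c {la lb xa xb ac Y : ℝ} (hla : 0 ≤ la) (hlb : 0 ≤ lb)
    (hxa0 : 0 ≤ xa) (hxa1 : xa ≤ 1) (hxb0 : 0 ≤ xb) (hxb1 : xb ≤ 1)
    (hY : 1 / 5 ≤ Y) (hac : 0 ≤ ac) (hac1 : 95 * ac ≤ 96 * max 0 (1 - xa - xb)) :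
    ac * pen la lb (Y * (1 - xa - xb))
      ≤ 22000000 * (2 * (xa * la * (1 - xa) + xb * lb * (1 - xb))) := by
  have hsa : 0 ≤ xa * la := mul_nonneg hxa0 hla
  have hsb : 0 ≤ xb * lb := mul_nonneg hxb0 hlb
  have hv1 : 0 ≤ xa * la * (1 - xa) := mul_nonneg hsa (by linarith)
  have hv2 : 0 ≤ xb * lb * (1 - xb) := mul_nonneg hsb (by linarith)
  by_cases hτ : 5 / 24 ≤ 1 - xa - xb
  · have : 1 / 24 ≤ Y * (1 - xa - xb) := by nlinarith
    rw [pen_eq_zero _ _ this]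
    nlinarith
  · have hτ' := not_le.1 hτ
    rcases le_total (1 - xa - xb) 0 with h0 | h0
    · rw [max_eq_left h0] at hac1
      have : ac = 0 := by linarith
      rw [this]
      nlinarith
    · rw [max_eq_right h0] at hac1
      unfold pen
      set m := min la lb with hm
      have hm0 : 0 ≤ m := le_min hla hlb
      have hm1 : m ≤ la := min_le_left _ _
      have hm2 : m ≤ lb := min_le_right _ _
      have hg0 := gate_nonneg (Y * (1 - xa - xb))
      have hg1 := gate_le_one (Y * (1 - xa - xb))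
      have h1 : m * gate (Y * (1 - xa - xb)) ≤ m := mul_le_of_le_one_right hm0 hg1
      have h2 : 0 ≤ m * gate (Y * (1 - xa - xb)) := mul_nonneg hm0 hg0
      -- V2 lower bound
      have h3 : xa * m * (1 - xa) ≤ xa * la * (1 - xa) := by
        apply mul_le_mul_of_nonneg_right (mul_le_mul_of_nonneg_left hm1 hxa0) (by linarith)
      have h4 : xb * m * (1 - xb) ≤ xb * lb * (1 - xb) := by
        apply mul_le_mul_of_nonneg_right (mul_le_mul_of_nonneg_left hm2 hxb0) (by linarith)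
      have h5 : (1 - xa - xb) * (xa + xb) * m ≤ xa * m * (1 - xa) + xb * m * (1 - xb) := by
        have h6 : 0 ≤ xa * m * xb := mul_nonneg (mul_nonneg hxa0 hm0) hxb0
        nlinarith
      have h7 : (1 - xa - xb) * (19 / 24) * m ≤ (1 - xa - xb) * (xa + xb) * m := by
        apply mul_le_mul_of_nonneg_right _ hm0
        apply mul_le_mul_of_nonneg_left _ h0
        linarith
      have h8 : ac * m ≤ (96 / 95) * ((1 - xa - xb) * m) := by
        have := mul_le_mul_of_nonneg_right hac1 hm0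
        nlinarith
      have h9 : ac * (22000000 * m * gate (Y * (1 - xa - xb))) ≤ 22000000 * (ac * m) := by
        have := mul_le_mul_of_nonneg_left h1 hac
        nlinarith
      nlinarith

/-- The pen-free route bound from `star_F`. -/
lemma route_base {la lb lc xa xb xc w ra rb rc rz ma mb mz pa pb q aa ab ac : ℝ}
    (hla : 0 ≤ la) (hlb : 0 ≤ lb) (hlc : 0 ≤ lc)
    (hxa0 : 0 ≤ xa) (hxa1 : xa ≤ 1) (hxb0 : 0 ≤ xb) (hxb1 : xb ≤ 1) (hxc0 : 0 ≤ xc) (hxc1 : xc ≤ 1)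
    (hw : 0 ≤ w)
    (hra : ra ≤ rz + 1000000 * (w + la - xa * la + xb * lb + xc * lc))
    (hrb : rb ≤ rz + 1000000 * (w + lb + xa * la - xb * lb + xc * lc))
    (hrc : rc ≤ rz + 1000000 * (w + lc + xa * la + xb * lb - xc * lc))
    (hmz : 0 ≤ mz) (hm : ma + mb + mz = 1)
    (haa : 0 ≤ aa) (hab : 0 ≤ ab) (hac : 0 ≤ ac) (hα : aa + ab + ac = 1) :
    (ma + aa * mz) * ra + (mb + ab * mz) * rb + (ac * mz) * rc
      + 4000000 * F0 la lb lc (pa + xa * (1 - pa - pb)) (pb + xb * (1 - pa - pb)) (xc * q)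
        (ma + aa * mz) (mb + ab * mz) (ac * mz)
      ≤ ma * ra + mb * rb + mz * rz
        + 4000000 * F0 (la - xa * la + xb * lb) (lb - xb * lb + xa * la) (w + xc * lc) pa pb q ma mb mz
        + 3 * 4000000 * w * q
        + 4000000 * (mz * ((1 / 4) * (aa * (w + la - xa * la + xb * lb + xc * lc)
            + ab * (w + lb + xa * la - xb * lb + xc * lc)
            + ac * (w + lc + xa * la + xb * lb - xc * lc))
            + la * |aa - xa| + lb * |ab - xb| + lc * |ac - xc| - w)) := by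
  have hRR := route_R (ma := ma) (mb := mb) hra hrb hrc hmz haa hab hac hα
  have hFF := star_F (aa := aa) (ab := ab) (ac := ac) (ma := ma) (mb := mb) (mz := mz) (pa := pa)
    (pb := pb) (q := q) hla hlb hlc hxa0 hxa1 hxb0 hxb1 hxc0 hxc1 hw hmz hm
  unfold F0
  linarith

/-- The pen-free route bound from `star2_F`. -/
lemma route_base2 {la lb lc xa xb xc w ra rb rc rz ma mb mz pa pb q aa ab ac : ℝ}
    (hla : 0 ≤ la) (hlb : 0 ≤ lb) (hlc : 0 ≤ lc)
    (hxa0 : 0 ≤ xa) (hxa1 : xa ≤ 1) (hxb0 : 0 ≤ xb) (hxb1 : xb ≤ 1) (hxc0 : 0 ≤ xc) (hxc1 : xc ≤ 1)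
    (hra : ra ≤ rz + 1000000 * (w + la - xa * la + xb * lb + xc * lc))
    (hrb : rb ≤ rz + 1000000 * (w + lb + xa * la - xb * lb + xc * lc))
    (hrc : rc ≤ rz + 1000000 * (w + lc + xa * la + xb * lb - xc * lc))
    (hmz : 0 ≤ mz) (hm : ma + mb + mz = 1) (hq0 : 0 ≤ q) (hq : q ≤ 1 / 3)
    (haa : 0 ≤ aa) (hab : 0 ≤ ab) (hac : 0 ≤ ac) (hα : aa + ab + ac = 1) :
    (ma + aa * mz) * ra + (mb + ab * mz) * rb + (ac * mz) * rc
      + 4000000 * F0 la lb lc (pa + xa * (1 - pa - pb)) (pb + xb * (1 - pa - pb)) (xc * q)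
        (ma + aa * mz) (mb + ab * mz) (ac * mz)
      ≤ ma * ra + mb * rb + mz * rz
        + 4000000 * F0 (la - xa * la + xb * lb) (lb - xb * lb + xa * la) (w + xc * lc) pa pb q ma mb mz
        + 3 * 4000000 * w * q
        + 4000000 * (mz * ((1 / 4) * (aa * (w + la - xa * la + xb * lb + xc * lc)
            + ab * (w + lb + xa * la - xb * lb + xc * lc)
            + ac * (w + lc + xa * la + xb * lb - xc * lc))
            + la * |aa - xa| + lb * |ab - xb| + ac * lc - (w + xc * lc))) := by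
  have hRR := route_R (ma := ma) (mb := mb) hra hrb hrc hmz haa hab hac hα
  have hFF := star2_F (aa := aa) (ab := ab) (ac := ac) (ma := ma) (mb := mb) (mz := mz) (pa := pa)
    (pb := pb) (q := q) (w := w) hla hlb hlc hxa0 hxa1 hxb0 hxb1 hxc0 hxc1 hmz hm hq0 hq hac
  unfold F0
  linarith

/-- Abstract combination of the penalty bounds in regime P. -/
lemma P_pens_abstract {PA PB PC PA' PB' PZ' V1 V2 ma mb mz aa ab ac : ℝ}
    (hV1 : 0 ≤ V1) (hV2 : 0 ≤ V2) (hPZ' : 0 ≤ PZ')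
    (hma : 0 ≤ ma) (hmb : 0 ≤ mb) (hmz : 0 ≤ mz) (hm : ma + mb + mz = 1)
    (h1 : PA - PA' ≤ 22000000 * (100 * V2 + 4 * V1))
    (h2 : PB - PB' ≤ 22000000 * (100 * V2 + 4 * V1))
    (h3 : aa * PA ≤ 22000000 * (4 * V1)) (h4 : ab * PB ≤ 22000000 * (4 * V1))
    (h5 : ac * PC ≤ 22000000 * (2 * V2)) :
    (ma + aa * mz) * PA + (mb + ab * mz) * PB + (ac * mz) * PC
      ≤ ma * PA' + mb * PB' + mz * PZ' + 22000000 * (110 * (V1 + V2)) := by
  have h6 := mul_le_mul_of_nonneg_left h1 hma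
  have h7 := mul_le_mul_of_nonneg_left h2 hmb
  have h8 := mul_le_mul_of_nonneg_left h3 hmz
  have h9 := mul_le_mul_of_nonneg_left h4 hmz
  have h10 := mul_le_mul_of_nonneg_left h5 hmz
  have h11 := mul_nonneg hmz hPZ'
  set X := V1 + V2 with hX
  have hX0 : 0 ≤ X := by linarith
  have h12 : ma * (22000000 * (100 * V2 + 4 * V1)) + mb * (22000000 * (100 * V2 + 4 * V1))
      + mz * (22000000 * (4 * V1)) + mz * (22000000 * (4 * V1)) + mz * (22000000 * (2 * V2))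
      ≤ 22000000 * (110 * X) := by
    have e : mz = 1 - ma - mb := by linarith
    have h13 : ma * V1 + mb * V1 ≤ V1 := by nlinarith
    have h14 : ma * V2 + mb * V2 ≤ V2 := by nlinarith
    rw [hX, e]
    nlinarith [mul_nonneg hma hV1, mul_nonneg hma hV2, mul_nonneg hmb hV1, mul_nonneg hmb hV2]
  nlinarith

lemma gain_abstract {V1 V2 q Y : ℝ} (hV1 : 0 ≤ V1) (hV2 : 0 ≤ V2) (hq : 1 / 4 ≤ q) (hY : 1 / 5 ≤ Y) :
    (V1 + V2) / 25 ≤ V1 * q ^ 2 + V2 * Y ^ 2 := by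
  have h1 : (1 / 4 : ℝ) ^ 2 ≤ q ^ 2 := pow_le_pow_left₀ (by norm_num) hq 2
  have h2 : (1 / 5 : ℝ) ^ 2 ≤ Y ^ 2 := pow_le_pow_left₀ (by norm_num) hY 2
  have h3 := mul_le_mul_of_nonneg_left h1 hV1
  have h4 := mul_le_mul_of_nonneg_left h2 hV2
  norm_num at h3 h4
  linarith

/-- Regime P: `q ≥ 1/4`. -/
theorem regimeP {la lb lc xa xb xc w ra rb rc rz ma mb mz pa pb q : ℝ}
    (H : StepHyp la lb lc xa xb xc w ra rb rc rz)
    (hma : 0 ≤ ma) (hmb : 0 ≤ mb) (hmz : 0 ≤ mz) (hm : ma + mb + mz = 1)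
    (hpa0 : 0 ≤ pa) (hpa1 : pa ≤ 1) (hpb0 : 0 ≤ pb) (hpb1 : pb ≤ 1) (hq1 : q ≤ 1)
    (hsum : pa + pb + q ≤ 1 + 1 / 48) (hq : 1 / 4 ≤ q) :
    ∃ na nb nc : ℝ, 0 ≤ na ∧ 0 ≤ nb ∧ 0 ≤ nc ∧ na + nb + nc = 1 ∧
      val0 ra rb rc la lb lc (pa + xa * (1 - pa - pb)) (pb + xb * (1 - pa - pb)) (xc * q) na nb nc
      ≤ val0 ra rb rz (la - xa * la + xb * lb) (lb - xb * lb + xa * la) (w + xc * lc) pa pb q ma mb mz
        + 1000000000000 * ((w + xc * lc * (1 - xc)) * q ^ 2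
            + (xa * la * (1 - xa) + xb * lb * (1 - xb)) * (1 - pa - pb) ^ 2)
        + 3 * 4000000 * w * q := by
  obtain ⟨hla, hlb, hlc, hxa0, hxa1, hxb0, hxb1, hxc0, hxc1, hw, hra, hrb, hrc, hab, hba, hac, hca,
    hbc, hcb, hexc, hnoise⟩ := H
  have hq0 : 0 ≤ q := by linarith
  have hreg := region_step hxa0 hxa1 hxb0 hxb1 hxc0 hxc1 hexc hpa0 hpa1 hpb0 hpb1 hq0 hq1 hsum
  obtain ⟨⟨hPa0, hPa1⟩, ⟨hPb0, hPb1⟩, ⟨hPc0, hPc1⟩, hPsum⟩ := hreg
  obtain ⟨aa, ab, ac, haa, hab', hac', hα, hBk, hR1, hR2, hR3⟩ :=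
    P_route hla hlb hlc hxa0 hxa1 hxb0 hxb1 hxc0 hxc1 hw hexc hnoise
  have hsa : 0 ≤ xa * la := mul_nonneg hxa0 hla
  have hsb : 0 ≤ xb * lb := mul_nonneg hxb0 hlb
  have hsc : 0 ≤ xc * lc := mul_nonneg hxc0 hlc
  have hsa1 : xa * la ≤ la := mul_le_of_le_one_left hla hxa1
  have hsb1 : xb * lb ≤ lb := mul_le_of_le_one_left hlb hxb1
  have hv1 : 0 ≤ xa * la * (1 - xa) := mul_nonneg hsa (by linarith)
  have hv2 : 0 ≤ xb * lb * (1 - xb) := mul_nonneg hsb (by linarith)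
  have hv3 : 0 ≤ xc * lc * (1 - xc) := mul_nonneg hsc (by linarith)
  have hla' : 0 ≤ la - xa * la + xb * lb := by linarith
  have hlb' : 0 ≤ lb - xb * lb + xa * la := by linarith
  have hh : 0 ≤ w + xc * lc := by linarith
  have hV10 : 0 ≤ w + xc * lc * (1 - xc) := by linarith
  have hV20 : 0 ≤ xa * la * (1 - xa) + xb * lb * (1 - xb) := by linarith
  have hmz1 : mz ≤ 1 := by linarith
  have hgain := gain_abstract (q := q) (Y := 1 - pa - pb) hV10 hV20 hq (by linarith)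
  have hbase := route_base (ra := ra) (rb := rb) (rc := rc) (rz := rz) (ma := ma) (mb := mb)
    (mz := mz) (pa := pa) (pb := pb) (q := q) (aa := aa) (ab := ab) (ac := ac)
    hla hlb hlc hxa0 hxa1 hxb0 hxb1 hxc0 hxc1 hw hra hrb hrc hmz hm haa hab' hac' hα
  have hBkm := mul_le_mul_of_nonneg_left hBk hmz
  have hBkm2 := mul_le_mul_of_nonneg_right hmz1 (mul_nonneg (by norm_num : (0:ℝ) ≤ 132) (add_nonneg hV10 hV20))
  generalize (mz * ((1 / 4) * (aa * (w + la - xa * la + xb * lb + xc * lc)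
            + ab * (w + lb + xa * la - xb * lb + xc * lc)
            + ac * (w + lc + xa * la + xb * lb - xc * lc))
            + la * |aa - xa| + lb * |ab - xb| + lc * |ac - xc| - w)) = BB at hbase hBkm
  have hPA0 := pen_nonneg hlb' hh (1 - pb - q)
  have hPB0 := pen_nonneg hh hla' (1 - q - pa)
  have hPZ0 := pen_nonneg hla' hlb' (1 - pa - pb)
  have hval' : val0 ra rb rz (la - xa * la + xb * lb) (lb - xb * lb + xa * la) (w + xc * lc) pa pb q ma mb mz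
      = ma * (ra + pen (lb - xb * lb + xa * la) (w + xc * lc) (1 - pb - q))
        + mb * (rb + pen (w + xc * lc) (la - xa * la + xb * lb) (1 - q - pa))
        + mz * (rz + pen (la - xa * la + xb * lb) (lb - xb * lb + xa * la) (1 - pa - pb))
        + 4000000 * F0 (la - xa * la + xb * lb) (lb - xb * lb + xa * la) (w + xc * lc) pa pb q ma mb mz := by
    rfl
  have hgain2 := mul_le_mul_of_nonneg_left hgain (by norm_num : (0:ℝ) ≤ 1000000000000)
  refine step_conclude (ra := ra) (rb := rb) (rc := rc) (na := ma + aa * mz)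
    (nb := mb + ab * mz) (nc := ac * mz)
    hla hlb hlc hPa0 hPb0 hPc0 hPsum hab hba hac hca hbc hcb
    (add_nonneg hma (mul_nonneg haa hmz)) (add_nonneg hmb (mul_nonneg hab' hmz))
    (mul_nonneg hac' hmz)
    (by
      have : ac = 1 - aa - ab := by linarith
      subst this
      have : mz = 1 - ma - mb := by linarith
      subst this
      ring)
    ?_ ?_
  · rw [hval']
    have h1 := mul_nonneg hma hPA0
    have h2 := mul_nonneg hmb hPB0
    have h3 := mul_nonneg hmz hPZ0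
    linarith
  · intro hnPa hnPb hnPc
    rw [hval']
    have hgapb : 13 / 48 < xc → 1 / 4 ≤ 1 - xb := by
      intro hxc
      rcases hexc with h | ⟨h0, h1, h2⟩ | ⟨h0, h1, h2⟩ | ⟨h0, h1, h2⟩
      · linarith
      · linarith
      · subst h0; norm_num
      · subst h0; linarith
    have hgapa : 13 / 48 < xc → 1 / 4 ≤ 1 - xa := by
      intro hxc
      rcases hexc with h | ⟨h0, h1, h2⟩ | ⟨h0, h1, h2⟩ | ⟨h0, h1, h2⟩
      · linarith
      · subst h0; norm_num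
      · linarith
      · subst h0; linarith
    obtain ⟨hA1, hA2⟩ := P_pen_vertex (l1 := lb) (l2 := la) (lc := lc) (x1 := xb) (x2 := xa)
      (xc := xc) (w := w) (p1 := pb) (p2 := pa) (q := q) (a1 := aa)
      hlb hla hlc hxb0 hxb1 hxa0 hxa1 hxc0 hxc1 hw hpb0 hpa0 hq0 hq1
      (by
        have e : pb + xb * (1 - pb - pa) = pb + xb * (1 - pa - pb) := by ring
        rw [e]; exact hnPb) hgapb haa hR1
    obtain ⟨hB1, hB2⟩ := P_pen_vertex (l1 := la) (l2 := lb) (lc := lc) (x1 := xa) (x2 := xb)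
      (xc := xc) (w := w) (p1 := pa) (p2 := pb) (q := q) (a1 := ab)
      hla hlb hlc hxa0 hxa1 hxb0 hxb1 hxc0 hxc1 hw hpa0 hpb0 hq0 hq1 hnPa hgapa hab' hR2
    have hC := P_pen_c (la := la) (lb := lb) (xa := xa) (xb := xb) (ac := ac)
      (Y := 1 - pa - pb) hla hlb hxa0 hxa1 hxb0 hxb1 (by linarith) hac' hR3
    -- syntactic adjustments of the penalty arguments
    have eA : 1 - (pb + xb * (1 - pb - pa)) - xc * q = 1 - (pb + xb * (1 - pa - pb)) - xc * q := by ring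
    have eB : 1 - (pa + xa * (1 - pa - pb)) - xc * q = 1 - xc * q - (pa + xa * (1 - pa - pb)) := by ring
    have eB2 : 1 - pa - q = 1 - q - pa := by ring
    have eC : (1 - pa - pb) * (1 - xa - xb)
        = 1 - (pa + xa * (1 - pa - pb)) - (pb + xb * (1 - pa - pb)) := by ring
    rw [eA] at hA1 hA2
    rw [eB, eB2, pen_comm la lc, pen_comm (la - xa * la + xb * lb) (w + xc * lc)] at hB1
    rw [eB, pen_comm la lc] at hB2
    rw [eC] at hC
    have hP := P_pens_abstract (PA' := pen (lb - xb * lb + xa * la) (w + xc * lc) (1 - pb - q))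
      (PB' := pen (w + xc * lc) (la - xa * la + xb * lb) (1 - q - pa))
      (PZ' := pen (la - xa * la + xb * lb) (lb - xb * lb + xa * la) (1 - pa - pb))
      (ma := ma) (mb := mb) (mz := mz) (aa := aa) (ab := ab) (ac := ac)
      hV10 hV20 hPZ0 hma hmb hmz hm
      (by linarith) (by linarith) hA2 hB2 hC
    unfold val0
    have hnum : 0 ≤ 1000000000000 * ((w + xc * lc * (1 - xc) + (xa * la * (1 - xa) + xb * lb * (1 - xb))) / 25)
        - 4000000 * (132 * (w + xc * lc * (1 - xc) + (xa * la * (1 - xa) + xb * lb * (1 - xb))))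
        - 22000000 * (110 * (w + xc * lc * (1 - xc) + (xa * la * (1 - xa) + xb * lb * (1 - xb)))) := by
      linarith
    linarith

end

end Vale.Agent.Lib.P235
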