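import Vale.Agent.Lib.P235.Step2

namespace Vale.Agent.Lib.P235

noncomputable section

/-- Swap symmetry of the value in its first two vertices. -/
lemma val0_swap (ra rb rz la lb h pa pb q ma mb mz : ℝ) :
    val0 ra rb rz la lb h pa pb q ma mb mz = val0 rb ra rz lb la h pb pa q mb ma mz := by
  unfold val0 F0
  rw [show 1 - pa - q = 1 - q - pa by ring, show 1 - pb - q = 1 - q - pb by ring,
    show 1 - pb - pa = 1 - pa - pb by ring, pen_comm la h, pen_comm lb h, pen_comm lb la]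
  ring

/-- Shifting mass from `z` to `a` while `a` is overfull. -/
lemma shift_a {ra rb rz la lb h pa pb q ma mb mz : ℝ}
    (hla : 0 ≤ la) (hh : 0 ≤ h) (hpb0 : 0 ≤ pb) (hq0 : 0 ≤ q) (hq : q < 1 / 4)
    (hsum : pa + pb + q ≤ 1 + 1 / 48) (hma : 0 ≤ ma) (hmz : 0 ≤ mz) (hm : ma + mb + mz = 1)
    (hra : ra ≤ rz + 1000000 * (la + h)) (hG : ma - 3 * pa + 1 < 0) :
    ∃ ma' mz' : ℝ, 0 ≤ ma' ∧ 0 ≤ mz' ∧ mz' ≤ mz ∧ ma' + mb + mz' = 1 ∧
      (mz' = 0 ∨ 0 ≤ ma' - 3 * pa + 1) ∧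
      (0 ≤ pen la lb (1 - pa - pb) →
        val0 ra rb rz la lb h pa pb q ma' mb mz' ≤ val0 ra rb rz la lb h pa pb q ma mb mz) := by
  set δ := min mz (-(ma - 3 * pa + 1)) with hδ
  have hδ0 : 0 ≤ δ := le_min hmz (by linarith)
  have hδ1 : δ ≤ mz := min_le_left _ _
  have hδ2 : δ ≤ -(ma - 3 * pa + 1) := min_le_right _ _
  refine ⟨ma + δ, mz - δ, by linarith, by linarith, by linarith, by linarith, ?_, ?_⟩
  · rcases le_total mz (-(ma - 3 * pa + 1)) with h1 | h1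
    · left; rw [hδ, min_eq_left h1]; ring
    · right; rw [hδ, min_eq_right h1]; linarith
  · intro hPZ
    have hPA : pen lb h (1 - pb - q) = 0 := pen_eq_zero _ _ (by linarith)
    unfold val0 F0
    rw [hPA]
    have e1 : g3 (ma + δ) pa = g3 ma pa - δ := by
      unfold g3
      rw [abs_of_nonpos (by linarith), abs_of_nonpos (by linarith)]; ring
    have e2 : g3 (mz - δ) q = g3 mz q - δ := by
      unfold g3
      rw [abs_of_nonneg (by linarith), abs_of_nonneg (by linarith)]; ring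
    rw [e1, e2]
    have h1 := mul_le_mul_of_nonneg_left hra hδ0
    have h2 := mul_nonneg hδ0 (add_nonneg hla hh)
    have h3 := mul_nonneg hδ0 hPZ
    nlinarith

/-- Normalization in the regime `q < 1/4`. -/
lemma normalize {ra rb rz la lb h pa pb q ma mb mz : ℝ}
    (hla : 0 ≤ la) (hlb : 0 ≤ lb) (hh : 0 ≤ h) (hpa0 : 0 ≤ pa) (hpb0 : 0 ≤ pb) (hq0 : 0 ≤ q) (hq : q < 1 / 4)
    (hsum : pa + pb + q ≤ 1 + 1 / 48) (hma : 0 ≤ ma) (hmb : 0 ≤ mb) (hmz : 0 ≤ mz) (hm : ma + mb + mz = 1)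
    (hra : ra ≤ rz + 1000000 * (la + h)) (hrb : rb ≤ rz + 1000000 * (lb + h)) :
    ∃ ma' mb' mz' : ℝ, 0 ≤ ma' ∧ 0 ≤ mb' ∧ 0 ≤ mz' ∧ ma' + mb' + mz' = 1 ∧
      (mz' = 0 ∨ (0 ≤ ma' - 3 * pa + 1 ∧ 0 ≤ mb' - 3 * pb + 1)) ∧
      val0 ra rb rz la lb h pa pb q ma' mb' mz' ≤ val0 ra rb rz la lb h pa pb q ma mb mz := by
  have hPZ : 0 ≤ pen la lb (1 - pa - pb) := pen_nonneg hla hlb _
  -- first step
  have step1 : ∃ ma1 mz1 : ℝ, 0 ≤ ma1 ∧ 0 ≤ mz1 ∧ ma1 + mb + mz1 = 1 ∧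
      (mz1 = 0 ∨ 0 ≤ ma1 - 3 * pa + 1) ∧
      val0 ra rb rz la lb h pa pb q ma1 mb mz1 ≤ val0 ra rb rz la lb h pa pb q ma mb mz := by
    by_cases hG : ma - 3 * pa + 1 < 0
    · obtain ⟨ma1, mz1, h1, h2, _, h4, h5, h6⟩ :=
        shift_a (ra := ra) (rb := rb) (rz := rz) (lb := lb) hla hh hpb0 hq0 hq hsum hma hmz hm hra hG
      exact ⟨ma1, mz1, h1, h2, h4, h5, h6 hPZ⟩
    · exact ⟨ma, mz, hma, hmz, hm, Or.inr (not_lt.1 hG), le_refl _⟩
  obtain ⟨ma1, mz1, h1, h2, h3, h4, h5⟩ := step1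
  by_cases hG : mb - 3 * pb + 1 < 0
  · obtain ⟨mb2, mz2, h6, h7, h8, h9, h10, h11⟩ :=
      shift_a (ra := rb) (rb := ra) (rz := rz) (lb := la) (la := lb) (h := h) (pa := pb) (pb := pa)
        (q := q) (ma := mb) (mb := ma1) (mz := mz1) hlb hh hpa0 hq0 hq (by linarith) hmb h2
        (by linarith) hrb hG
    have hPZ' : 0 ≤ pen lb la (1 - pb - pa) := pen_nonneg hlb hla _
    have h12 := h11 hPZ'
    have h12' : val0 ra rb rz la lb h pa pb q ma1 mb2 mz2 ≤ val0 ra rb rz la lb h pa pb q ma1 mb mz1 := by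
      rw [val0_swap ra rb rz la lb h pa pb q ma1 mb2 mz2, val0_swap ra rb rz la lb h pa pb q ma1 mb mz1]
      exact h12
    refine ⟨ma1, mb2, mz2, h1, h6, h7, by linarith, ?_, le_trans h12' h5⟩
    rcases h10 with h10 | h10
    · left; exact h10
    · rcases h4 with h4 | h4
      · left; linarith
      · right; exact ⟨h4, h10⟩
  · refine ⟨ma1, mb, mz1, h1, hmb, h2, h3, ?_, h5⟩
    rcases h4 with h4 | h4
    · left; exact h4
    · right; exact ⟨h4, not_lt.1 hG⟩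

/-- `xa la' + xb lb' ≤ 2 V2` when `xa + xb ≤ 1`. -/
lemma xl_le_2V2 {la lb xa xb : ℝ} (hla : 0 ≤ la) (hlb : 0 ≤ lb) (hxa0 : 0 ≤ xa) (hxb0 : 0 ≤ xb)
    (h : xa + xb ≤ 1) :
    xa * (la - xa * la + xb * lb) + xb * (lb - xb * lb + xa * la)
      ≤ 2 * (xa * la * (1 - xa) + xb * lb * (1 - xb)) := by
  have h1 : xa * (xb * lb) ≤ xb * lb * (1 - xb) := by
    have := mul_le_mul_of_nonneg_left (by linarith : xa ≤ 1 - xb) (mul_nonneg hxb0 hlb)
    linarith
  have h2 : xb * (xa * la) ≤ xa * la * (1 - xa) := by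
    have := mul_le_mul_of_nonneg_left (by linarith : xb ≤ 1 - xa) (mul_nonneg hxa0 hla)
    linarith
  nlinarith

/-- `V2 ≤ la'` (and by symmetry `V2 ≤ lb'`). -/
lemma V2_le_leg {la lb xa xb : ℝ} (hla : 0 ≤ la) (hlb : 0 ≤ lb) (hxa0 : 0 ≤ xa) (hxa1 : xa ≤ 1)
    (hxb0 : 0 ≤ xb) (hxb1 : xb ≤ 1) :
    xa * la * (1 - xa) + xb * lb * (1 - xb) ≤ la - xa * la + xb * lb := by
  have h1 : xa * (la * (1 - xa)) ≤ 1 * (la * (1 - xa)) :=
    mul_le_mul_of_nonneg_right hxa1 (mul_nonneg hla (by linarith))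
  have h2 : xb * lb * (1 - xb) ≤ xb * lb * 1 :=
    mul_le_mul_of_nonneg_left (by linarith) (mul_nonneg hxb0 hlb)
  nlinarith

/-- Penalty transfer at the slot `c`. -/
lemma slotc_pen {la lb xa xb Y : ℝ} (hla : 0 ≤ la) (hlb : 0 ≤ lb)
    (hxa0 : 0 ≤ xa) (hxa1 : xa ≤ 1) (hxb0 : 0 ≤ xb) (hxb1 : xb ≤ 1) (hτ : 0 ≤ 1 - xa - xb)
    (hY : 0 ≤ Y) :
    (1 - xa - xb) * pen la lb (Y * (1 - xa - xb))
        - pen (la - xa * la + xb * lb) (lb - xb * lb + xa * la) Y
      ≤ 22000000 * (48 * (Y * (xa * la * (1 - xa) + xb * lb * (1 - xb)))) := by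
  unfold pen
  set m := min la lb with hm
  set m' := min (la - xa * la + xb * lb) (lb - xb * lb + xa * la) with hm'
  have hm0 : 0 ≤ m := le_min hla hlb
  have hm1 : m ≤ la := min_le_left _ _
  have hm2 : m ≤ lb := min_le_right _ _
  have hsa : 0 ≤ xa * la := mul_nonneg hxa0 hla
  have hsb : 0 ≤ xb * lb := mul_nonneg hxb0 hlb
  have hsa1 : xa * la ≤ la := mul_le_of_le_one_left hla hxa1
  have hsb1 : xb * lb ≤ lb := mul_le_of_le_one_left hlb hxb1
  have hm'0 : 0 ≤ m' := le_min (by linarith) (by linarith)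
  have hm'1 : m' ≤ la - xa * la + xb * lb := min_le_left _ _
  have hm'2 : m' ≤ lb - xb * lb + xa * la := min_le_right _ _
  have hτm : (1 - xa - xb) * m ≤ m' := by
    apply le_min
    · have h1 := mul_le_mul_of_nonneg_left hm1 hτ
      have h2 : (1 - xa - xb) * la ≤ la - xa * la := by nlinarith
      linarith
    · have h1 := mul_le_mul_of_nonneg_left hm2 hτ
      have h2 : (1 - xa - xb) * lb ≤ lb - xb * lb := by nlinarith
      linarith
  have hg0 := gate_nonneg (Y * (1 - xa - xb))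
  have hg1 := gate_lip (Y * (1 - xa - xb)) Y
  have hmax : max 0 (Y - Y * (1 - xa - xb)) = Y * (xa + xb) := by
    rw [max_eq_right (by have := mul_nonneg hY (add_nonneg hxa0 hxb0); nlinarith)]; ring
  rw [hmax] at hg1
  have h3 := mul_le_mul_of_nonneg_right hτm hg0
  have h4 := mul_le_mul_of_nonneg_left hg1 hm'0
  have h5 : m' * (xa + xb) ≤ xa * (la - xa * la + xb * lb) + xb * (lb - xb * lb + xa * la) := by
    have h6 := mul_le_mul_of_nonneg_left hm'1 hxa0
    have h7 := mul_le_mul_of_nonneg_left hm'2 hxb0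
    linarith
  have h8 := xl_le_2V2 hla hlb hxa0 hxb0 (by linarith : xa + xb ≤ 1)
  have h9 : m' * (xa + xb) ≤ 2 * (xa * la * (1 - xa) + xb * lb * (1 - xb)) := by linarith
  have h10 := mul_le_mul_of_nonneg_left h9 hY
  nlinarith

/-- The route for regime L1, from the noise condition. -/
lemma L1_route {la lb lc xa xb xc w : ℝ}
    (hla : 0 ≤ la) (hlb : 0 ≤ lb) (hlc : 0 ≤ lc)
    (hxa0 : 0 ≤ xa) (hxa1 : xa ≤ 1) (hxb0 : 0 ≤ xb) (hxb1 : xb ≤ 1) (hxc0 : 0 ≤ xc)
    (hw : 0 ≤ w) (hexc : Exc xa xb xc) (hnoise : Noise la lb lc xa xb xc w) :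
    ∃ aa ab ac : ℝ, 0 ≤ aa ∧ 0 ≤ ab ∧ 0 ≤ ac ∧ aa + ab + ac = 1 ∧
      (1 / 4) * (aa * (w + la - xa * la + xb * lb + xc * lc)
        + ab * (w + lb + xa * la - xb * lb + xc * lc)
        + ac * (w + lc + xa * la + xb * lb - xc * lc))
        + la * |aa - xa| + lb * |ab - xb| + ac * lc - (w + xc * lc)
        ≤ 130 * (xa * la * (1 - xa) + xb * lb * (1 - xb)) ∧
      (ac = 0 ∨ (ac = 1 - xa - xb ∧ 0 ≤ 1 - xa - xb)) := by
  have hsa : 0 ≤ xa * la := mul_nonneg hxa0 hla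
  have hsb : 0 ≤ xb * lb := mul_nonneg hxb0 hlb
  have hsa1 : xa * la ≤ la := mul_le_of_le_one_left hla hxa1
  have hsb1 : xb * lb ≤ lb := mul_le_of_le_one_left hlb hxb1
  have hv1 : 0 ≤ xa * la * (1 - xa) := mul_nonneg hsa (by linarith)
  have hv2 : 0 ≤ xb * lb * (1 - xb) := mul_nonneg hsb (by linarith)
  obtain ⟨Du, lu, hslot, hn⟩ := hnoise
  by_cases hτ : 0 ≤ 1 - xa - xb
  · rw [max_eq_right hτ] at hn
    rcases hslot with ⟨rfl, rfl⟩ | ⟨rfl, rfl⟩ | ⟨rfl, rfl⟩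
    · refine ⟨xa + (1 - xa - xb), xb, 0, by linarith, hxb0, le_refl _, by ring, ?_, Or.inl rfl⟩
      have e1 : |xa + (1 - xa - xb) - xa| = 1 - xa - xb := by
        rw [show xa + (1 - xa - xb) - xa = 1 - xa - xb by ring, abs_of_nonneg hτ]
      rw [e1, sub_self, abs_zero]
      linarith
    · refine ⟨xa, xb + (1 - xa - xb), 0, hxa0, by linarith, le_refl _, by ring, ?_, Or.inl rfl⟩
      have e1 : |xb + (1 - xa - xb) - xb| = 1 - xa - xb := by
        rw [show xb + (1 - xa - xb) - xb = 1 - xa - xb by ring, abs_of_nonneg hτ]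
      rw [e1, sub_self, abs_zero]
      linarith
    · refine ⟨xa, xb, 1 - xa - xb, hxa0, hxb0, hτ, by ring, ?_, Or.inr ⟨rfl, hτ⟩⟩
      rw [sub_self, sub_self, abs_zero]
      linarith
  · have hτ' := not_le.1 hτ
    rw [max_eq_left hτ'.le] at hn
    have habs : ∀ x e : ℝ, 0 ≤ e → |x - e - x| = e := by
      intro x e he
      rw [show x - e - x = -e by ring, abs_neg, abs_of_nonneg he]
    rcases hexc with h | ⟨h0, h1, h2⟩ | ⟨h0, h1, h2⟩ | ⟨h0, h1, h2⟩
    · have := mul_nonneg hxc0 hlc; linarith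
    · linarith
    · linarith
    · subst h0
      have he0 : 0 ≤ xa + xb - 1 := by linarith
      rcases le_total (1 / 2) xa with hj | hj
      · obtain ⟨h3, -, -⟩ := excess_facts (xj := xa) (xk := xb) (lj := la) (lk := lb) (e := xa + xb - 1)
          rfl he0 hj h1 h2 hla hlb hxb0
        have hDa : 0 ≤ w + la - xa * la + xb * lb + 0 * lc := by linarith
        have h4 := mul_nonneg he0 hDa
        refine ⟨xa - (xa + xb - 1), xb, 0, by linarith, hxb0, le_refl _, by ring, ?_, Or.inl rfl⟩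
        rw [habs _ _ he0, sub_self, abs_zero]
        nlinarith
      · have hj' : 1 / 2 ≤ xb := by linarith
        obtain ⟨h3, -, -⟩ := excess_facts (xj := xb) (xk := xa) (lj := lb) (lk := la) (e := xa + xb - 1)
          (by ring) he0 hj' h2 h1 hlb hla hxa0
        have hDb : 0 ≤ w + lb + xa * la - xb * lb + 0 * lc := by linarith
        have h4 := mul_nonneg he0 hDb
        refine ⟨xa, xb - (xa + xb - 1), 0, hxa0, by linarith, le_refl _, by ring, ?_, Or.inl rfl⟩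
        rw [habs _ _ he0, sub_self, abs_zero]
        nlinarith

/-- The route for regime L2 in the case without excess, with slot `a`. -/
lemma L2_core {la lb xa xb h : ℝ}
    (hla : 0 ≤ la) (hlb : 0 ≤ lb) (hxa0 : 0 ≤ xa) (hxa1 : xa ≤ 1) (hxb0 : 0 ≤ xb) (hxb1 : xb ≤ 1)
    (hτ : 0 ≤ 1 - xa - xb) (hh : 0 ≤ h) :
    (1 / 4) * ((xa + (1 - xa - xb)) * ((la - xa * la + xb * lb) + h)
        + xb * ((lb - xb * lb + xa * la) + h)) + la * (1 - xa - xb) - h
      ≤ (7 / 4) * (la - xa * la + xb * lb) := by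
  have h1 := xl_le_2V2 hla hlb hxa0 hxb0 (by linarith : xa + xb ≤ 1)
  have h2 := V2_le_leg hla hlb hxa0 hxa1 hxb0 hxb1
  have hla' : 0 ≤ la - xa * la + xb * lb := by
    have := mul_le_of_le_one_left hla hxa1
    have := mul_nonneg hxb0 hlb
    linarith
  have h3 : (1 - xa - xb) * (la - xa * la + xb * lb) ≤ 1 * (la - xa * la + xb * lb) :=
    mul_le_mul_of_nonneg_right (by linarith) hla'
  have h4 : la * (1 - xa - xb) ≤ la - xa * la + xb * lb := by
    have := mul_nonneg hxb0 hlb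
    nlinarith
  nlinarith

/-- The route for regime L2. -/
lemma L2_route {la lb lc xa xb xc w : ℝ}
    (hla : 0 ≤ la) (hlb : 0 ≤ lb) (hlc : 0 ≤ lc)
    (hxa0 : 0 ≤ xa) (hxa1 : xa ≤ 1) (hxb0 : 0 ≤ xb) (hxb1 : xb ≤ 1) (hxc0 : 0 ≤ xc)
    (hw : 0 ≤ w) (hexc : Exc xa xb xc) :
    ∃ aa ab : ℝ, 0 ≤ aa ∧ 0 ≤ ab ∧ aa + ab = 1 ∧
      (1 / 4) * (aa * (w + la - xa * la + xb * lb + xc * lc)
        + ab * (w + lb + xa * la - xb * lb + xc * lc))
        + la * |aa - xa| + lb * |ab - xb| - (w + xc * lc)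
        ≤ (7 / 4) * min (la - xa * la + xb * lb) (lb - xb * lb + xa * la) := by
  have hsa : 0 ≤ xa * la := mul_nonneg hxa0 hla
  have hsb : 0 ≤ xb * lb := mul_nonneg hxb0 hlb
  have hsc : 0 ≤ xc * lc := mul_nonneg hxc0 hlc
  have hsa1 : xa * la ≤ la := mul_le_of_le_one_left hla hxa1
  have hsb1 : xb * lb ≤ lb := mul_le_of_le_one_left hlb hxb1
  have hv1 : 0 ≤ xa * la * (1 - xa) := mul_nonneg hsa (by linarith)
  have hv2 : 0 ≤ xb * lb * (1 - xb) := mul_nonneg hsb (by linarith)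
  by_cases hτ : 0 ≤ 1 - xa - xb
  · rcases le_total (la - xa * la + xb * lb) (lb - xb * lb + xa * la) with hm | hm
    · rw [min_eq_left hm]
      have h1 := L2_core (h := w + xc * lc) hla hlb hxa0 hxa1 hxb0 hxb1 hτ (by linarith)
      refine ⟨xa + (1 - xa - xb), xb, by linarith, hxb0, by ring, ?_⟩
      have e1 : |xa + (1 - xa - xb) - xa| = 1 - xa - xb := by
        rw [show xa + (1 - xa - xb) - xa = 1 - xa - xb by ring, abs_of_nonneg hτ]
      rw [e1, sub_self, abs_zero]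
      linarith
    · rw [min_eq_right hm]
      have h1 := L2_core (h := w + xc * lc) (la := lb) (lb := la) (xa := xb) (xb := xa) hlb hla hxb0 hxb1 hxa0 hxa1 (by linarith) (by linarith)
      refine ⟨xa, xb + (1 - xa - xb), hxa0, by linarith, by ring, ?_⟩
      have e1 : |xb + (1 - xa - xb) - xb| = 1 - xa - xb := by
        rw [show xb + (1 - xa - xb) - xb = 1 - xa - xb by ring, abs_of_nonneg hτ]
      rw [e1, sub_self, abs_zero]
      have e2 : 1 - xb - xa = 1 - xa - xb := by ring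
      rw [e2] at h1
      linarith
  · have hτ' := not_le.1 hτ
    have habs : ∀ x e : ℝ, 0 ≤ e → |x - e - x| = e := by
      intro x e he
      rw [show x - e - x = -e by ring, abs_neg, abs_of_nonneg he]
    rcases hexc with h | ⟨h0, h1, h2⟩ | ⟨h0, h1, h2⟩ | ⟨h0, h1, h2⟩
    · linarith
    · linarith
    · linarith
    · subst h0
      have he0 : 0 ≤ xa + xb - 1 := by linarith
      have hV1 := V2_le_leg hla hlb hxa0 hxa1 hxb0 hxb1
      have hV2 : xa * la * (1 - xa) + xb * lb * (1 - xb) ≤ lb - xb * lb + xa * la := by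
        have := V2_le_leg hlb hla hxb0 hxb1 hxa0 hxa1
        linarith
      have hV3 : xa * la * (1 - xa) + xb * lb * (1 - xb)
          ≤ min (la - xa * la + xb * lb) (lb - xb * lb + xa * la) := le_min hV1 hV2
      -- xa la' + xb lb' ≤ 3 V2
      have h3 : xa * (xb * lb) ≤ (96 / 95) * (xb * lb * (1 - xb)) := by
        have h4 : xa ≤ (96 / 95) * (1 - xb) := by linarith
        have := mul_le_mul_of_nonneg_left h4 hsb
        linarith
      have h5 : xb * (xa * la) ≤ (96 / 95) * (xa * la * (1 - xa)) := by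
        have h4 : xb ≤ (96 / 95) * (1 - xa) := by linarith
        have := mul_le_mul_of_nonneg_left h4 hsa
        linarith
      have h6 : xa * (la - xa * la + xb * lb) + xb * (lb - xb * lb + xa * la)
          ≤ 3 * (xa * la * (1 - xa) + xb * lb * (1 - xb)) := by nlinarith
      have hla' : 0 ≤ la - xa * la + xb * lb := by linarith
      have hlb' : 0 ≤ lb - xb * lb + xa * la := by linarith
      rcases le_total (1 / 2) xa with hj | hj
      · obtain ⟨h7, -, -⟩ := excess_facts (xj := xa) (xk := xb) (lj := la) (lk := lb) (e := xa + xb - 1)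
          rfl he0 hj h1 h2 hla hlb hxb0
        refine ⟨xa - (xa + xb - 1), xb, by linarith, hxb0, by ring, ?_⟩
        rw [habs _ _ he0, sub_self, abs_zero]
        have h8 := mul_nonneg he0 hla'
        nlinarith
      · have hj' : 1 / 2 ≤ xb := by linarith
        obtain ⟨h7, -, -⟩ := excess_facts (xj := xb) (xk := xa) (lj := lb) (lk := la) (e := xa + xb - 1)
          (by ring) he0 hj' h2 h1 hlb hla hxa0
        refine ⟨xa, xb - (xa + xb - 1), hxa0, by linarith, by ring, ?_⟩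
        rw [habs _ _ he0, sub_self, abs_zero]
        have h8 := mul_nonneg he0 hlb'
        nlinarith

end

end Vale.Agent.Lib.P235
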