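import Vale.Agent.Lib.P235.Step3

namespace Vale.Agent.Lib.P235

noncomputable section

/-- Penalties at `a`, `b` vanish in the non-integer case with small `q`. -/
lemma pens_vanish {xc q Pb : ℝ} (lb lc : ℝ) (hxc0 : 0 ≤ xc) (hxc1 : xc ≤ 1) (hq0 : 0 ≤ q) (hq : q < 1 / 4)
    (hPb : Pb < 2 / 3 + 1 / 48) :
    pen lb lc (1 - Pb - xc * q) = 0 := by
  apply pen_eq_zero
  have : xc * q ≤ q := mul_le_of_le_one_left hq0 hxc1
  linarith

lemma pen_ge_half {l1 l2 u : ℝ} (h1 : 0 ≤ l1) (h2 : 0 ≤ l2) (hu : u ≤ 1 / 48) :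
    11000000 * min l1 l2 ≤ pen l1 l2 u := by
  unfold pen
  have h3 := gate_ge_half hu
  have h4 : 0 ≤ min l1 l2 := le_min h1 h2
  nlinarith

/-- Regime L2: `q < 1/4` and `Y < 1/48`. -/
theorem regimeL2 {la lb lc xa xb xc w ra rb rc rz ma mb mz pa pb q : ℝ}
    (H : StepHyp la lb lc xa xb xc w ra rb rc rz)
    (hma : 0 ≤ ma) (hmb : 0 ≤ mb) (hmz : 0 ≤ mz) (hm : ma + mb + mz = 1)
    (hpa0 : 0 ≤ pa) (hpa1 : pa ≤ 1) (hpb0 : 0 ≤ pb) (hpb1 : pb ≤ 1) (hq0 : 0 ≤ q)
    (hsum : pa + pb + q ≤ 1 + 1 / 48) (hq : q < 1 / 4) (hY : 1 - pa - pb ≤ 1 / 48) :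
    ∃ na nb nc : ℝ, 0 ≤ na ∧ 0 ≤ nb ∧ 0 ≤ nc ∧ na + nb + nc = 1 ∧
      val0 ra rb rc la lb lc (pa + xa * (1 - pa - pb)) (pb + xb * (1 - pa - pb)) (xc * q) na nb nc
      ≤ val0 ra rb rz (la - xa * la + xb * lb) (lb - xb * lb + xa * la) (w + xc * lc) pa pb q ma mb mz
        + 3 * 4000000 * w * q := by
  obtain ⟨hla, hlb, hlc, hxa0, hxa1, hxb0, hxb1, hxc0, hxc1, hw, hra, hrb, hrc, hab, hba, hac, hca,
    hbc, hcb, hexc, hnoise⟩ := H
  have hq1 : q ≤ 1 := by linarith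
  have hreg := region_step hxa0 hxa1 hxb0 hxb1 hxc0 hxc1 hexc hpa0 hpa1 hpb0 hpb1 hq0 hq1 hsum
  obtain ⟨⟨hPa0, hPa1⟩, ⟨hPb0, hPb1⟩, ⟨hPc0, hPc1⟩, hPsum⟩ := hreg
  obtain ⟨aa, ab, haa, hab', hα, hBk⟩ := L2_route hla hlb hlc hxa0 hxa1 hxb0 hxb1 hxc0 hw hexc
  have hsa : 0 ≤ xa * la := mul_nonneg hxa0 hla
  have hsb : 0 ≤ xb * lb := mul_nonneg hxb0 hlb
  have hsc : 0 ≤ xc * lc := mul_nonneg hxc0 hlc
  have hsa1 : xa * la ≤ la := mul_le_of_le_one_left hla hxa1
  have hsb1 : xb * lb ≤ lb := mul_le_of_le_one_left hlb hxb1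
  have hla' : 0 ≤ la - xa * la + xb * lb := by linarith
  have hlb' : 0 ≤ lb - xb * lb + xa * la := by linarith
  have hh : 0 ≤ w + xc * lc := by linarith
  have hbase := route_base2 (ra := ra) (rb := rb) (rc := rc) (rz := rz) (ma := ma) (mb := mb)
    (mz := mz) (pa := pa) (pb := pb) (q := q) (aa := aa) (ab := ab) (ac := 0) (w := w)
    hla hlb hlc hxa0 hxa1 hxb0 hxb1 hxc0 hxc1 hra hrb hrc hmz hm hq0 (by linarith) haa hab'
    (le_refl _) (by linarith)
  have hBkm := mul_le_mul_of_nonneg_left hBk hmz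
  have hPZ := pen_ge_half hla' hlb' hY
  have hm0 : 0 ≤ min (la - xa * la + xb * lb) (lb - xb * lb + xa * la) := le_min hla' hlb'
  have hPZ2 := mul_le_mul_of_nonneg_left hPZ hmz
  have hm1 : 0 ≤ mz * min (la - xa * la + xb * lb) (lb - xb * lb + xa * la) := mul_nonneg hmz hm0
  have hPA0 := pen_nonneg hlb' hh (1 - pb - q)
  have hPB0 := pen_nonneg hh hla' (1 - q - pa)
  have hval' : val0 ra rb rz (la - xa * la + xb * lb) (lb - xb * lb + xa * la) (w + xc * lc) pa pb q ma mb mz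
      = ma * (ra + pen (lb - xb * lb + xa * la) (w + xc * lc) (1 - pb - q))
        + mb * (rb + pen (w + xc * lc) (la - xa * la + xb * lb) (1 - q - pa))
        + mz * (rz + pen (la - xa * la + xb * lb) (lb - xb * lb + xa * la) (1 - pa - pb))
        + 4000000 * F0 (la - xa * la + xb * lb) (lb - xb * lb + xa * la) (w + xc * lc) pa pb q ma mb mz := by
    rfl
  have hma0 := mul_nonneg hma hPA0
  have hmb0 := mul_nonneg hmb hPB0
  -- simplify the base bound
  have hbase' : (ma + aa * mz) * ra + (mb + ab * mz) * rb + (0 * mz) * rc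
      + 4000000 * F0 la lb lc (pa + xa * (1 - pa - pb)) (pb + xb * (1 - pa - pb)) (xc * q)
        (ma + aa * mz) (mb + ab * mz) (0 * mz)
      ≤ ma * ra + mb * rb + mz * rz
        + 4000000 * F0 (la - xa * la + xb * lb) (lb - xb * lb + xa * la) (w + xc * lc) pa pb q ma mb mz
        + 3 * 4000000 * w * q
        + mz * pen (la - xa * la + xb * lb) (lb - xb * lb + xa * la) (1 - pa - pb) := by
    have e : mz * ((1 / 4) * (aa * (w + la - xa * la + xb * lb + xc * lc)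
            + ab * (w + lb + xa * la - xb * lb + xc * lc)
            + 0 * (w + lc + xa * la + xb * lb - xc * lc))
            + la * |aa - xa| + lb * |ab - xb| + 0 * lc - (w + xc * lc))
        = mz * ((1 / 4) * (aa * (w + la - xa * la + xb * lb + xc * lc)
            + ab * (w + lb + xa * la - xb * lb + xc * lc))
            + la * |aa - xa| + lb * |ab - xb| - (w + xc * lc)) := by ring
    rw [e] at hbase
    have e2 : mz * ((7 / 4) * min (la - xa * la + xb * lb) (lb - xb * lb + xa * la)) = (7 / 4) * (mz * min (la - xa * la + xb * lb) (lb - xb * lb + xa * la)) := by ring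
    rw [e2] at hBkm
    have e3 : mz * (11000000 * min (la - xa * la + xb * lb) (lb - xb * lb + xa * la)) = 11000000 * (mz * min (la - xa * la + xb * lb) (lb - xb * lb + xa * la)) := by ring
    rw [e3] at hPZ2
    generalize mz * min (la - xa * la + xb * lb) (lb - xb * lb + xa * la) = MM at *
    generalize F0 la lb lc (pa + xa * (1 - pa - pb)) (pb + xb * (1 - pa - pb)) (xc * q)
        (ma + aa * mz) (mb + ab * mz) (0 * mz) = FF at *
    generalize F0 (la - xa * la + xb * lb) (lb - xb * lb + xa * la) (w + xc * lc) pa pb q ma mb mz = FF' at *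
    generalize mz * pen (la - xa * la + xb * lb) (lb - xb * lb + xa * la) (1 - pa - pb) = PP at *
    generalize (mz * ((1 / 4) * (aa * (w + la - xa * la + xb * lb + xc * lc)
            + ab * (w + lb + xa * la - xb * lb + xc * lc))
            + la * |aa - xa| + lb * |ab - xb| - (w + xc * lc))) = BB at *
    linarith
  refine step_conclude (ra := ra) (rb := rb) (rc := rc) (na := ma + aa * mz)
    (nb := mb + ab * mz) (nc := 0 * mz)
    hla hlb hlc hPa0 hPb0 hPc0 hPsum hab hba hac hca hbc hcb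
    (add_nonneg hma (mul_nonneg haa hmz)) (add_nonneg hmb (mul_nonneg hab' hmz))
    (by norm_num)
    (by
      have : ab = 1 - aa := by linarith
      subst this
      have : mz = 1 - ma - mb := by linarith
      subst this
      ring)
    ?_ ?_
  · rw [hval']
    generalize (F0 la lb lc (pa + xa * (1 - pa - pb)) (pb + xb * (1 - pa - pb)) (xc * q)
        (ma + aa * mz) (mb + ab * mz) (0 * mz)) = FF at *
    linarith
  · intro hnPa hnPb hnPc
    rw [hval']
    have hA := pens_vanish lb lc hxc0 hxc1 hq0 hq hnPb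
    have hB : pen lc la (1 - xc * q - (pa + xa * (1 - pa - pb))) = 0 := by
      have := pens_vanish lc la hxc0 hxc1 hq0 hq hnPa
      rw [← this]
      congr 1
      ring
    unfold val0
    rw [hA, hB]
    generalize (F0 la lb lc (pa + xa * (1 - pa - pb)) (pb + xb * (1 - pa - pb)) (xc * q)
        (ma + aa * mz) (mb + ab * mz) (0 * mz)) = FF at *
    have e : 0 * mz * (rc + pen la lb (1 - (pa + xa * (1 - pa - pb)) - (pb + xb * (1 - pa - pb)))) = 0 := by ring
    rw [e]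
    linarith

lemma L1_num {V2 Y mz : ℝ} (hY : 1 / 48 ≤ Y) (hV2 : 0 ≤ V2) (hmzY : mz ≤ 3 * Y) :
    mz * V2 ≤ 144 * (V2 * Y ^ 2) ∧ mz * (Y * V2) ≤ 3 * (V2 * Y ^ 2) := by
  have hY0 : 0 ≤ Y := by linarith
  have h1 : Y * V2 * 1 ≤ Y * V2 * (48 * Y) :=
    mul_le_mul_of_nonneg_left (by linarith) (mul_nonneg hY0 hV2)
  have h2 := mul_le_mul_of_nonneg_right hmzY hV2
  have h3 := mul_le_mul_of_nonneg_right hmzY (mul_nonneg hY0 hV2)
  constructor <;> nlinarith

lemma L1_hC {ac mz rc PC PZ V2 Y : ℝ} (hS : ac * PC - PZ ≤ 22000000 * (48 * (Y * V2)))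
    (hmz : 0 ≤ mz) (h4 : mz * (Y * V2) ≤ 3 * (V2 * Y ^ 2)) :
    ac * mz * (rc + PC) ≤ ac * mz * rc + mz * PZ + 22000000 * (144 * (V2 * Y ^ 2)) := by
  have h3 := mul_le_mul_of_nonneg_left hS hmz
  nlinarith

/-- Regime L1: `q < 1/4`, `Y ≥ 1/48` and `mz ≤ 3 Y`. -/
theorem regimeL1 {la lb lc xa xb xc w ra rb rc rz ma mb mz pa pb q : ℝ}
    (H : StepHyp la lb lc xa xb xc w ra rb rc rz)
    (hma : 0 ≤ ma) (hmb : 0 ≤ mb) (hmz : 0 ≤ mz) (hm : ma + mb + mz = 1)
    (hpa0 : 0 ≤ pa) (hpa1 : pa ≤ 1) (hpb0 : 0 ≤ pb) (hpb1 : pb ≤ 1) (hq0 : 0 ≤ q)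
    (hsum : pa + pb + q ≤ 1 + 1 / 48) (hq : q < 1 / 4) (hY : 1 / 48 ≤ 1 - pa - pb)
    (hmzY : mz ≤ 3 * (1 - pa - pb)) :
    ∃ na nb nc : ℝ, 0 ≤ na ∧ 0 ≤ nb ∧ 0 ≤ nc ∧ na + nb + nc = 1 ∧
      val0 ra rb rc la lb lc (pa + xa * (1 - pa - pb)) (pb + xb * (1 - pa - pb)) (xc * q) na nb nc
      ≤ val0 ra rb rz (la - xa * la + xb * lb) (lb - xb * lb + xa * la) (w + xc * lc) pa pb q ma mb mz
        + 1000000000000 * ((xa * la * (1 - xa) + xb * lb * (1 - xb)) * (1 - pa - pb) ^ 2)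
        + 3 * 4000000 * w * q := by
  obtain ⟨hla, hlb, hlc, hxa0, hxa1, hxb0, hxb1, hxc0, hxc1, hw, hra, hrb, hrc, hab, hba, hac, hca,
    hbc, hcb, hexc, hnoise⟩ := H
  have hq1 : q ≤ 1 := by linarith
  have hreg := region_step hxa0 hxa1 hxb0 hxb1 hxc0 hxc1 hexc hpa0 hpa1 hpb0 hpb1 hq0 hq1 hsum
  obtain ⟨⟨hPa0, hPa1⟩, ⟨hPb0, hPb1⟩, ⟨hPc0, hPc1⟩, hPsum⟩ := hreg
  obtain ⟨aa, ab, ac, haa, hab', hac', hα, hBk, hslot⟩ :=
    L1_route hla hlb hlc hxa0 hxa1 hxb0 hxb1 hxc0 hw hexc hnoise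
  have hsa : 0 ≤ xa * la := mul_nonneg hxa0 hla
  have hsb : 0 ≤ xb * lb := mul_nonneg hxb0 hlb
  have hsc : 0 ≤ xc * lc := mul_nonneg hxc0 hlc
  have hsa1 : xa * la ≤ la := mul_le_of_le_one_left hla hxa1
  have hsb1 : xb * lb ≤ lb := mul_le_of_le_one_left hlb hxb1
  have hv1 : 0 ≤ xa * la * (1 - xa) := mul_nonneg hsa (by linarith)
  have hv2 : 0 ≤ xb * lb * (1 - xb) := mul_nonneg hsb (by linarith)
  have hla' : 0 ≤ la - xa * la + xb * lb := by linarith
  have hlb' : 0 ≤ lb - xb * lb + xa * la := by linarith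
  have hh : 0 ≤ w + xc * lc := by linarith
  have hbase := route_base2 (ra := ra) (rb := rb) (rc := rc) (rz := rz) (ma := ma) (mb := mb)
    (mz := mz) (pa := pa) (pb := pb) (q := q) (aa := aa) (ab := ab) (ac := ac) (w := w)
    hla hlb hlc hxa0 hxa1 hxb0 hxb1 hxc0 hxc1 hra hrb hrc hmz hm hq0 (by linarith) haa hab'
    hac' hα
  have hPA0 := pen_nonneg hlb' hh (1 - pb - q)
  have hPB0 := pen_nonneg hh hla' (1 - q - pa)
  have hPZ0 := pen_nonneg hla' hlb' (1 - pa - pb)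
  have hval' : val0 ra rb rz (la - xa * la + xb * lb) (lb - xb * lb + xa * la) (w + xc * lc) pa pb q ma mb mz
      = ma * (ra + pen (lb - xb * lb + xa * la) (w + xc * lc) (1 - pb - q))
        + mb * (rb + pen (w + xc * lc) (la - xa * la + xb * lb) (1 - q - pa))
        + mz * (rz + pen (la - xa * la + xb * lb) (lb - xb * lb + xa * la) (1 - pa - pb))
        + 4000000 * F0 (la - xa * la + xb * lb) (lb - xb * lb + xa * la) (w + xc * lc) pa pb q ma mb mz := by
    rfl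
  have hma0 := mul_nonneg hma hPA0
  have hmb0 := mul_nonneg hmb hPB0
  have hmz0 := mul_nonneg hmz hPZ0
  generalize hV2 : xa * la * (1 - xa) + xb * lb * (1 - xb) = V2 at *
  have hV20 : 0 ≤ V2 := by rw [← hV2]; linarith
  generalize hYY : 1 - pa - pb = Y at *
  -- bounds on the bracket
  have hY0 : 0 ≤ Y := by linarith
  obtain ⟨hmzV, hmzYV⟩ := L1_num hY hV20 hmzY
  have hBkm := mul_le_mul_of_nonneg_left hBk hmz
  have hsq : mz * (130 * V2) ≤ 18720 * (V2 * Y ^ 2) := by linarith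
  have hsq0 : 0 ≤ V2 * Y ^ 2 := mul_nonneg hV20 (sq_nonneg _)
  refine step_conclude (ra := ra) (rb := rb) (rc := rc) (na := ma + aa * mz)
    (nb := mb + ab * mz) (nc := ac * mz)
    hla hlb hlc hPa0 hPb0 hPc0 hPsum hab hba hac hca hbc hcb
    (add_nonneg hma (mul_nonneg haa hmz)) (add_nonneg hmb (mul_nonneg hab' hmz))
    (mul_nonneg hac' hmz)
    (by
      have : ac = 1 - aa - ab := by linarith
      subst this
      have : mz = 1 - ma - mb := by linarith
      subst this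
      ring)
    ?_ ?_
  · rw [hval']
    generalize (F0 la lb lc (pa + xa * Y) (pb + xb * Y) (xc * q)
        (ma + aa * mz) (mb + ab * mz) (ac * mz)) = FF at *
    generalize F0 (la - xa * la + xb * lb) (lb - xb * lb + xa * la) (w + xc * lc) pa pb q ma mb mz = FF' at *
    generalize (mz * ((1 / 4) * (aa * (w + la - xa * la + xb * lb + xc * lc)
            + ab * (w + lb + xa * la - xb * lb + xc * lc)
            + ac * (w + lc + xa * la + xb * lb - xc * lc))
            + la * |aa - xa| + lb * |ab - xb| + ac * lc - (w + xc * lc))) = BB at *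
    linarith
  · intro hnPa hnPb hnPc
    rw [hval']
    have hA := pens_vanish lb lc hxc0 hxc1 hq0 hq hnPb
    have hB : pen lc la (1 - xc * q - (pa + xa * Y)) = 0 := by
      have := pens_vanish lc la hxc0 hxc1 hq0 hq hnPa
      rw [← this]
      congr 1
      ring
    unfold val0
    rw [hA, hB]
    have hC : ac * mz * (rc + pen la lb (1 - (pa + xa * Y) - (pb + xb * Y)))
        ≤ ac * mz * rc + mz * pen (la - xa * la + xb * lb) (lb - xb * lb + xa * la) Y
          + 22000000 * (144 * (V2 * Y ^ 2)) := by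
      rcases hslot with h0 | ⟨h0, h1⟩
      · rw [h0]
        have : 0 ≤ 22000000 * (144 * (V2 * Y ^ 2)) := by positivity
        have e0 : 0 * mz * (rc + pen la lb (1 - (pa + xa * Y) - (pb + xb * Y))) = 0 * mz * rc := by ring
        rw [e0]
        linarith
      · have hS := slotc_pen (la := la) (lb := lb) (xa := xa) (xb := xb) (Y := Y)
          hla hlb hxa0 hxa1 hxb0 hxb1 h1 hY0
        rw [hV2] at hS
        rw [← h0] at hS
        have e : 1 - (pa + xa * Y) - (pb + xb * Y) = Y * ac := by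
          rw [h0, ← hYY]; ring
        rw [e]
        exact L1_hC hS hmz hmzYV
    generalize (F0 la lb lc (pa + xa * Y) (pb + xb * Y) (xc * q)
        (ma + aa * mz) (mb + ab * mz) (ac * mz)) = FF at *
    generalize F0 (la - xa * la + xb * lb) (lb - xb * lb + xa * la) (w + xc * lc) pa pb q ma mb mz = FF' at *
    generalize (mz * ((1 / 4) * (aa * (w + la - xa * la + xb * lb + xc * lc)
            + ab * (w + lb + xa * la - xb * lb + xc * lc)
            + ac * (w + lc + xa * la + xb * lb - xc * lc))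
            + la * |aa - xa| + lb * |ab - xb| + ac * lc - (w + xc * lc))) = BB at *
    linarith

/-- Regime L: `q < 1/4`. -/
theorem regimeL {la lb lc xa xb xc w ra rb rc rz ma mb mz pa pb q : ℝ}
    (H : StepHyp la lb lc xa xb xc w ra rb rc rz)
    (hma : 0 ≤ ma) (hmb : 0 ≤ mb) (hmz : 0 ≤ mz) (hm : ma + mb + mz = 1)
    (hpa0 : 0 ≤ pa) (hpa1 : pa ≤ 1) (hpb0 : 0 ≤ pb) (hpb1 : pb ≤ 1) (hq0 : 0 ≤ q)
    (hsum : pa + pb + q ≤ 1 + 1 / 48) (hq : q < 1 / 4) :
    ∃ na nb nc : ℝ, 0 ≤ na ∧ 0 ≤ nb ∧ 0 ≤ nc ∧ na + nb + nc = 1 ∧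
      val0 ra rb rc la lb lc (pa + xa * (1 - pa - pb)) (pb + xb * (1 - pa - pb)) (xc * q) na nb nc
      ≤ val0 ra rb rz (la - xa * la + xb * lb) (lb - xb * lb + xa * la) (w + xc * lc) pa pb q ma mb mz
        + 1000000000000 * ((w + xc * lc * (1 - xc)) * q ^ 2
            + (xa * la * (1 - xa) + xb * lb * (1 - xb)) * (1 - pa - pb) ^ 2)
        + 3 * 4000000 * w * q := by
  have hla := H.hla
  have hlb := H.hlb
  have hlc := H.hlc
  have hxa0 := H.hxa0
  have hxa1 := H.hxa1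
  have hxb0 := H.hxb0
  have hxb1 := H.hxb1
  have hxc0 := H.hxc0
  have hxc1 := H.hxc1
  have hw := H.hw
  have hsa : 0 ≤ xa * la := mul_nonneg hxa0 hla
  have hsb : 0 ≤ xb * lb := mul_nonneg hxb0 hlb
  have hsc : 0 ≤ xc * lc := mul_nonneg hxc0 hlc
  have hsa1 : xa * la ≤ la := mul_le_of_le_one_left hla hxa1
  have hsb1 : xb * lb ≤ lb := mul_le_of_le_one_left hlb hxb1
  have hv1 : 0 ≤ xa * la * (1 - xa) := mul_nonneg hsa (by linarith)
  have hv2 : 0 ≤ xb * lb * (1 - xb) := mul_nonneg hsb (by linarith)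
  have hv3 : 0 ≤ xc * lc * (1 - xc) := mul_nonneg hsc (by linarith)
  have hla' : 0 ≤ la - xa * la + xb * lb := by linarith
  have hlb' : 0 ≤ lb - xb * lb + xa * la := by linarith
  have hh : 0 ≤ w + xc * lc := by linarith
  obtain ⟨ma', mb', mz', h1, h2, h3, h4, h5, h6⟩ := normalize (ra := ra) (rb := rb) (rz := rz)
    hla' hlb' hh hpa0 hpb0 hq0 hq hsum hma hmb hmz hm
    (by have := H.hra; linarith) (by have := H.hrb; linarith)
  have hgain1 : 0 ≤ (w + xc * lc * (1 - xc)) * q ^ 2 := mul_nonneg (by linarith) (sq_nonneg _)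
  have hgain2 : 0 ≤ (xa * la * (1 - xa) + xb * lb * (1 - xb)) * (1 - pa - pb) ^ 2 :=
    mul_nonneg (by linarith) (sq_nonneg _)
  rcases le_total (1 - pa - pb) (1 / 48) with hY | hY
  · obtain ⟨na, nb, nc, h7, h8, h9, h10, h11⟩ :=
      regimeL2 H h1 h2 h3 h4 hpa0 hpa1 hpb0 hpb1 hq0 hsum hq hY
    exact ⟨na, nb, nc, h7, h8, h9, h10, by linarith⟩
  · have hmzY : mz' ≤ 3 * (1 - pa - pb) := by
      rcases h5 with h5 | ⟨h5, h5'⟩
      · rw [h5]; linarith
      · linarith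
    obtain ⟨na, nb, nc, h7, h8, h9, h10, h11⟩ :=
      regimeL1 H h1 h2 h3 h4 hpa0 hpa1 hpb0 hpb1 hq0 hsum hq hY hmzY
    exact ⟨na, nb, nc, h7, h8, h9, h10, by linarith⟩

/-- The potential identity along a step. -/
lemma potential_id (la lb lc xa xb xc w pa pb q : ℝ) :
    (w * q + la * ((pa + xa * (1 - pa - pb)) * (1 - (pa + xa * (1 - pa - pb))))
        + lb * ((pb + xb * (1 - pa - pb)) * (1 - (pb + xb * (1 - pa - pb))))
        + lc * ((xc * q) * (1 - xc * q)))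
      - ((la - xa * la + xb * lb) * (pa * (1 - pa)) + (lb - xb * lb + xa * la) * (pb * (1 - pb))
        + (w + xc * lc) * (q * (1 - q)))
      = (w + xc * lc * (1 - xc)) * q ^ 2
        + (xa * la * (1 - xa) + xb * lb * (1 - xb)) * (1 - pa - pb) ^ 2 := by
  ring

/-- The main step of the certificate. -/
theorem claim_step {la lb lc xa xb xc w ra rb rc rz ma mb mz pa pb q W : ℝ}
    (H : StepHyp la lb lc xa xb xc w ra rb rc rz)
    (hma : 0 ≤ ma) (hmb : 0 ≤ mb) (hmz : 0 ≤ mz) (hm : ma + mb + mz = 1)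
    (hpa0 : 0 ≤ pa) (hpa1 : pa ≤ 1) (hpb0 : 0 ≤ pb) (hpb1 : pb ≤ 1) (hq0 : 0 ≤ q) (hq1 : q ≤ 1)
    (hsum : pa + pb + q ≤ 1 + 1 / 48)
    (hval : val0 ra rb rz (la - xa * la + xb * lb) (lb - xb * lb + xa * la) (w + xc * lc) pa pb q ma mb mz
      ≤ 3 * 4000000 * W + 1000000000000 * (W + ((la - xa * la + xb * lb) * (pa * (1 - pa))
        + (lb - xb * lb + xa * la) * (pb * (1 - pb)) + (w + xc * lc) * (q * (1 - q))))) :
    ∃ na nb nc : ℝ, 0 ≤ na ∧ 0 ≤ nb ∧ 0 ≤ nc ∧ na + nb + nc = 1 ∧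
      val0 ra rb rc la lb lc (pa + xa * (1 - pa - pb)) (pb + xb * (1 - pa - pb)) (xc * q) na nb nc
      ≤ 3 * 4000000 * (W + w * q) + 1000000000000 * ((W + w * q)
        + (la * ((pa + xa * (1 - pa - pb)) * (1 - (pa + xa * (1 - pa - pb))))
        + lb * ((pb + xb * (1 - pa - pb)) * (1 - (pb + xb * (1 - pa - pb))))
        + lc * ((xc * q) * (1 - xc * q)))) := by
  have hid := potential_id la lb lc xa xb xc w pa pb q
  have hmain : ∃ na nb nc : ℝ, 0 ≤ na ∧ 0 ≤ nb ∧ 0 ≤ nc ∧ na + nb + nc = 1 ∧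
      val0 ra rb rc la lb lc (pa + xa * (1 - pa - pb)) (pb + xb * (1 - pa - pb)) (xc * q) na nb nc
      ≤ val0 ra rb rz (la - xa * la + xb * lb) (lb - xb * lb + xa * la) (w + xc * lc) pa pb q ma mb mz
        + 1000000000000 * ((w + xc * lc * (1 - xc)) * q ^ 2
            + (xa * la * (1 - xa) + xb * lb * (1 - xb)) * (1 - pa - pb) ^ 2)
        + 3 * 4000000 * w * q := by
    rcases le_or_gt (1 / 4) q with hq | hq
    · exact regimeP H hma hmb hmz hm hpa0 hpa1 hpb0 hpb1 hq1 hsum hq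
    · exact regimeL H hma hmb hmz hm hpa0 hpa1 hpb0 hpb1 hq0 hsum hq
  obtain ⟨na, nb, nc, h1, h2, h3, h4, h5⟩ := hmain
  refine ⟨na, nb, nc, h1, h2, h3, h4, ?_⟩
  rw [← hid] at h5
  generalize val0 ra rb rc la lb lc (pa + xa * (1 - pa - pb)) (pb + xb * (1 - pa - pb)) (xc * q) na nb nc = A at *
  generalize val0 ra rb rz (la - xa * la + xb * lb) (lb - xb * lb + xa * la) (w + xc * lc) pa pb q ma mb mz = A' at *
  linarith

/-- The final estimate: a certificate gives a close bag vertex. -/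
lemma g3_lower {m p : ℝ} (hp0 : 0 ≤ p) (hp1 : p ≤ 1) (hm : 0 ≤ m) (hm1 : m ≤ 1) :
    -(9 / 2) * (p * (1 - p)) ≤ g3 m p := by
  unfold g3
  rcases le_total (1 / 3) p with h | h
  · -- p ≥ 1/3
    have h1 : 3 * p - m - 1 ≤ |m - 3 * p + 1| := by
      have := neg_abs_le (m - 3 * p + 1); linarith
    rcases le_total p (2 / 3) with h2 | h2
    · have h3 : 0 ≤ |m - 3 * p + 1| := abs_nonneg _
      nlinarith
    · nlinarith
  · have h1 : m - 3 * p + 1 ≤ |m - 3 * p + 1| := le_abs_self _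
    nlinarith

end

end Vale.Agent.Lib.P235
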