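import Vale.Agent.Lib.P235.TreeElim
import Vale.Agent.Lib.P235.Final

namespace Vale.Agent.Lib.P235

noncomputable section

open Function

variable {V : Type} [DecidableEq V]

/-- A system with only combinatorial data. -/
def mk0 (par : V ⊕ Fin 3 → Option ((V ⊕ Fin 3) × Fin 3)) (Tb : V ⊕ Fin 3 → Fin 3 → V ⊕ Fin 3) :
    Sys (V ⊕ Fin 3) := ⟨Sum.inr, Tb, par, 0, 0, 0, 0⟩

lemma exists_newest {Q : Finset V} (hQ : Q.Nonempty) : ∀ {l : List V}, (∀ u ∈ Q, u ∈ l) →
    ∃ pre u l', l = pre ++ u :: l' ∧ u ∈ Q ∧ ∀ v ∈ Q, v ≠ u → v ∈ l' := by
  intro l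
  induction l with
  | nil =>
    intro h
    obtain ⟨x, hx⟩ := hQ
    simpa using h x hx
  | cons a t ih =>
    intro h
    by_cases ha : a ∈ Q
    · refine ⟨[], a, t, rfl, ha, ?_⟩
      intro v hv hne
      rcases List.mem_cons.1 (h v hv) with e | e
      · exact absurd e hne
      · exact e
    · have h' : ∀ u ∈ Q, u ∈ t := by
        intro u hu
        rcases List.mem_cons.1 (h u hu) with e | e
        · exact absurd (e ▸ hu) ha
        · exact e
      obtain ⟨pre, u, l', e, h1, h2⟩ := ih h'
      exact ⟨a :: pre, u, l', by rw [e]; rfl, h1, h2⟩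

lemma Elim_suffix {A : V → Finset V} {pre l : List V} (h : Elim A (pre ++ l)) : Elim A l := by
  induction pre with
  | nil => exact h
  | cons a pre ih => exact ih h.2.2.2.2

lemma WF_congr {par par' : V ⊕ Fin 3 → Option ((V ⊕ Fin 3) × Fin 3)}
    {Tb Tb' : V ⊕ Fin 3 → Fin 3 → V ⊕ Fin 3} {l : List (V ⊕ Fin 3)}
    (h : WF (mk0 par Tb) l) (hp : ∀ m ∈ l, par' m = par m) : WF (mk0 par' Tb') l := by
  induction l with
  | nil => trivial
  | cons a l ih =>
    obtain ⟨h1, h2, h3, h4⟩ := h
    have hp' : ∀ m ∈ l, par' m = par m := fun m hm => hp m (List.mem_cons_of_mem _ hm)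
    refine ⟨h1, h2, ?_, ih h4 hp'⟩
    have e : (mk0 par' Tb').par a = (mk0 par Tb).par a := hp a (by simp)
    rcases h3 with c | ⟨u, c, d, f⟩
    · left; rw [e]; exact c
    · right; exact ⟨u, c, by rw [e]; exact d, f⟩

/-- The index not used by at most two vertices. -/
lemma exists_free {Y : Type} [DecidableEq Y] {B : Fin 3 → Y} (hB : Injective B) {Q : Finset Y}
    (hQ : Q.card ≤ 2) : ∃ c, B c ∉ Q := by
  by_contra hcon
  simp only [not_exists, not_not] at hcon
  have h1 : (Finset.univ.image B).card = 3 := by
    rw [Finset.card_image_of_injective _ hB]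
    simp
  have h2 : Finset.univ.image B ⊆ Q := by
    intro y hy
    obtain ⟨i, _, rfl⟩ := Finset.mem_image.1 hy
    exact hcon i
  have := Finset.card_le_card h2
  omega

lemma fin3_ne12 (c : Fin 3) : c + 1 ≠ c + 2 := by
  revert c
  decide

lemma fin3_other {c i : Fin 3} (h : i ≠ c) : i = c + 1 ∨ i = c + 2 := by
  revert c i
  decide

/-- The combinatorial system from elimination data. -/
theorem sys_exists {A : V → Finset V} : ∀ {L : List V}, Elim A L →
    ∃ (par : V ⊕ Fin 3 → Option ((V ⊕ Fin 3) × Fin 3)) (Tb : V ⊕ Fin 3 → Fin 3 → V ⊕ Fin 3),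
      (∀ m, par m = none → Tb m = Sum.inr) ∧
      (∀ m u c, par m = some (u, c) → Tb m = childT (Tb u) c u) ∧
      (∀ m, m ∉ L.map Sum.inl → par m = none) ∧
      WF (mk0 par Tb) (L.map Sum.inl) ∧
      (∀ z ∈ L, Injective (Tb (Sum.inl z))) ∧
      (∀ z ∈ L, ∀ u ∈ A z, ∃ i, Tb (Sum.inl z) i = Sum.inl u) := by
  intro L
  induction L with
  | nil =>
    intro _
    exact ⟨fun _ => none, fun _ => Sum.inr, fun _ _ => rfl, by simp, fun _ _ => rfl, trivial,
      by simp, by simp⟩
  | cons z l ih =>
    intro hE
    obtain ⟨hz, hA, hcard, hclq, hE'⟩ := hE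
    obtain ⟨par, Tb, h0, h1, h2, hW, hI, hR⟩ := ih hE'
    have hzm : (Sum.inl z : V ⊕ Fin 3) ∉ l.map Sum.inl := by
      intro h
      obtain ⟨a, ha, e⟩ := List.mem_map.1 h
      exact hz (Sum.inl_injective e ▸ ha)
    have hneI : ∀ i, (Sum.inr i : V ⊕ Fin 3) ≠ Sum.inl z := fun i => by simp
    rcases (A z).eq_empty_or_nonempty with hemp | hne
    · -- no parent
      have hpz : par (Sum.inl z) = none := h2 _ hzm
      refine ⟨par, Tb, h0, h1, ?_, ⟨hzm, hneI, Or.inl hpz, hW⟩, ?_, ?_⟩
      · intro m hm
        apply h2
        intro h
        apply hm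
        rw [List.map_cons]
        exact List.mem_cons_of_mem _ h
      · intro y hy
        rcases List.mem_cons.1 hy with rfl | hy'
        · rw [h0 _ hpz]; exact Sum.inr_injective
        · exact hI y hy'
      · intro y hy u hu
        rcases List.mem_cons.1 hy with rfl | hy'
        · rw [hemp] at hu; simp at hu
        · exact hR y hy' u hu
    · -- the newest element of `A z`
      obtain ⟨pre, u, l', e, huA, hnew⟩ := exists_newest hne hA
      have hul : u ∈ l := by rw [e]; simp
      have hE2 : Elim A (u :: l') := by
        rw [e] at hE'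
        exact Elim_suffix hE'
      have hWu : WF (mk0 par Tb) ((u :: l').map Sum.inl) := by
        have : WF (mk0 par Tb) (pre.map Sum.inl ++ (u :: l').map Sum.inl) := by
          rw [← List.map_append, ← e]; exact hW
        exact WF_suffix this
      have hBu : ∀ i, Tb (Sum.inl u) i ≠ Sum.inl u :=
        bag_ne (S := mk0 par Tb) h0 h1 hWu hWu.2.2.1
      have hIu := hI u hul
      -- the old part of `A z`
      set Q := ((A z).erase u).image (Sum.inl : V → V ⊕ Fin 3) with hQ
      have hQc : Q.card ≤ 2 := by
        have h3 : Q.card ≤ ((A z).erase u).card := Finset.card_image_le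
        rw [Finset.card_erase_of_mem huA] at h3
        omega
      obtain ⟨c, hc⟩ := exists_free hIu hQc
      have hinAu : ∀ v ∈ A z, v ≠ u → v ∈ A u := by
        intro v hv hvu
        rcases hclq v hv u huA hvu with h3 | h3
        · exact h3
        · exact absurd (Elim_mem hE2.2.2.2.2 (hnew v hv hvu) h3) hE2.1
      set par' := update par (Sum.inl z) (some (Sum.inl u, c)) with hpar'
      set Tb' := update Tb (Sum.inl z) (childT (Tb (Sum.inl u)) c (Sum.inl u)) with hTb'
      have huz : (Sum.inl u : V ⊕ Fin 3) ≠ Sum.inl z := by
        intro h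
        exact hz (Sum.inl_injective h ▸ hul)
      have hpl : ∀ m ∈ l.map Sum.inl, par' m = par m := by
        intro m hm
        rw [hpar', update_of_ne]
        intro h
        exact hzm (h ▸ hm)
      have hTl : ∀ m ∈ l.map Sum.inl, Tb' m = Tb m := by
        intro m hm
        rw [hTb', update_of_ne]
        intro h
        exact hzm (h ▸ hm)
      have hTu : Tb' (Sum.inl u) = Tb (Sum.inl u) := hTl _ (List.mem_map_of_mem hul)
      refine ⟨par', Tb', ?_, ?_, ?_, ⟨hzm, hneI, Or.inr ⟨Sum.inl u, c, ?_, ?_⟩, ?_⟩, ?_, ?_⟩
      · -- the root rule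
        intro m hm
        by_cases hmz : m = Sum.inl z
        · subst hmz
          rw [hpar', update_self] at hm
          simp at hm
        · rw [hpar', update_of_ne hmz] at hm
          rw [hTb', update_of_ne hmz]
          exact h0 m hm
      · -- the child rule
        intro m a c' hm
        by_cases hmz : m = Sum.inl z
        · subst hmz
          rw [hpar', update_self] at hm
          simp only [Option.some.injEq, Prod.mk.injEq] at hm
          rw [← hm.1, ← hm.2, hTu, hTb', update_self]
        · rw [hpar', update_of_ne hmz] at hm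
          rw [hTb', update_of_ne hmz, h1 m a c' hm]
          -- the parent lies in the list
          have hmL : m ∈ l.map Sum.inl := by
            by_contra hcon
            rw [h2 m hcon] at hm
            simp at hm
          have haL : a ∈ l.map Sum.inl := by
            rcases WF_mem_bag hW hmL with h3 | ⟨a', c'', h3, h4⟩
            · rw [show (mk0 par Tb).par m = par m from rfl, hm] at h3
              simp at h3
            · rw [show (mk0 par Tb).par m = par m from rfl, hm] at h3
              simp only [Option.some.injEq, Prod.mk.injEq] at h3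
              rw [h3.1]; exact h4
          rw [← hTl a haL]
      · -- outside the list
        intro m hm
        have hmz : m ≠ Sum.inl z := by
          intro h
          apply hm
          rw [h, List.map_cons]
          exact List.mem_cons_self
        have hml : m ∉ l.map Sum.inl := by
          intro h
          apply hm
          rw [List.map_cons]
          exact List.mem_cons_of_mem _ h
        rw [hpar', update_of_ne hmz]
        exact h2 m hml
      · show par' (Sum.inl z) = _
        rw [hpar', update_self]
      · exact List.mem_map_of_mem hul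
      · exact WF_congr hW hpl
      · -- injectivity
        intro y hy
        rcases List.mem_cons.1 hy with rfl | hy'
        · rw [hTb', update_self]
          intro i j hij
          have hne12 : c + 1 ≠ c + 2 := fin3_ne12 c
          rcases fin3_cases i with rfl | rfl | rfl <;> rcases fin3_cases j with rfl | rfl | rfl
          · rfl
          · exact absurd (hIu hij) hne12
          · exact absurd hij (hBu _)
          · exact absurd (hIu hij) hne12.symm
          · rfl
          · exact absurd hij (hBu _)
          · exact absurd hij.symm (hBu _)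
          · exact absurd hij.symm (hBu _)
          · rfl
        · rw [hTl _ (List.mem_map_of_mem hy')]
          exact hI y hy'
      · -- the ranges
        intro y hy v hv
        rcases List.mem_cons.1 hy with rfl | hy'
        · rw [hTb', update_self]
          by_cases hvu : v = u
          · subst hvu
            exact ⟨2, rfl⟩
          · obtain ⟨i, hi⟩ := hR u hul v (hinAu v hv hvu)
            have hic : i ≠ c := by
              rintro rfl
              apply hc
              rw [hi, hQ]
              exact Finset.mem_image_of_mem _ (Finset.mem_erase.2 ⟨hvu, hv⟩)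
            rcases fin3_other hic with rfl | rfl
            · exact ⟨0, hi⟩
            · exact ⟨1, hi⟩
        · rw [hTl _ (List.mem_map_of_mem hy')]
          exact hR y hy' v hv

end

end Vale.Agent.Lib.P235
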