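import Vale.Agent.Lib.P235.Defs
import Mathlib.Tactic

namespace Vale.Agent.Lib.P235

open Function

variable {V : Type} [DecidableEq V]

/-- A set of vertices which is a clique for the relation attached to `A`. -/
def Clq (A : V → Finset V) (Q : Finset V) : Prop :=
  ∀ u ∈ Q, ∀ v ∈ Q, u ≠ v → u ∈ A v ∨ v ∈ A u

/-- Elimination data along a list, newest vertex first. -/
def Elim (A : V → Finset V) : List V → Prop
  | [] => True
  | z :: l => z ∉ l ∧ (∀ u ∈ A z, u ∈ l) ∧ (A z).card ≤ 3 ∧ Clq A (A z) ∧ Elim A l

lemma Elim_mem {A : V → Finset V} {l : List V} (h : Elim A l) {z : V} (hz : z ∈ l) {u : V}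
    (hu : u ∈ A z) : u ∈ l := by
  induction l with
  | nil => simp at hz
  | cons a l ih =>
    obtain ⟨_, h2, _, _, h5⟩ := h
    rcases List.mem_cons.1 hz with rfl | hz'
    · exact List.mem_cons_of_mem _ (h2 u hu)
    · exact List.mem_cons_of_mem _ (ih h5 hz')

lemma Elim_congr {A A' : V → Finset V} {l : List V} (h : Elim A l) (hA : ∀ z ∈ l, A' z = A z) :
    Elim A' l := by
  induction l with
  | nil => trivial
  | cons a l ih =>
    obtain ⟨h1, h2, h3, h4, h5⟩ := h
    have hA' : ∀ z ∈ l, A' z = A z := fun z hz => hA z (List.mem_cons_of_mem _ hz)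
    have ea : A' a = A a := hA a (by simp)
    refine ⟨h1, ?_, ?_, ?_, ih h5 hA'⟩
    · rw [ea]; exact h2
    · rw [ea]; exact h3
    · rw [ea]
      intro u hu v hv huv
      have hu' : u ∈ l := h2 u hu
      have hv' : v ∈ l := h2 v hv
      rw [hA' v hv', hA' u hu']
      exact h4 u hu v hv huv

lemma Clq_congr {A A' : V → Finset V} {Q : Finset V} (h : Clq A Q) (hA : ∀ z ∈ Q, A' z = A z) :
    Clq A' Q := by
  intro u hu v hv huv
  rw [hA v hv, hA u hu]
  exact h u hu v hv huv

/-- Adding the new vertices of a bag, one at a time. -/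
lemma grow_bag (B : Finset V) (hB : B.card ≤ 4) (n : ℕ) :
    ∀ (L : List V) (A : V → Finset V) (Q : Finset V), (B \ Q).card = n → Q ⊆ B → Elim A L →
      (∀ u ∈ Q, u ∈ L) → Clq A Q → (∀ z ∈ B, z ∉ Q → z ∉ L) →
      ∃ (L' : List V) (A' : V → Finset V), Elim A' L' ∧ (∀ v, v ∈ L' ↔ v ∈ L ∨ v ∈ B) ∧
        (∀ z ∈ L, A' z = A z) ∧ Clq A' B := by
  induction n with
  | zero =>
    intro L A Q hn hQ hE hQL hC hnew
    have hB' : B = Q := by
      have : B \ Q = ∅ := Finset.card_eq_zero.1 hn
      exact Finset.Subset.antisymm (Finset.sdiff_eq_empty_iff_subset.1 this) hQ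
    refine ⟨L, A, hE, ?_, fun _ _ => rfl, hB' ▸ hC⟩
    intro v
    constructor
    · exact Or.inl
    · rintro (h | h)
      · exact h
      · exact hQL v (hB' ▸ h)
  | succ n ih =>
    intro L A Q hn hQ hE hQL hC hnew
    have hne : (B \ Q).Nonempty := Finset.card_pos.1 (by omega)
    obtain ⟨z, hz⟩ := hne
    obtain ⟨hzB, hzQ⟩ := Finset.mem_sdiff.1 hz
    have hzL : z ∉ L := hnew z hzB hzQ
    -- the new data
    have hcard : Q.card ≤ 3 := by
      have h1 : Q ⊂ B := by
        refine ⟨hQ, fun h => hzQ (h hzB)⟩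
      have := Finset.card_lt_card h1
      omega
    have hne' : ∀ u ∈ L, u ≠ z := fun u hu e => hzL (e ▸ hu)
    have hE' : Elim (update A z Q) (z :: L) := by
      refine ⟨hzL, ?_, ?_, ?_, ?_⟩
      · rw [update_self]; exact hQL
      · rw [update_self]; exact hcard
      · rw [update_self]
        apply Clq_congr hC
        intro y hy
        rw [update_of_ne (hne' y (hQL y hy))]
      · apply Elim_congr hE
        intro y hy
        rw [update_of_ne (hne' y hy)]
    have hC' : Clq (update A z Q) (insert z Q) := by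
      intro u hu v hv huv
      rcases Finset.mem_insert.1 hu with rfl | hu'
      · rcases Finset.mem_insert.1 hv with rfl | hv'
        · exact absurd rfl huv
        · right
          rw [update_self]; exact hv'
      · rcases Finset.mem_insert.1 hv with rfl | hv'
        · left
          rw [update_self]; exact hu'
        · rw [update_of_ne (hne' v (hQL v hv')), update_of_ne (hne' u (hQL u hu'))]
          exact hC u hu' v hv' huv
    have hcard2 : (B \ insert z Q).card = n := by
      have e : B \ insert z Q = (B \ Q).erase z := by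
        ext y
        simp only [Finset.mem_sdiff, Finset.mem_insert, Finset.mem_erase]
        tauto
      rw [e, Finset.card_erase_of_mem hz, hn]
      rfl
    obtain ⟨L', A', h1, h2, h3, h4⟩ := ih (z :: L) (update A z Q) (insert z Q) hcard2
      (Finset.insert_subset hzB hQ) hE'
      (by
        intro u hu
        rcases Finset.mem_insert.1 hu with rfl | hu'
        · simp
        · exact List.mem_cons_of_mem _ (hQL u hu'))
      hC'
      (by
        intro y hy hyQ
        simp only [Finset.mem_insert, not_or] at hyQ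
        rw [List.mem_cons]
        rintro (e | e)
        · exact hyQ.1 e
        · exact hnew y hy hyQ.2 e)
    refine ⟨L', A', h1, ?_, ?_, h4⟩
    · intro v
      rw [h2 v, List.mem_cons]
      constructor
      · rintro ((rfl | h) | h)
        · right; exact hzB
        · left; exact h
        · right; exact h
      · rintro (h | h)
        · left; right; exact h
        · right; exact h
    · intro y hy
      rw [h3 y (List.mem_cons_of_mem _ hy), update_of_ne (hne' y hy)]

section tree

variable {I : Type} {T : SimpleGraph I} {B : I → Finset V}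

/-- Walk connectivity inside a set of nodes. -/
def ConnIn (T : SimpleGraph I) (X : Set I) : Prop :=
  ∀ a ∈ X, ∀ b ∈ X, ∃ p : T.Walk a b, ∀ w ∈ p.support, w ∈ X

lemma walk_in_induce {X : Set I} {a b : X} (p : (T.induce X).Walk a b) :
    ∃ q : T.Walk a.1 b.1, ∀ w ∈ q.support, w ∈ X := by
  induction p with
  | nil => exact ⟨SimpleGraph.Walk.nil, by simp⟩
  | @cons u v w h p ih =>
    obtain ⟨q, hq⟩ := ih
    have h' : T.Adj u.1 v.1 := h
    refine ⟨SimpleGraph.Walk.cons h' q, ?_⟩
    intro y hy
    rw [SimpleGraph.Walk.support_cons, List.mem_cons] at hy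
    rcases hy with rfl | hy
    · exact u.2
    · exact hq y hy

lemma connIn_of_connected {X : Set I} (h : (T.induce X).Connected) : ConnIn T X := by
  intro a ha b hb
  obtain ⟨p⟩ := h.preconnected ⟨a, ha⟩ ⟨b, hb⟩
  exact walk_in_induce p

/-- Running intersection for a subtree. -/
lemma running_intersection (hT : T.IsTree) {X Y : Set I} (hX : ConnIn T X) (hY : ConnIn T Y)
    {t s t' : I} (hts : T.Adj t s) (hs : s ∈ X) (ht : t ∉ X) (ht' : t' ∈ X) (htY : t ∈ Y)
    (ht'Y : t' ∈ Y) : s ∈ Y := by
  classical
  obtain ⟨p1, hp1⟩ := hY t htY t' ht'Y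
  obtain ⟨p2, hp2⟩ := hX s hs t' ht'
  have hP2 : p2.bypass.IsPath := p2.bypass_isPath
  have hsup : ∀ w ∈ p2.bypass.support, w ∈ X := fun w hw =>
    hp2 w (p2.support_bypass_subset_support hw)
  have hcons : (SimpleGraph.Walk.cons hts p2.bypass).IsPath := by
    rw [SimpleGraph.Walk.cons_isPath_iff]
    exact ⟨hP2, fun h => ht (hsup t h)⟩
  have huniq : (⟨_, p1.bypass_isPath⟩ : T.Path t t') = ⟨_, hcons⟩ :=
    (hT.isAcyclic.subsingleton_path t t').elim _ _
  have e : p1.bypass = SimpleGraph.Walk.cons hts p2.bypass := congrArg Subtype.val huniq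
  apply hp1 s
  apply p1.support_bypass_subset_support
  rw [e]
  simp

/-- The growing induction. -/
lemma grow_tree [Fintype I] [DecidableEq I] (hT : T.IsTree) (hsub : ∀ v, ConnIn T {t | v ∈ B t})
    (hw : ∀ t, (B t).card ≤ 4) (n : ℕ) :
    ∀ (X : Finset I), (Xᶜ).card = n → ConnIn T (X : Set I) → (X : Set I).Nonempty →
      (∃ (L : List V) (A : V → Finset V), Elim A L ∧ (∀ v, v ∈ L ↔ ∃ t ∈ X, v ∈ B t) ∧
        ∀ t ∈ X, Clq A (B t)) →
      ∃ (L : List V) (A : V → Finset V), Elim A L ∧ (∀ v, v ∈ L ↔ ∃ t, v ∈ B t) ∧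
        ∀ t, Clq A (B t) := by
  classical
  induction n with
  | zero =>
    intro X hn _ _ h
    have hX : X = Finset.univ := by
      rw [Finset.card_eq_zero] at hn
      simpa using hn
    subst hX
    obtain ⟨L, A, h1, h2, h3⟩ := h
    exact ⟨L, A, h1, by simpa using h2, by simpa using h3⟩
  | succ n ih =>
    intro X hn hconn hne h
    have hne2 : (Xᶜ).Nonempty := Finset.card_pos.1 (by omega)
    obtain ⟨t', ht'⟩ := hne2
    obtain ⟨r, hr⟩ := hne
    obtain ⟨p⟩ := hT.1.preconnected r t'
    obtain ⟨d, _, hd1, hd2⟩ := p.exists_boundary_dart (X : Set I) hr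
      (by simpa using ht')
    obtain ⟨L, A, h1, h2, h3⟩ := h
    set s := d.fst with hs
    set t := d.snd with ht
    have hts : T.Adj t s := d.adj.symm
    have hsX : s ∈ X := by simpa using hd1
    have htX : t ∉ X := by simpa using hd2
    -- the common part
    set Q := (B t).filter (fun v => v ∈ L) with hQ
    have hQs : Q ⊆ B s := by
      intro v hv
      obtain ⟨hv1, hv2⟩ := Finset.mem_filter.1 hv
      obtain ⟨t1, ht1, ht2⟩ := (h2 v).1 hv2
      exact running_intersection hT hconn (hsub v) hts hsX (by simpa using htX)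
        (by simpa using ht1) hv1 ht2
    have hQC : Clq A Q := by
      intro u hu v hv huv
      exact h3 s hsX u (hQs hu) v (hQs hv) huv
    obtain ⟨L', A', g1, g2, g3, g4⟩ := grow_bag (B t) (hw t) _ L A Q rfl
      (Finset.filter_subset _ _) h1 (fun u hu => (Finset.mem_filter.1 hu).2) hQC
      (by
        intro z hz hzQ hzL
        exact hzQ (Finset.mem_filter.2 ⟨hz, hzL⟩))
    apply ih (insert t X)
    · have e : (insert t X)ᶜ = (Xᶜ).erase t := by
        ext y
        simp only [Finset.mem_compl, Finset.mem_insert, Finset.mem_erase]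
        tauto
      rw [e, Finset.card_erase_of_mem (by simpa using htX), hn]
      rfl
    · -- connectivity
      intro a ha b hb
      have ha' : a = t ∨ a ∈ X := by simpa using ha
      have hb' : b = t ∨ b ∈ X := by simpa using hb
      have hstep : ∀ c ∈ X, ∃ p : T.Walk t c, ∀ w ∈ p.support, w ∈ (insert t X : Finset I) := by
        intro c hc
        obtain ⟨q, hq⟩ := hconn s hsX c hc
        refine ⟨SimpleGraph.Walk.cons hts q, ?_⟩
        intro w hw
        rw [SimpleGraph.Walk.support_cons, List.mem_cons] at hw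
        rcases hw with rfl | hw
        · simp
        · have := hq w hw
          simp only [Finset.mem_insert]
          right
          simpa using this
      rcases ha' with rfl | ha'
      · rcases hb' with rfl | hb'
        · exact ⟨SimpleGraph.Walk.nil, by simp⟩
        · obtain ⟨q, hq⟩ := hstep b hb'
          exact ⟨q, fun w hw => by simpa using hq w hw⟩
      · rcases hb' with rfl | hb'
        · obtain ⟨q, hq⟩ := hstep a ha'
          refine ⟨q.reverse, fun w hw => ?_⟩
          rw [SimpleGraph.Walk.support_reverse, List.mem_reverse] at hw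
          simpa using hq w hw
        · obtain ⟨q, hq⟩ := hconn a ha' b hb'
          refine ⟨q, fun w hw => ?_⟩
          have := hq w hw
          simp only [Finset.coe_insert, Set.mem_insert_iff]
          right
          exact this
    · exact ⟨t, by simp⟩
    · refine ⟨L', A', g1, ?_, ?_⟩
      · intro v
        rw [g2 v, h2 v]
        constructor
        · rintro (⟨t1, ht1, ht2⟩ | h)
          · exact ⟨t1, Finset.mem_insert_of_mem ht1, ht2⟩
          · exact ⟨t, Finset.mem_insert_self _ _, h⟩
        · rintro ⟨t1, ht1, ht2⟩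
          rcases Finset.mem_insert.1 ht1 with rfl | ht1'
          · right; exact ht2
          · left; exact ⟨t1, ht1', ht2⟩
      · intro t1 ht1
        rcases Finset.mem_insert.1 ht1 with rfl | ht1'
        · exact g4
        · apply Clq_congr (h3 t1 ht1')
          intro z hz
          exact g3 z ((h2 z).2 ⟨t1, ht1', hz⟩)

end tree

/-- Elimination data from a tree decomposition of width at most three. -/
theorem elim_of_decomp {I : Type} [Fintype I] {G : SimpleGraph V} {T : SimpleGraph I} {B : I → Finset V}
    (hD : IsTreeDecomp G T B) (hw : ∀ t, (B t).card ≤ 4) :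
    ∃ (L : List V) (A : V → Finset V), Elim A L ∧ (∀ v, v ∈ L) ∧
      ∀ u v, G.Adj u v → u ∈ A v ∨ v ∈ A u := by
  classical
  have hsub : ∀ v, ConnIn T {t | v ∈ B t} := fun v => connIn_of_connected (hD.subtree v)
  obtain ⟨r⟩ := hD.isTree.1.nonempty
  -- the first bag
  obtain ⟨L0, A0, a1, a2, _, a4⟩ := grow_bag (B r) (hw r) _ [] (fun _ => ∅) ∅ rfl
    (Finset.empty_subset _) trivial (by simp)
    (by intro u hu; simp at hu) (by simp)
  obtain ⟨L, A, h1, h2, h3⟩ := grow_tree hD.isTree hsub hw _ {r} rfl
    (by
      intro a ha b hb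
      have ha' : a = r := by simpa using ha
      have hb' : b = r := by simpa using hb
      subst ha' hb'
      exact ⟨SimpleGraph.Walk.nil, by simp⟩)
    ⟨r, by simp⟩
    ⟨L0, A0, a1, by
      intro v
      rw [a2 v]
      simp, by
      intro t ht
      have : t = r := by simpa using ht
      rw [this]; exact a4⟩
  refine ⟨L, A, h1, ?_, ?_⟩
  · intro v
    obtain ⟨⟨t, ht⟩⟩ := (hD.subtree v).nonempty
    exact (h2 v).2 ⟨t, ht⟩
  · intro u v huv
    obtain ⟨t, h4, h5⟩ := hD.edge_mem u v huv
    exact h3 t u h4 v h5 huv.ne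

end Vale.Agent.Lib.P235
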